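import Vale.Agent.P088.R2.H551.E.Dens

/-!
# P088, zone B1, cells: cut-off functions in the star density

For a family `ψ_k` with `∑ ψ_k² = 1` on `U`, the sum of the star densities of `(ψ_k a, ψ_k b)` is the
star density of `(a, b)` plus `8 ∑ TH(a Dψ_k, b D'ψ_k)`.
-/

set_option linter.unusedSectionVars false

open MeasureTheory Set Filter
open scoped ContDiff Topology

noncomputable section

namespace Vale.Agent.P088.R2.H676.F

open Vale.Agent.P088.R2.H961.GW Vale.Agent.P088.R2.H960.W Vale.Agent.P088.R2.H644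
open Vale.Agent.P088.R2.H551.E

variable {E ι κ : Type*} [NormedAddCommGroup E] [NormedSpace ℝ E] [Fintype ι] [Fintype κ]

/-- The coefficients of `Dψ` (slot `σ`). -/
def al (σ : Sl E ι) (τ : Sl E κ) (W a b : E → ℝ) (z : E) (i : ι) : ℝ :=
  -(8 * (a z * (∑ l, σ.Hc W i l z * Ch.XX σ W a z l) + a z * (∑ l, σ.Hc W l i z * Ch.XX σ W a z l) +
    2 * (a z * ∑ k, Ch.Mc σ τ W i k z * Ch.XX τ W b z k))) +
  8 * (a z ^ 2 * (∑ j, σ.s j i z * σ.D j (σ.Λ W) z) +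
    a z * b z * (∑ j, σ.s j i z * σ.D j (τ.Λ W) z))

/-- The coefficients of `Dψ` (slot `τ`). -/
def be (σ : Sl E ι) (τ : Sl E κ) (W a b : E → ℝ) (z : E) (k : κ) : ℝ :=
  -(8 * (b z * (∑ m, τ.Hc W k m z * Ch.XX τ W b z m) + b z * (∑ m, τ.Hc W m k z * Ch.XX τ W b z m) +
    2 * (b z * ∑ i, Ch.Mc σ τ W i k z * Ch.XX σ W a z i))) +
  8 * (a z * b z * (∑ j, τ.s j k z * τ.D j (σ.Λ W) z) +
    b z ^ 2 * (∑ j, τ.s j k z * τ.D j (τ.Λ W) z))

omit [Fintype ι] in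
theorem XX_cut (σ : Sl E ι) {U : Set E} (hU : IsOpen U) {W ψ a : E → ℝ} (hψ : Sm U ψ)
    (ha : Sm U a) {z : E} (hz : z ∈ U) (i : ι) :
    Ch.XX σ W (fun w => ψ w * a w) z i = ψ z * Ch.XX σ W a z i - a z * σ.D i ψ z := by
  unfold Ch.XX
  rw [D_mul σ hU hψ ha i hz]
  ring

theorem quad_cut {n : Type*} [Fintype n] (H : n → n → ℝ) (p a : ℝ) (X g : n → ℝ) :
    ∑ i, ∑ l, H i l * (p * X i - a * g i) * (p * X l - a * g l) =
      p ^ 2 * (∑ i, ∑ l, H i l * X i * X l) -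
      p * (∑ i, (a * (∑ l, H i l * X l) + a * (∑ l, H l i * X l)) * g i) +
      ∑ i, ∑ l, H i l * (a * g i) * (a * g l) := by
  have e1 : ∑ i, a * (∑ l, H l i * X l) * g i = ∑ i, ∑ l, H i l * X i * (a * g l) := by
    rw [Finset.sum_comm (f := fun i l => H i l * X i * (a * g l))]
    refine Finset.sum_congr rfl fun i _ => ?_
    rw [Finset.mul_sum, Finset.sum_mul]
    exact Finset.sum_congr rfl fun l _ => by ring
  have e2 : ∑ i, a * (∑ l, H i l * X l) * g i = ∑ i, ∑ l, H i l * (a * g i) * X l := by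
    refine Finset.sum_congr rfl fun i _ => ?_
    rw [Finset.mul_sum, Finset.sum_mul]
    exact Finset.sum_congr rfl fun l _ => by ring
  simp only [add_mul, Finset.sum_add_distrib]
  rw [e1, e2, Finset.mul_sum, mul_add, Finset.mul_sum, Finset.mul_sum, ← Finset.sum_add_distrib,
    ← Finset.sum_sub_distrib, ← Finset.sum_add_distrib]
  refine Finset.sum_congr rfl fun i _ => ?_
  rw [Finset.mul_sum, Finset.mul_sum, Finset.mul_sum, ← Finset.sum_add_distrib,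
    ← Finset.sum_sub_distrib, ← Finset.sum_add_distrib]
  exact Finset.sum_congr rfl fun l _ => by ring

theorem mix_cut {n m : Type*} [Fintype n] [Fintype m] (M : n → m → ℝ) (p a b : ℝ)
    (X g : n → ℝ) (Y h : m → ℝ) :
    ∑ i, ∑ k, M i k * (p * X i - a * g i) * (p * Y k - b * h k) =
      p ^ 2 * (∑ i, ∑ k, M i k * X i * Y k) -
      p * (∑ i, (a * ∑ k, M i k * Y k) * g i + ∑ k, (b * ∑ i, M i k * X i) * h k) +
      ∑ i, ∑ k, M i k * (a * g i) * (b * h k) := by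
  have e1 : ∑ k, (b * ∑ i, M i k * X i) * h k = ∑ i, ∑ k, M i k * X i * (b * h k) := by
    rw [Finset.sum_comm (f := fun i k => M i k * X i * (b * h k))]
    refine Finset.sum_congr rfl fun k _ => ?_
    rw [Finset.mul_sum, Finset.sum_mul]
    exact Finset.sum_congr rfl fun l _ => by ring
  have e2 : ∑ i, (a * ∑ k, M i k * Y k) * g i = ∑ i, ∑ k, M i k * (a * g i) * Y k := by
    refine Finset.sum_congr rfl fun i _ => ?_
    rw [Finset.mul_sum, Finset.sum_mul]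
    exact Finset.sum_congr rfl fun l _ => by ring
  rw [e1, e2, Finset.mul_sum, mul_add, Finset.mul_sum, Finset.mul_sum, ← Finset.sum_add_distrib,
    ← Finset.sum_sub_distrib, ← Finset.sum_add_distrib]
  refine Finset.sum_congr rfl fun i _ => ?_
  rw [Finset.mul_sum, Finset.mul_sum, Finset.mul_sum, ← Finset.sum_add_distrib,
    ← Finset.sum_sub_distrib, ← Finset.sum_add_distrib]
  exact Finset.sum_congr rfl fun l _ => by ring

section pw

variable {σ : Sl E ι} {τ : Sl E κ} {U : Set E} {W v₁ v₂ ψ a b : E → ℝ} {z : E}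

theorem X1_cut (hU : IsOpen U) (hψ : Sm U ψ) (ha : Sm U a) (f : E → ℝ) (hz : z ∈ U) :
    Ch.X1 σ W f (fun w => ψ w * a w) z = ψ z * Ch.X1 σ W f a z -
      a z * ∑ i, (∑ j, σ.s j i z * σ.D j f z) * σ.D i ψ z := by
  have e : ∑ i, (∑ j, σ.s j i z * σ.D j f z) * σ.D i ψ z = σ.Γ f ψ z := by
    unfold Sl.Γ
    simp only [Finset.sum_mul]
    exact Finset.sum_comm
  have e1 : σ.Γ f (fun w => ψ w * a w) z = ψ z * σ.Γ f a z + a z * σ.Γ f ψ z := by
    unfold Sl.Γ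
    simp only [Finset.mul_sum, ← Finset.sum_add_distrib]
    refine Finset.sum_congr rfl fun i _ => Finset.sum_congr rfl fun j _ => ?_
    rw [D_mul σ hU hψ ha j hz]
    ring
  rw [e]
  unfold Ch.X1
  rw [e1]
  ring

theorem TH_cut (hU : IsOpen U) (hψ : Sm U ψ) (ha : Sm U a) (hb : Sm U b) (hz : z ∈ U) :
    Ch.TH σ τ W z (Ch.XX σ W (fun w => ψ w * a w) z) (Ch.XX τ W (fun w => ψ w * b w) z) =
      ψ z ^ 2 * Ch.TH σ τ W z (Ch.XX σ W a z) (Ch.XX τ W b z) -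
      ψ z * (∑ i, (a z * (∑ l, σ.Hc W i l z * Ch.XX σ W a z l) +
          a z * (∑ l, σ.Hc W l i z * Ch.XX σ W a z l) +
          2 * (a z * ∑ k, Ch.Mc σ τ W i k z * Ch.XX τ W b z k)) * σ.D i ψ z +
        ∑ k, (b z * (∑ m, τ.Hc W k m z * Ch.XX τ W b z m) +
          b z * (∑ m, τ.Hc W m k z * Ch.XX τ W b z m) +
          2 * (b z * ∑ i, Ch.Mc σ τ W i k z * Ch.XX σ W a z i)) * τ.D k ψ z) +
      Ch.TH σ τ W z (fun i => a z * σ.D i ψ z) (fun k => b z * τ.D k ψ z) := by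
  have h1 := quad_cut (fun i l => σ.Hc W i l z) (ψ z) (a z) (Ch.XX σ W a z) (fun i => σ.D i ψ z)
  have h2 := mix_cut (fun i k => Ch.Mc σ τ W i k z) (ψ z) (a z) (b z) (Ch.XX σ W a z)
    (fun i => σ.D i ψ z) (Ch.XX τ W b z) (fun k => τ.D k ψ z)
  have h3 := quad_cut (fun k m => τ.Hc W k m z) (ψ z) (b z) (Ch.XX τ W b z) (fun k => τ.D k ψ z)
  unfold Ch.TH
  simp only [XX_cut σ hU hψ ha hz, XX_cut τ hU hψ hb hz]
  rw [h1, h2, h3]
  have e4 : ∀ i, (a z * (∑ l, σ.Hc W i l z * Ch.XX σ W a z l) +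
          a z * (∑ l, σ.Hc W l i z * Ch.XX σ W a z l) +
          2 * (a z * ∑ k, Ch.Mc σ τ W i k z * Ch.XX τ W b z k)) * σ.D i ψ z =
      (a z * (∑ l, σ.Hc W i l z * Ch.XX σ W a z l) +
          a z * (∑ l, σ.Hc W l i z * Ch.XX σ W a z l)) * σ.D i ψ z +
      2 * ((a z * ∑ k, Ch.Mc σ τ W i k z * Ch.XX τ W b z k) * σ.D i ψ z) := fun i => by ring
  have e5 : ∀ k, (b z * (∑ m, τ.Hc W k m z * Ch.XX τ W b z m) +
          b z * (∑ m, τ.Hc W m k z * Ch.XX τ W b z m) +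
          2 * (b z * ∑ i, Ch.Mc σ τ W i k z * Ch.XX σ W a z i)) * τ.D k ψ z =
      (b z * (∑ m, τ.Hc W k m z * Ch.XX τ W b z m) +
          b z * (∑ m, τ.Hc W m k z * Ch.XX τ W b z m)) * τ.D k ψ z +
      2 * ((b z * ∑ i, Ch.Mc σ τ W i k z * Ch.XX σ W a z i) * τ.D k ψ z) := fun k => by ring
  simp only [e4, e5, Finset.sum_add_distrib, ← Finset.mul_sum]
  ring

/-- One cut-off function. -/
theorem sta_cut (hU : IsOpen U) (hψ : Sm U ψ) (ha : Sm U a) (hb : Sm U b) (hz : z ∈ U) :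
    sta σ τ v₁ v₂ W (fun w => ψ w * a w) (fun w => ψ w * b w) z =
      ψ z ^ 2 * sta σ τ v₁ v₂ W a b z +
      (∑ i, al σ τ W a b z i * (ψ z * σ.D i ψ z) + ∑ k, be σ τ W a b z k * (ψ z * τ.D k ψ z)) +
      8 * Ch.TH σ τ W z (fun i => a z * σ.D i ψ z) (fun k => b z * τ.D k ψ z) := by
  unfold sta qs
  rw [TH_cut hU hψ ha hb hz, X1_cut hU hψ ha (σ.Λ W) hz, X1_cut hU hψ ha (τ.Λ W) hz,
    X1_cut hU hψ hb (σ.Λ W) hz, X1_cut hU hψ hb (τ.Λ W) hz]
  have e1 : ∑ i, al σ τ W a b z i * (ψ z * σ.D i ψ z) =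
      -(8 * ψ z * ∑ i, (a z * (∑ l, σ.Hc W i l z * Ch.XX σ W a z l) +
          a z * (∑ l, σ.Hc W l i z * Ch.XX σ W a z l) +
          2 * (a z * ∑ k, Ch.Mc σ τ W i k z * Ch.XX τ W b z k)) * σ.D i ψ z) +
      8 * ψ z * (a z ^ 2 * (∑ i, (∑ j, σ.s j i z * σ.D j (σ.Λ W) z) * σ.D i ψ z) +
        a z * b z * (∑ i, (∑ j, σ.s j i z * σ.D j (τ.Λ W) z) * σ.D i ψ z)) := by
    simp only [Finset.mul_sum (s := Finset.univ) (a := 8 * ψ z), al]
    rw [Finset.mul_sum (a := a z ^ 2), Finset.mul_sum (a := a z * b z), ← Finset.sum_add_distrib,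
      Finset.mul_sum, ← Finset.sum_neg_distrib, ← Finset.sum_add_distrib]
    exact Finset.sum_congr rfl fun i _ => by ring
  have e2 : ∑ k, be σ τ W a b z k * (ψ z * τ.D k ψ z) =
      -(8 * ψ z * ∑ k, (b z * (∑ m, τ.Hc W k m z * Ch.XX τ W b z m) +
          b z * (∑ m, τ.Hc W m k z * Ch.XX τ W b z m) +
          2 * (b z * ∑ i, Ch.Mc σ τ W i k z * Ch.XX σ W a z i)) * τ.D k ψ z) +
      8 * ψ z * (a z * b z * (∑ k, (∑ j, τ.s j k z * τ.D j (σ.Λ W) z) * τ.D k ψ z) +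
        b z ^ 2 * (∑ k, (∑ j, τ.s j k z * τ.D j (τ.Λ W) z) * τ.D k ψ z)) := by
    simp only [Finset.mul_sum (s := Finset.univ) (a := 8 * ψ z), be]
    rw [Finset.mul_sum (a := b z ^ 2), Finset.mul_sum (a := a z * b z), ← Finset.sum_add_distrib,
      Finset.mul_sum, ← Finset.sum_neg_distrib, ← Finset.sum_add_distrib]
    exact Finset.sum_congr rfl fun i _ => by ring
  rw [e1, e2]
  ring

omit [Fintype ι] in
theorem D_cells {α : Type*} (hU : IsOpen U) (S : Finset α) {χ : α → E → ℝ}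
    (hχ : ∀ k ∈ S, Sm U (χ k)) (h1 : ∀ z ∈ U, ∑ k ∈ S, χ k z ^ 2 = 1) (σ : Sl E ι) (i : ι)
    (hz : z ∈ U) : ∑ k ∈ S, χ k z * σ.D i (χ k) z = 0 := by
  have e1 := D_sum σ hU S (f := fun k z => χ k z ^ 2) (fun k hk => (hχ k hk).pow 2) i hz
  have e2 : σ.D i (fun z => ∑ k ∈ S, χ k z ^ 2) z = 0 := by
    rw [D_congr σ hU (g := fun _ => (1 : ℝ)) h1 i hz, D_const]
  rw [e2, Finset.sum_congr rfl fun k hk => D_sq σ hU (hχ k hk) i hz] at e1
  have e3 : ∑ k ∈ S, 2 * χ k z * σ.D i (χ k) z = 2 * ∑ k ∈ S, χ k z * σ.D i (χ k) z := by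
    rw [Finset.mul_sum]
    exact Finset.sum_congr rfl fun k _ => by ring
  rw [e3] at e1
  linarith

/-- **The sum over the cells.** -/
theorem sta_cells {α : Type*} (hU : IsOpen U) (S : Finset α) {χ : α → E → ℝ}
    (hχ : ∀ k ∈ S, Sm U (χ k)) (h1 : ∀ z ∈ U, ∑ k ∈ S, χ k z ^ 2 = 1) (ha : Sm U a)
    (hb : Sm U b) (hz : z ∈ U) :
    ∑ k ∈ S, sta σ τ v₁ v₂ W (fun w => χ k w * a w) (fun w => χ k w * b w) z =
      sta σ τ v₁ v₂ W a b z +
      8 * ∑ k ∈ S, Ch.TH σ τ W z (fun i => a z * σ.D i (χ k) z)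
        (fun m => b z * τ.D m (χ k) z) := by
  rw [Finset.sum_congr rfl fun k hk => sta_cut hU (hχ k hk) ha hb hz,
    Finset.sum_add_distrib, Finset.sum_add_distrib, ← Finset.sum_mul, h1 z hz, one_mul,
    Finset.sum_add_distrib, ← Finset.mul_sum]
  have e1 : ∑ k ∈ S, ∑ i, al σ τ W a b z i * (χ k z * σ.D i (χ k) z) = 0 := by
    rw [Finset.sum_comm]
    refine Finset.sum_eq_zero fun i _ => ?_
    rw [← Finset.mul_sum, D_cells hU S hχ h1 σ i hz, mul_zero]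
  have e2 : ∑ k ∈ S, ∑ i, be σ τ W a b z i * (χ k z * τ.D i (χ k) z) = 0 := by
    rw [Finset.sum_comm]
    refine Finset.sum_eq_zero fun i _ => ?_
    rw [← Finset.mul_sum, D_cells hU S hχ h1 τ i hz, mul_zero]
  rw [e1, e2]
  ring

end pw

end Vale.Agent.P088.R2.H676.F
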