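import Vale.Agent.P088.R2.H676.F.Df
import Vale.Agent.P088.R2.H676.F.Cel

/-!
# P088, zone B1, cells: densities of margin and costs, cut-off functions

`mm`: margin; `cc`: costs; all operators are the true ones.  For a family `ψ_k` with `∑ ψ_k² = 1`:
`mm(a, b) ≤ ∑ mm(ψ_k a, ψ_k b)` and `∑ cc(ψ_k ..) ≤ 2 cc + 112 ρ mm`.
-/

set_option linter.unusedSectionVars false

open MeasureTheory Set Filter
open scoped ContDiff Topology

noncomputable section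

namespace Vale.Agent.P088.R2.H676.F

open Vale.Agent.P088.R2.H961.GW Vale.Agent.P088.R2.H960.W Vale.Agent.P088.R2.H644
open Vale.Agent.P088.R2.H551.E Vale.Agent.P088.R2.H516.O Vale.Agent.P088.R2.H86.Z

variable {E ι : Type*} [NormedAddCommGroup E] [NormedSpace ℝ E] [Fintype ι]

/-- The density of the margin. -/
def mm (σ τ : Sl E ι) (W e wc hi a b : E → ℝ) (z : E) : ℝ :=
  e z * (a z + b z) ^ 2 + wc z * (a z - b z) ^ 2 +
    (hi z * K2 σ τ W (fun w => a w - b w) z + Y2 σ τ W (fun w => a w - b w) z) +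
    hi z * Y2 σ τ W (fun w => a w + b w) z

/-- The density of the four squares. -/
def s4 (s₁ s₂ s₃ s₄ : E → ℝ) (z : E) : ℝ := s₁ z ^ 2 + s₂ z ^ 2 + (s₃ z ^ 2 + s₄ z ^ 2)

/-- The density of the costs. -/
def cc (σ τ : Sl E ι) (v₁ v₂ W h d a b s₁ s₂ s₃ s₄ : E → ℝ) (z : E) : ℝ :=
  (Sp σ τ v₁ v₂ W (fun w => a w + b w) z - s₁ z) ^ 2 +
    (Rp σ τ v₁ v₂ W (fun w => a w + b w) z - s₂ z) ^ 2 +
    h z * (Sp σ τ v₁ v₂ W (fun w => a w - b w) z - s₃ z) ^ 2 +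
    (Rp σ τ v₁ v₂ W (fun w => a w - b w) z - s₄ z) ^ 2 +
    d z * DK2 σ τ W (fun w => a w - b w) z

/-- `g_j = (D₁_j + D₂_j) ψ`. -/
def gj (σ τ : Sl E ι) (ψ : E → ℝ) (j : ι) (z : E) : ℝ := σ.D j ψ z + τ.D j ψ z

/-! ## Algebra of a partition -/

section alg

variable {α : Type*} (S : Finset α)

theorem ps_eq (ψ x : α → ℝ) (X f : ℝ) (h1 : ∑ k ∈ S, ψ k ^ 2 = 1)
    (h2 : ∑ k ∈ S, ψ k * x k = 0) :
    ∑ k ∈ S, (ψ k * X + f * x k) ^ 2 = X ^ 2 + f ^ 2 * ∑ k ∈ S, x k ^ 2 := by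
  have e : ∀ k ∈ S, (ψ k * X + f * x k) ^ 2 =
      ψ k ^ 2 * X ^ 2 + 2 * X * f * (ψ k * x k) + f ^ 2 * x k ^ 2 := fun k _ => by ring
  rw [Finset.sum_congr rfl e, Finset.sum_add_distrib, Finset.sum_add_distrib, ← Finset.sum_mul,
    ← Finset.mul_sum, ← Finset.mul_sum, h1, h2]
  ring

theorem ps_ge (ψ x : α → ℝ) (X f : ℝ) (h1 : ∑ k ∈ S, ψ k ^ 2 = 1)
    (h2 : ∑ k ∈ S, ψ k * x k = 0) :
    X ^ 2 ≤ ∑ k ∈ S, (ψ k * X + f * x k) ^ 2 := by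
  rw [ps_eq S ψ x X f h1 h2]
  have : 0 ≤ f ^ 2 * ∑ k ∈ S, x k ^ 2 :=
    mul_nonneg (sq_nonneg _) (Finset.sum_nonneg fun _ _ => sq_nonneg _)
  linarith

theorem ps_le (ψ x : α → ℝ) (X s : ℝ) (h1 : ∑ k ∈ S, ψ k ^ 2 = 1) :
    ∑ k ∈ S, (ψ k * X + x k - ψ k * s) ^ 2 ≤ 2 * (X - s) ^ 2 + 2 * ∑ k ∈ S, x k ^ 2 := by
  calc ∑ k ∈ S, (ψ k * X + x k - ψ k * s) ^ 2
      ≤ ∑ k ∈ S, (2 * (ψ k ^ 2 * (X - s) ^ 2) + 2 * x k ^ 2) :=
        Finset.sum_le_sum fun k _ => by nlinarith [sq_nonneg (ψ k * (X - s) - x k)]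
    _ = _ := by
        rw [Finset.sum_add_distrib, ← Finset.mul_sum, ← Finset.mul_sum, ← Finset.sum_mul, h1]
        ring

theorem ps_le4 (ψ p q r : α → ℝ) (X : ℝ) (h1 : ∑ k ∈ S, ψ k ^ 2 = 1) :
    ∑ k ∈ S, (ψ k * X + p k + q k + r k) ^ 2 ≤ 2 * X ^ 2 +
      6 * (∑ k ∈ S, p k ^ 2 + ∑ k ∈ S, q k ^ 2 + ∑ k ∈ S, r k ^ 2) := by
  calc ∑ k ∈ S, (ψ k * X + p k + q k + r k) ^ 2
      ≤ ∑ k ∈ S, (2 * (ψ k ^ 2 * X ^ 2) + 6 * (p k ^ 2 + q k ^ 2 + r k ^ 2)) :=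
        Finset.sum_le_sum fun k _ => by
          nlinarith [sq_nonneg (ψ k * X - p k - q k - r k), sq_nonneg (p k - q k),
            sq_nonneg (q k - r k), sq_nonneg (p k - r k)]
    _ = _ := by
        rw [Finset.sum_add_distrib, ← Finset.mul_sum, ← Finset.mul_sum, ← Finset.sum_mul, h1,
          Finset.sum_add_distrib, Finset.sum_add_distrib]
        ring

end alg

/-! ## One cut-off function -/

section pw

variable {σ τ : Sl E ι} {U : Set E} {θ : E → ℝ} {v v₁ v₂ W f g ψ a b e wc hi h d : E → ℝ}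
  {s₁ s₂ s₃ s₄ : E → ℝ} {z : E}

theorem sgj (ok : σ.Ok U θ) (ot : τ.Ok U θ) (hψ : Sm U ψ) (j : ι) : Sm U (gj σ τ ψ j) :=
  (ok.sD hψ j).add (ot.sD hψ j)

theorem sKj (ok : σ.Ok U θ) (ot : τ.Ok U θ) (hW : Sm U W) (hf : Sm U f) (j : ι) :
    Sm U (Kj σ τ W f j) := (sY ok hW hf j).add (sY ot hW hf j)

theorem YY_add (ok : σ.Ok U θ) (hf : Sm U f) (hg : Sm U g) (i : ι) (hz : z ∈ U) :
    YY σ W (fun w => f w + g w) i z = YY σ W f i z + YY σ W g i z := by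
  unfold YY
  rw [D_add σ ok.op hf hg i hz]
  ring

theorem YY_sub (ok : σ.Ok U θ) (hf : Sm U f) (hg : Sm U g) (i : ι) (hz : z ∈ U) :
    YY σ W (fun w => f w - g w) i z = YY σ W f i z - YY σ W g i z := by
  unfold YY
  rw [D_sub σ ok.op hf hg i hz]
  ring

theorem YY_congr (ok : σ.Ok U θ) (h : ∀ w ∈ U, f w = g w) (i : ι) (hz : z ∈ U) :
    YY σ W f i z = YY σ W g i z := by
  unfold YY
  rw [D_congr σ ok.op h i hz, h z hz]

theorem Kj_mul (ok : σ.Ok U θ) (ot : τ.Ok U θ) (hψ : Sm U ψ) (hf : Sm U f) (j : ι)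
    (hz : z ∈ U) : Kj σ τ W (fun w => ψ w * f w) j z = ψ z * Kj σ τ W f j z +
      f z * gj σ τ ψ j z := by
  unfold Kj gj
  rw [YY_mul ok W hψ hf j hz, YY_mul ot W hψ hf j hz]
  ring

theorem DKij_mul (ok : σ.Ok U θ) (ot : τ.Ok U θ) (hW : Sm U W) (hψ : Sm U ψ) (hf : Sm U f)
    (i j : ι) (hz : z ∈ U) : DKij σ τ W (fun w => ψ w * f w) i j z =
      ψ z * DKij σ τ W f i j z + (σ.D i ψ z - τ.D i ψ z) * Kj σ τ W f j z +
      gj σ τ ψ j z * (YY σ W f i z - YY τ W f i z) +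
      (σ.D i (gj σ τ ψ j) z - τ.D i (gj σ τ ψ j) z) * f z := by
  have k1 := sKj ok ot hW hf j
  have g1 := sgj ok ot hψ j
  have e : ∀ w ∈ U, Kj σ τ W (fun w => ψ w * f w) j w =
      ψ w * Kj σ τ W f j w + gj σ τ ψ j w * f w := fun w hw => by
    rw [Kj_mul ok ot hψ hf j hw]; ring
  unfold DKij
  rw [YY_congr ok e i hz, YY_congr ot e i hz, YY_add ok (hψ.mul k1) (g1.mul hf) i hz,
    YY_add ot (hψ.mul k1) (g1.mul hf) i hz, YY_mul ok W hψ k1 i hz, YY_mul ot W hψ k1 i hz,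
    YY_mul ok W g1 hf i hz, YY_mul ot W g1 hf i hz]
  ring

theorem Sp_mul (ok : σ.Ok U θ) (ot : τ.Ok U θ) (hψ : Sm U ψ) (hf : Sm U f) (hz : z ∈ U) :
    Sp σ τ v₁ v₂ W (fun w => ψ w * f w) z = ψ z * Sp σ τ v₁ v₂ W f z +
      (σ.N W ψ f z + τ.N W ψ f z) / 2 := by
  unfold Sp
  rw [P_mul ok v₁ W hψ hf hz, P_mul ot v₂ W hψ hf hz]
  ring

theorem Rp_mul (ok : σ.Ok U θ) (ot : τ.Ok U θ) (hψ : Sm U ψ) (hf : Sm U f) (hz : z ∈ U) :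
    Rp σ τ v₁ v₂ W (fun w => ψ w * f w) z = ψ z * Rp σ τ v₁ v₂ W f z +
      (σ.N W ψ f z - τ.N W ψ f z) / 2 := by
  unfold Rp
  rw [P_mul ok v₁ W hψ hf hz, P_mul ot v₂ W hψ hf hz]
  ring

/-- The Cauchy–Schwarz inequality for the tensor. -/
theorem el_cs (ok : σ.Ok U θ) (el : El σ z) (A B : ι → ℝ) :
    (∑ i, ∑ j, σ.s i j z * A i * B j) ^ 2 ≤ 4 * ((∑ i, A i ^ 2) * ∑ i, B i ^ 2) := by
  have nn : ∀ C : ι → ℝ, 0 ≤ ∑ i, ∑ j, σ.s i j z * C i * C j := fun C => by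
    have h1 := el.lo C
    have h2 : 0 ≤ ∑ i, C i ^ 2 := Finset.sum_nonneg fun _ _ => sq_nonneg _
    linarith
  have key : ∀ t : ℝ, 0 ≤ (∑ i, ∑ j, σ.s i j z * A i * A j) * (t * t) +
      2 * (∑ i, ∑ j, σ.s i j z * A i * B j) * t + ∑ i, ∑ j, σ.s i j z * B i * B j := by
    intro t
    have h := nn fun i => t * A i + B i
    have c : ∑ i, ∑ j, σ.s i j z * B i * A j = ∑ i, ∑ j, σ.s i j z * A i * B j := by
      rw [Finset.sum_comm]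
      exact Finset.sum_congr rfl fun i _ => Finset.sum_congr rfl fun j _ => by
        rw [ok.sy j i z]; ring
    have e : ∑ i, ∑ j, σ.s i j z * (t * A i + B i) * (t * A j + B j) =
        (∑ i, ∑ j, σ.s i j z * A i * A j) * (t * t) +
        ((∑ i, ∑ j, σ.s i j z * A i * B j) * t + (∑ i, ∑ j, σ.s i j z * B i * A j) * t) +
        ∑ i, ∑ j, σ.s i j z * B i * B j := by
      simp only [Finset.sum_mul, ← Finset.sum_add_distrib]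
      exact Finset.sum_congr rfl fun i _ => Finset.sum_congr rfl fun j _ => by ring
    rw [c] at e
    rw [e] at h
    linarith
  have h1 := discrim_le_zero key
  unfold discrim at h1
  have h2 : (∑ i, ∑ j, σ.s i j z * A i * B j) ^ 2 ≤
      (∑ i, ∑ j, σ.s i j z * A i * A j) * ∑ i, ∑ j, σ.s i j z * B i * B j := by nlinarith
  refine h2.trans ?_
  have h3 := mul_le_mul (el.up A) (el.up B) (nn B)
    (mul_nonneg (by norm_num) (Finset.sum_nonneg fun i _ => sq_nonneg (A i)))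
  linarith

/-- The commutator of `P` and `ψ` in the dressed derivatives. -/
theorem N_eq (ok : σ.Ok U θ) (W ψ f : E → ℝ) (z : E) : σ.N W ψ f z =
    2 * (∑ i, ∑ j, σ.s i j z * σ.D i ψ z * YY σ W f j z) + σ.Λ ψ z * f z := by
  have e : ∑ i, ∑ j, σ.s i j z * σ.D i ψ z * YY σ W f j z =
      σ.Γ ψ f z + σ.Γ ψ W z * f z := by
    unfold Sl.Γ YY
    rw [Finset.sum_mul, ← Finset.sum_add_distrib]
    refine Finset.sum_congr rfl fun i _ => ?_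
    rw [Finset.sum_mul, ← Finset.sum_add_distrib]
    exact Finset.sum_congr rfl fun j _ => by ring
  rw [e]
  unfold Sl.N
  rw [G_comm ok W ψ]
  ring

theorem N_le (ok : σ.Ok U θ) (el : El σ z) (W ψ f : E → ℝ) : σ.N W ψ f z ^ 2 ≤
    32 * ((∑ i, σ.D i ψ z ^ 2) * ∑ i, YY σ W f i z ^ 2) + 2 * (σ.Λ ψ z ^ 2 * f z ^ 2) := by
  have h := el_cs ok el (fun i => σ.D i ψ z) (fun i => YY σ W f i z)
  rw [N_eq ok]
  set X := ∑ i, ∑ j, σ.s i j z * σ.D i ψ z * YY σ W f j z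
  nlinarith [sq_nonneg (2 * X - σ.Λ ψ z * f z)]

theorem Y2_nonneg (σ τ : Sl E ι) (W f : E → ℝ) (z : E) : 0 ≤ Y2 σ τ W f z := by
  unfold Y2
  exact add_nonneg (Finset.sum_nonneg fun _ _ => sq_nonneg _)
    (Finset.sum_nonneg fun _ _ => sq_nonneg _)

theorem K2_nonneg (σ τ : Sl E ι) (W f : E → ℝ) (z : E) : 0 ≤ K2 σ τ W f z :=
  Finset.sum_nonneg fun _ _ => sq_nonneg _

theorem DK2_nonneg (σ τ : Sl E ι) (W f : E → ℝ) (z : E) : 0 ≤ DK2 σ τ W f z :=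
  Finset.sum_nonneg fun _ _ => Finset.sum_nonneg fun _ _ => sq_nonneg _

theorem K2_le (σ τ : Sl E ι) (W f : E → ℝ) (z : E) : K2 σ τ W f z ≤ 2 * Y2 σ τ W f z := by
  unfold K2 Y2 Kj
  rw [← Finset.sum_add_distrib, Finset.mul_sum]
  exact Finset.sum_le_sum fun i _ => by
    nlinarith [sq_nonneg (YY σ W f i z - YY τ W f i z)]

theorem dY_le (σ τ : Sl E ι) (W f : E → ℝ) (z : E) :
    ∑ i, (YY σ W f i z - YY τ W f i z) ^ 2 ≤ 2 * Y2 σ τ W f z := by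
  unfold Y2
  rw [← Finset.sum_add_distrib, Finset.mul_sum]
  exact Finset.sum_le_sum fun i _ => by
    nlinarith [sq_nonneg (YY σ W f i z + YY τ W f i z)]

/-- The commutators with `Sp` and `Rp`. -/
theorem SN_le (ok : σ.Ok U θ) (ot : τ.Ok U θ) (el : El σ z) (et : El τ z) (W ψ f : E → ℝ) :
    ((σ.N W ψ f z + τ.N W ψ f z) / 2) ^ 2 + ((σ.N W ψ f z - τ.N W ψ f z) / 2) ^ 2 ≤
      16 * (((∑ i, σ.D i ψ z ^ 2) + ∑ i, τ.D i ψ z ^ 2) * Y2 σ τ W f z) +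
        (σ.Λ ψ z ^ 2 + τ.Λ ψ z ^ 2) * f z ^ 2 := by
  have h1 := N_le ok el W ψ f
  have h2 := N_le ot et W ψ f
  have p1 : 0 ≤ ∑ i, σ.D i ψ z ^ 2 := Finset.sum_nonneg fun _ _ => sq_nonneg _
  have p2 : 0 ≤ ∑ i, τ.D i ψ z ^ 2 := Finset.sum_nonneg fun _ _ => sq_nonneg _
  have p3 : 0 ≤ ∑ i, YY σ W f i z ^ 2 := Finset.sum_nonneg fun _ _ => sq_nonneg _
  have p4 : 0 ≤ ∑ i, YY τ W f i z ^ 2 := Finset.sum_nonneg fun _ _ => sq_nonneg _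
  have e : ((σ.N W ψ f z + τ.N W ψ f z) / 2) ^ 2 + ((σ.N W ψ f z - τ.N W ψ f z) / 2) ^ 2 =
    (σ.N W ψ f z ^ 2 + τ.N W ψ f z ^ 2) / 2 := by ring
  rw [e]
  unfold Y2
  nlinarith [mul_nonneg p1 p4, mul_nonneg p2 p3]

end pw

end Vale.Agent.P088.R2.H676.F
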