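import Vale.Agent.P088.R2.H516.O.Spec

/-!
# P088, zone B1: the concrete functionals of the curved box (true operators)

`K_j = Y₁_j + Y₂_j`, `Y_j f = D_j f + f D_j W`; `Mxt`, `F5t` are the functionals `Mx`, `F5` of the
curved box `CB`.
-/

open MeasureTheory Set Filter
open scoped ContDiff Topology

noncomputable section

namespace Vale.Agent.P088.R2.H676.F

open Vale.Agent.P088.R2.H961.GW Vale.Agent.P088.R2.H644 Vale.Agent.P088.R2.H960.W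

variable {E ι : Type*} [NormedAddCommGroup E] [NormedSpace ℝ E] [Fintype ι]

omit [Fintype ι] in
/-- `K_j = Y₁_j + Y₂_j`. -/
def Kj (σ τ : Sl E ι) (W f : E → ℝ) (j : ι) (z : E) : ℝ := YY σ W f j z + YY τ W f j z

omit [Fintype ι] in
/-- `(Y₁_i - Y₂_i) (Y₁_j + Y₂_j)`. -/
def DKij (σ τ : Sl E ι) (W f : E → ℝ) (i j : ι) (z : E) : ℝ :=
  YY σ W (Kj σ τ W f j) i z - YY τ W (Kj σ τ W f j) i z

/-- `∑ |(Y₁_i - Y₂_i) (Y₁_j + Y₂_j) f|²`. -/
def DK2 (σ τ : Sl E ι) (W f : E → ℝ) (z : E) : ℝ := ∑ i, ∑ j, DKij σ τ W f i j z ^ 2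

/-- `∑ |K_j f|²`. -/
def K2 (σ τ : Sl E ι) (W f : E → ℝ) (z : E) : ℝ := ∑ j, Kj σ τ W f j z ^ 2

/-- `∑ |Y₁_i f|² + |Y₂_i f|²`. -/
def Y2 (σ τ : Sl E ι) (W f : E → ℝ) (z : E) : ℝ :=
  (∑ i, YY σ W f i z ^ 2) + ∑ i, YY τ W f i z ^ 2

variable [MeasureSpace E]

/-- The margin functional of the curved box: `∫ θ (hi |K (a - b)|² + |Y (a - b)|²)`. -/
def Mxt (σ τ : Sl E ι) (U : Set E) (θ W hi a b : E → ℝ) : ℝ :=
  In U θ (fun z => hi z * K2 σ τ W (fun w => a w - b w) z) +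
    In U θ (Y2 σ τ W fun w => a w - b w)

/-- The full margin functional: `∫ θ (hi |K (a - b)|² + |Y (a - b)|² + hi |Y (a + b)|²)`. -/
def Mxf (σ τ : Sl E ι) (U : Set E) (θ W hi a b : E → ℝ) : ℝ :=
  Mxt σ τ U θ W hi a b + In U θ (fun z => hi z * Y2 σ τ W (fun w => a w + b w) z)

/-- The fifth cost of the curved box: `∫ θ d |D K f|²`. -/
def F5t (σ τ : Sl E ι) (U : Set E) (θ W d f : E → ℝ) : ℝ :=
  In U θ (fun z => d z * DK2 σ τ W f z)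

end Vale.Agent.P088.R2.H676.F
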