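import Vale.Agent.P088.R2.H676.F.One
import Vale.Agent.P088.R2.H961.F.Nrm

/-!
# P088, zone B1: one cell, the curved box in density form

`BoxOk`: the black box and the list of bounds of the model on the cell.  `cd_one`: the curved box
`Cd` on the cell for the true operators, from `BoxOk`, the sizes of the perturbation (`PbZ`, `Sz`),
the comparison of the weights (`Wc`) and the comparison of the star densities (`hF`).
-/

set_option linter.unusedSectionVars false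

open MeasureTheory Set Filter
open scoped ContDiff Topology

noncomputable section

namespace Vale.Agent.P088.R2.H676.F

open Vale.Agent.P088.R2.H961.GW (Sl Te In Sm)
open Vale.Agent.P088.R2.H464
open Vale.Agent.P088.R2.H961.F (dd Pv Xv Yv sX sY vl Pb ev St Rt PbZ)
open Vale.Agent.P088.R2.H516.O (Sp Rp)
open Vale.Agent.P088.R2.H516.B (mu So Ro Wd Zn Su Bd)
open Vale.Agent.P088.R2.H593.B (AA P1 P2 NrS NrR nn_eq nn_int Mp Tf Sq cost c0 C0 C1 F5 eta0 KK BB Sz)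
open Vale.Agent.P088.R2.H961.B.T (nn)
open Vale.Agent.P088.R2.H551.E (sta)

/-! ## Scalars -/

/-- The constant of the margin of a cell. -/
def cO (n : ℕ) (Lam CW : ℝ) : ℝ := c0 n Lam / (672 * ((n : ℝ) + 1) ^ 2 * CW * H856.B.CB n Lam)

/-- The constant of the cost of a cell. -/
def CO (n : ℕ) (Lam CW : ℝ) : ℝ := 16 * CW * C1 n Lam

theorem CO_nn (n : ℕ) {Lam CW : ℝ} (hC : 0 ≤ CW) : 0 ≤ CO n Lam CW := by
  have := H593.B.C0_nn n Lam
  unfold CO C1
  positivity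

theorem cO_pos (n : ℕ) {Lam CW : ℝ} (hL : 1 ≤ Lam) (hC : 1 ≤ CW) : 0 < cO n Lam CW := by
  have h1 := H593.B.c0_pos n hL
  have h2 := H593.B.CB_one n hL
  unfold cO
  have h3 : 0 < H856.B.CB n Lam := by linarith
  have h4 : 0 < CW := by linarith
  positivity

theorem fin_num {c0 C1 n1 CW CB X Mp Mm Ft a1 a2 a3 a3' a4 F5 G5 K : ℝ} (hc : 0 ≤ c0)
    (hC : 0 ≤ C1) (hW : 1 ≤ CW) (hB : 1 ≤ CB) (hn : 1 ≤ n1) (hX : 0 ≤ X)
    (p1 : 0 ≤ a1) (p2 : 0 ≤ a2) (p4 : 0 ≤ a4)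
    (main : c0 / 2 * (X + Mp) ≤ X + Ft + C1 * (a1 + a2 + a3 + a4 + F5))
    (h3 : a3 ≤ CW * a3') (p3 : 0 ≤ a3') (hF : F5 ≤ 16 * CW * G5 + K) (hK : C1 * K ≤ c0 / 3 * Mp)
    (hm : Mm ≤ 112 * n1 ^ 2 * CW * CB * Mp) :
    c0 / (672 * n1 ^ 2 * CW * CB) * (X + Mm) ≤ X + Ft +
      16 * CW * C1 * (a1 + a2 + a3' + a4 + G5) := by
  have hn2 : 1 ≤ n1 ^ 2 := one_le_pow₀ hn
  have D1 : 1 ≤ 112 * n1 ^ 2 * CW * CB := by
    have q1 : 1 ≤ n1 ^ 2 * CW := one_le_mul_of_one_le_of_one_le hn2 hW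
    have q2 : 1 ≤ n1 ^ 2 * CW * CB := one_le_mul_of_one_le_of_one_le q1 hB
    linarith
  have D0 : 0 < 672 * n1 ^ 2 * CW * CB := by linarith
  have e1 : c0 / (672 * n1 ^ 2 * CW * CB) * (112 * n1 ^ 2 * CW * CB * Mp) = c0 / 6 * Mp := by
    field_simp
    ring
  have e2 : c0 / (672 * n1 ^ 2 * CW * CB) * X ≤ c0 / 6 * X := by
    refine mul_le_mul_of_nonneg_right ?_ hX
    refine div_le_div_of_nonneg_left hc (by norm_num) ?_
    linarith
  have e3 : c0 / (672 * n1 ^ 2 * CW * CB) * Mm ≤ c0 / 6 * Mp := by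
    rw [← e1]
    exact mul_le_mul_of_nonneg_left hm (div_nonneg hc D0.le)
  have e4 : C1 * (a1 + a2 + a3 + a4 + F5) ≤
      16 * CW * C1 * (a1 + a2 + a3' + a4 + G5) + c0 / 3 * Mp := by
    have t : a1 + a2 + a3 + a4 + F5 ≤ 16 * CW * (a1 + a2 + a3' + a4 + G5) + K := by
      have r1 : a1 ≤ 16 * CW * a1 := le_mul_of_one_le_left p1 (by linarith)
      have r2 : a2 ≤ 16 * CW * a2 := le_mul_of_one_le_left p2 (by linarith)
      have r4 : a4 ≤ 16 * CW * a4 := le_mul_of_one_le_left p4 (by linarith)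
      have r3 : CW * a3' ≤ 16 * CW * a3' := mul_le_mul_of_nonneg_right (by linarith) p3
      linarith
    have t2 := mul_le_mul_of_nonneg_left t hC
    linarith
  have e5 : 0 ≤ c0 / 3 * X := mul_nonneg (by linarith) hX
  linarith

theorem abs_num (n : ℕ) {Lam Cf eta Mp : ℝ} (hL : 1 ≤ Lam) (hCf : 0 ≤ Cf) (h0 : 0 ≤ eta)
    (h1 : eta ≤ eta0 n Lam Cf) (hM : 0 ≤ Mp) :
    C1 n Lam * (eta ^ 2 * (24 * (n : ℝ) ^ 2 * (H856.B.CB n Lam * Mp))) ≤ c0 n Lam / 3 * Mp := by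
  obtain ⟨e1, e2⟩ := H593.B.eta0_le n hL hCf h1 h0
  have hn : (0 : ℝ) ≤ n := Nat.cast_nonneg _
  have hCB := H593.B.CB_one n hL
  have hBB := H593.B.CB_le_BB n hL
  have hC0 := H593.B.C0_nn n Lam
  have hc0 := H593.B.c0_pos n hL
  rw [KK] at e2
  have t1 : 0 ≤ 3 * Cf * H856.B.CB n Lam * eta := by
    have : 0 ≤ H856.B.CB n Lam := by linarith
    positivity
  have t2 : 1504 * C0 n Lam * (((n : ℝ) + 1) ^ 2) ^ 2 * BB n Lam * eta ≤ c0 n Lam / 2 := by
    linarith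
  have t3 : C1 n Lam * (eta ^ 2 * (24 * (n : ℝ) ^ 2 * H856.B.CB n Lam)) ≤
      960 * (C0 n Lam * (((n : ℝ) + 1) ^ 2) ^ 2 * BB n Lam * eta) := by
    rw [C1]
    have q1 : eta ^ 2 ≤ eta := by nlinarith
    have q2 : (n : ℝ) ^ 2 ≤ ((n : ℝ) + 1) ^ 2 := by nlinarith
    have q3 : eta ^ 2 * ((n : ℝ) ^ 2 * H856.B.CB n Lam) ≤
        eta * (((n : ℝ) + 1) ^ 2 * BB n Lam) := by
      refine mul_le_mul q1 (mul_le_mul q2 hBB (by linarith) (by positivity)) ?_ h0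
      have : 0 ≤ H856.B.CB n Lam := by linarith
      positivity
    have q4 := mul_le_mul_of_nonneg_left q3
      (by positivity : 0 ≤ 960 * (C0 n Lam * ((n : ℝ) + 1) ^ 2))
    calc 40 * ((n : ℝ) + 1) ^ 2 * C0 n Lam * (eta ^ 2 * (24 * (n : ℝ) ^ 2 * H856.B.CB n Lam))
        = 960 * (C0 n Lam * ((n : ℝ) + 1) ^ 2) * (eta ^ 2 * ((n : ℝ) ^ 2 * H856.B.CB n Lam)) := by
          ring
      _ ≤ _ := q4
      _ = _ := by ring
  have t4 : C1 n Lam * (eta ^ 2 * (24 * (n : ℝ) ^ 2 * H856.B.CB n Lam)) ≤ c0 n Lam / 3 := by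
    linarith
  have t5 := mul_le_mul_of_nonneg_right t4 hM
  calc _ = C1 n Lam * (eta ^ 2 * (24 * (n : ℝ) ^ 2 * H856.B.CB n Lam)) * Mp := by ring
    _ ≤ _ := t5

variable {ι E : Type} [Fintype ι] [DecidableEq ι] [NormedAddCommGroup E] [NormedSpace ℝ E]
  [MeasureSpace E] [FiniteDimensional ℝ E] [BorelSpace E] [(volume : Measure E).IsAddHaarMeasure]

/-- The black box and the list of bounds of the model on the cell. -/
structure BoxOk (T : EP.Dat ι E) (w : Wd T) (Z : Set E) (N : EP.Sm E) (Lam eps : ℝ) : Prop where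
  zn : Zn T Z N Lam eps
  zc : H856.B.Zc T Z N Lam
  box : ∀ b c s1 s2 s3 s4 : EP.TE E, Su Z b → Su Z c → Su Z s3 →
    c0 (Fintype.card ι) Lam * (nn volume 1 s1 + nn volume 1 s2 + nn volume 1 s3 +
      nn volume 1 s4 + Mp volume T b c) ≤ nn volume 1 s1 + nn volume 1 s2 + nn volume 1 s3 +
      nn volume 1 s4 + (Tf volume T b c - Sq volume T b c) +
        C0 (Fintype.card ι) Lam * cost volume T b c s1 s2 s3 s4
  bd : ∀ b c : EP.TE E, Su Z b → Su Z c → Bd volume T w N b c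
    (H856.B.CB (Fintype.card ι) Lam * Mp volume T b c)
    (H856.B.CB (Fintype.card ι) Lam *
      (nn volume (T.e' * mu T) (So T c) + eps ^ 2 * Mp volume T b c))

section tD
open Vale.Agent.P088.R2.H961.S (Fram)
open Vale.Agent.P088.R2.H676.C (tD)

variable {P : Type} [NormedAddCommGroup P] [NormedSpace ℝ P] {π : E →L[ℝ] P} {F : Fram ι π}
  {E₀ : ℝ} {hE : 0 < E₀} {l φ : P → ℝ} {cl : ContDiff ℝ ∞ l} {cφ : ContDiff ℝ ∞ φ}
  {Z : Set E} {N : EP.Sm E} {Lam eps : ℝ}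

theorem boxOk (hn : 3 ≤ Fintype.card ι)
    (pl : ∀ z (x : ι → ℝ), 0 ≤ ∑ i, ∑ j, ((tD F E₀ hE l φ cl cφ).l2 i j : E → ℝ) z * x i * x j)
    (pφ : ∀ z (x : ι → ℝ), 0 ≤ ∑ i, ∑ j, ((tD F E₀ hE l φ cl cφ).φ2 i j : E → ℝ) z * x i * x j)
    (w : Wd (tD F E₀ hE l φ cl cφ))
    (hZ : Zn (tD F E₀ hE l φ cl cφ) Z N Lam eps)
    (hC : H856.B.Zc (tD F E₀ hE l φ cl cφ) Z N Lam)
    (hl : ∀ z ∈ Z, 1 ≤ Lam * ∑ j, ((tD F E₀ hE l φ cl cφ).l1 j : E → ℝ) z ^ 2)
    (he : eps ≤ H593.B.eps0 (Fintype.card ι) Lam) :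
    BoxOk (tD F E₀ hE l φ cl cφ) w Z N Lam eps where
  zn := hZ
  zc := hC
  box _ _ _ _ _ _ hb hc h3 := H593.B.box (μ := volume) hn pl pφ hZ hC hl he hb hc h3
  bd _ _ hb hc := H593.B.box_bd (μ := volume) w hZ hC he hb hc

end tD

section cell

variable {σ τ : Sl E ι} {T : EP.Dat ι E} {s d : ι → ι → EP.Sm E} {M Mi : ι → ι → ℝ}
  {W v₁ v₂ : EP.Sm E} {Z Ω : Set E} {N d2 : EP.Sm E} {Lam eps eta CW Cf : ℝ}
  {e h hi wc dt del : E → ℝ}

/-- The comparison of the star densities. -/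
def hFp (σ τ : Sl E ι) (T : EP.Dat ι E) (w : Wd T) (W v₁ v₂ N : EP.Sm E) (Z : Set E)
    (Cf eta : ℝ) : Prop :=
  ∀ a b : E → ℝ, Te Z a → Te Z b → ∀ f g : EP.TE E, (f.fn = fun z => a z + b z) →
    (g.fn = fun z => a z - b z) → Su Z f → Su Z g → ∀ M MS, Bd volume T w N f g M MS →
    |In univ (fun _ => 1) (sta σ τ (v₁ : E → ℝ) (v₂ : E → ℝ) (W : E → ℝ) a b) -
      (Tf volume T f g - Sq volume T f g)| ≤ Cf * eta * (M + MS)

theorem ob_z (w : Wd T) (H : PbZ T Z W s d v₁ v₂ del) (hs : Sz T Z del (fun _ => 0) eta)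
    {z : E} (hz : z ∈ Z) :
    Ob T W (eta ^ 2) ((T.e : E → ℝ) z * (w.mi : E → ℝ) z) z := by
  obtain ⟨δ, h1, h2⟩ := H.pb z hz
  have he := H.he z hz
  have hm := H.hm z hz
  have h3 := h2.δ0
  refine ob_of w h2 ?_ ?_
  · rw [Real.sq_sqrt (by positivity)]
    field_simp
  · refine le_trans (mul_le_mul_of_nonneg_right ?_ hm.le) (hs.dm z hz)
    refine le_trans ?_ h1
    have hn : (0 : ℝ) ≤ Fintype.card ι := Nat.cast_nonneg _
    have : 1 ≤ 11 * ((Fintype.card ι : ℝ) + 1) ^ 2 := by nlinarith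
    exact le_mul_of_one_le_left h3 this

/-- **One cell.** The curved box in density form. -/
theorem cd_one (fc : Fc σ τ T s d M Mi) (ok : σ.Ok univ fun _ => 1) (ot : τ.Ok univ fun _ => 1)
    (w : Wd T) (B : BoxOk T w Z N Lam eps) (H : PbZ T Z W s d v₁ v₂ del) (hCf : 0 ≤ Cf)
    (h0 : 0 ≤ eta) (h1 : eta ≤ eta0 (Fintype.card ι) Lam Cf)
    (hs : Sz T Z del (fun _ => 0) eta) (hd2 : ∀ z ∈ Z, del z ^ 2 ≤ (d2 : E → ℝ) z)
    (hd2' : ∀ z, 0 ≤ (d2 : E → ℝ) z) (hw : ∀ z ∈ Z, Wc T w N e h hi wc dt d2 CW z)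
    (C1' : 1 ≤ CW) (wt : Wt univ Ω e h hi wc dt) (hZΩ : Z ⊆ Ω)
    (hF : hFp σ τ T w W v₁ v₂ N Z Cf eta) :
    Cd σ τ univ Z (fun _ => 1) (v₁ : E → ℝ) (v₂ : E → ℝ) (W : E → ℝ) e h hi wc dt
      (cO (Fintype.card ι) Lam CW) (CO (Fintype.card ι) Lam CW) := by
  intro a b s₁ s₂ s₃ s₄ ha hb k1 k2 k3 k4
  have hL := B.zn.L1
  have e1 := (H593.B.eta0_le (Fintype.card ι) hL hCf h1 h0).1
  have ho : IsOpen (univ : Set E) := isOpen_univ
  have o1 : Sm univ fun _ : E => (1 : ℝ) := contDiffOn_const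
  have op : ∀ z ∈ (univ : Set E), (0 : ℝ) < (fun _ : E => (1 : ℝ)) z := fun _ _ => one_pos
  have hW : Sm univ (W : E → ℝ) := (EP.scd W).contDiffOn
  have hv₁ : Sm univ (v₁ : E → ℝ) := (EP.scd v₁).contDiffOn
  have hv₂ : Sm univ (v₂ : E → ℝ) := (EP.scd v₂).contDiffOn
  set f : EP.TE E := teo ha + teo hb with hf
  set g : EP.TE E := teo ha - teo hb with hg
  have ef : f.fn = fun z => a z + b z := rfl
  have eg : g.fn = fun z => a z - b z := rfl
  have sf : Su Z f := H856.B.su_add (teo_su ha) (teo_su hb)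
  have sg : Su Z g := H856.B.su_sub (teo_su ha) (teo_su hb)
  have ha' := te_mono ha (subset_univ Z)
  have hb' := te_mono hb (subset_univ Z)
  have k1' := te_mono k1 (subset_univ Z)
  have k2' := te_mono k2 (subset_univ Z)
  have k3' := te_mono k3 (subset_univ Z)
  have k4' := te_mono k4 (subset_univ Z)
  have hf' := ha'.add ho hb'
  have hg' := ha'.sub ho hb'
  have hBd := B.bd f g sf sg
  set Mq := Mp volume T f g with hMq
  have Mq0 : 0 ≤ Mq := H593.B.Mp_nonneg volume T w.he f g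
  have hCB := H593.B.CB_one (Fintype.card ι) hL
  have M0 : 0 ≤ H856.B.CB (Fintype.card ι) Lam * Mq := mul_nonneg (by linarith) Mq0
  -- the one-cell statement
  have main := H593.B.cell_mid volume w B.zn B.zc hCf h0 h1 hs hd2 hd2' sf sg
    (H961.F.nrS H (fun _ _ => le_rfl) sf) (H961.F.nrR H (fun _ _ => le_rfl) sf)
    (H961.F.nrS H (fun _ _ => le_rfl) sg) (H961.F.nrR H (fun _ _ => le_rfl) sg)
    (B.box f g (teo k1) (teo k2) (teo k3) (teo k4) sf sg (teo_su k3)) hBd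
    (hF a b ha hb f g ef eg sf sg)
  -- the margin
  have im := mm_ig ok ot hW wt ha' hb'
  obtain ⟨iL, lL⟩ := LL_le hBd M0
  have A1 : In univ (fun _ => 1) (mm σ τ (W : E → ℝ) e wc hi a b) ≤
      112 * ((Fintype.card ι : ℝ) + 1) ^ 2 * CW * H856.B.CB (Fintype.card ι) Lam * Mq := by
    have t1 : In univ (fun _ => 1) (mm σ τ (W : E → ℝ) e wc hi a b) ≤
        In univ (fun _ => 1) (fun z => 28 * ((Fintype.card ι : ℝ) + 1) * CW *
          LL T w N f g z) := by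
      refine In_monoI ho op im (iL.cmul _) fun z _ => ?_
      by_cases hz : z ∈ Z
      · exact mm_LL fc w (hw z hz) h0 e1 (ob_z w H hs hz) (B.zn.N0 z hz)
          (by
            have m2 := B.zn.m2 z hz
            have mg := H856.B.mu_ge w z
            have n0 := B.zn.N0 z hz
            nlinarith) ef eg
      · have za : a =ᶠ[𝓝 z] fun _ => 0 := su_z (teo_su ha) hz
        have zb : b =ᶠ[𝓝 z] fun _ => 0 := su_z (teo_su hb) hz
        rw [mm_zero σ τ (W : E → ℝ) e wc hi za zb]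
        have he := w.he z
        have hmi := H856.B.mi_pos w z
        have n0 : (0 : ℝ) ≤ Fintype.card ι := Nat.cast_nonneg _
        have : 0 ≤ LL T w N f g z := by unfold LL; positivity
        positivity
    rw [H961.GW.In_cmul] at t1
    have n0 : (0 : ℝ) ≤ Fintype.card ι := Nat.cast_nonneg _
    have t2 := mul_le_mul_of_nonneg_left lL
      (by positivity : 0 ≤ 28 * ((Fintype.card ι : ℝ) + 1) * CW)
    refine t1.trans (t2.trans (le_of_eq ?_))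
    ring
  -- the fifth cost
  obtain ⟨i5, l5⟩ := F5_int T d2 g
  obtain ⟨iE, lE⟩ := E5_le hBd M0 sg B.zn (sq_nonneg eta)
  have i6 := Ig.ct ho o1 wt.cd (tDK2 ok ot hW hg')
  have A5 : F5 volume T d2 g ≤ 16 * CW *
      In univ (fun _ => 1) (fun z => dt z * DK2 σ τ (W : E → ℝ) (fun w => a w - b w) z) +
      eta ^ 2 * (24 * (Fintype.card ι : ℝ) ^ 2 * (H856.B.CB (Fintype.card ι) Lam * Mq)) := by
    rw [l5]
    refine (In_monoI ho op i5 ((i6.cmul (16 * CW)).add iE) fun z _ => ?_).trans ?_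
    · by_cases hz : z ∈ Z
      · exact DK_LL fc w (hw z hz) (hd2' z) h0 e1 (ob_z w H hs hz) g
      · have zf : ∀ i j, (T.D i (T.K j g)).fn z = 0 := fun i j => by
          have : Su Z (T.D i (T.K j g)) := by
            rw [← H856.B.Ak_inl, ← H856.B.Ak_inr]
            exact H856.B.su_Ak _ _ _ (H856.B.su_Ak _ _ _ sg)
          exact su_0 this hz
        have e0 : (d2 : E → ℝ) z * ∑ i, ∑ j, (T.D i (T.K j g)).fn z ^ 2 = 0 := by
          simp only [zf]; simp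
        rw [e0]
        have zg : (fun w => a w - b w) =ᶠ[𝓝 z] fun _ => 0 := su_z sg hz
        have e2 : DK2 σ τ (W : E → ℝ) (fun w => a w - b w) z = 0 := DK2_zero σ τ (W : E → ℝ) zg
        rw [e2, mul_zero, mul_zero, zero_add]
        have he := w.he z
        have hmi := H856.B.mi_pos w z
        positivity
    · rw [In_addI (i6.cmul (16 * CW)) iE, H961.GW.In_cmul]
      linarith
  -- the costs
  have q1 := ((tSp ok ot hv₁ hv₂ hW hf').sub ho k1').sq ho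
  have q2 := ((tRp ok ot hv₁ hv₂ hW hf').sub ho k2').sq ho
  have q3 := ((tSp ok ot hv₁ hv₂ hW hg').sub ho k3').sq ho
  have q4 := ((tRp ok ot hv₁ hv₂ hW hg').sub ho k4').sq ho
  have c1 := Ig.te ho o1 q1
  have c2 := Ig.te ho o1 q2
  have c3 := Ig.ct ho o1 wt.ch q3
  have c4 := Ig.te ho o1 q4
  have x1 : nn volume 1 (St W T.a T.b s d v₁ v₂ f - teo k1) = In univ (fun _ => 1) fun z =>
      (Sp σ τ (v₁ : E → ℝ) (v₂ : E → ℝ) (W : E → ℝ) (fun w => a w + b w) z - s₁ z) ^ 2 := by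
    rw [← nnI1]
    congr 1
    funext z
    have := (Sp_St fc ok ot W v₁ v₂ f z).1
    rw [ef] at this
    rw [this]; rfl
  have x2 : nn volume 1 (Rt W T.a T.b s d v₁ v₂ f - teo k2) = In univ (fun _ => 1) fun z =>
      (Rp σ τ (v₁ : E → ℝ) (v₂ : E → ℝ) (W : E → ℝ) (fun w => a w + b w) z - s₂ z) ^ 2 := by
    rw [← nnI1]
    congr 1
    funext z
    have := (Sp_St fc ok ot W v₁ v₂ f z).2
    rw [ef] at this
    rw [this]; rfl
  have x4 : nn volume 1 (Rt W T.a T.b s d v₁ v₂ g - teo k4) = In univ (fun _ => 1) fun z =>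
      (Rp σ τ (v₁ : E → ℝ) (v₂ : E → ℝ) (W : E → ℝ) (fun w => a w - b w) z - s₄ z) ^ 2 := by
    rw [← nnI1]
    congr 1
    funext z
    have := (Sp_St fc ok ot W v₁ v₂ g z).2
    rw [eg] at this
    rw [this]; rfl
  have x3 : nn volume (T.e' * mu T) (St W T.a T.b s d v₁ v₂ g - teo k3) ≤
      CW * In univ (fun _ => 1) fun z => h z *
        (Sp σ τ (v₁ : E → ℝ) (v₂ : E → ℝ) (W : E → ℝ) (fun w => a w - b w) z - s₃ z) ^ 2 := by
    have hn := nnG (T.e' * mu T) (St W T.a T.b s d v₁ v₂ g - teo k3)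
    rw [← H961.GW.In_cmul, ← nnI]
    refine In_monoI ho op hn (c3.cmul CW) fun z _ => ?_
    have e3 : (St W T.a T.b s d v₁ v₂ g - teo k3).fn z =
        Sp σ τ (v₁ : E → ℝ) (v₂ : E → ℝ) (W : E → ℝ) (fun w => a w - b w) z - s₃ z := by
      have := (Sp_St fc ok ot W v₁ v₂ g z).1
      rw [eg] at this
      rw [this]; rfl
    rw [e3]
    by_cases hz : z ∈ Z
    · have := mul_le_mul_of_nonneg_right (hw z hz).h1 (sq_nonneg
        (Sp σ τ (v₁ : E → ℝ) (v₂ : E → ℝ) (W : E → ℝ) (fun w => a w - b w) z - s₃ z))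
      rw [mul_assoc] at this
      refine le_trans (le_of_eq ?_) (this.trans (le_of_eq ?_))
      · rw [H856.B.sm_mul]; ring
      · ring
    · have z3 : (St W T.a T.b s d v₁ v₂ g - teo k3).fn z = 0 :=
        su_0 (H856.B.su_sub (H961.F.su_St sg W T.a T.b s d v₁ v₂) (teo_su k3)) hz
      rw [← e3, z3]
      simp
  -- the assembly
  have y1 : nn volume 1 (teo k1) = In univ (fun _ => 1) fun z => s₁ z ^ 2 := (nnI1 _).symm
  have y2 : nn volume 1 (teo k2) = In univ (fun _ => 1) fun z => s₂ z ^ 2 := (nnI1 _).symm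
  have y3 : nn volume 1 (teo k3) = In univ (fun _ => 1) fun z => s₃ z ^ 2 := (nnI1 _).symm
  have y4 : nn volume 1 (teo k4) = In univ (fun _ => 1) fun z => s₄ z ^ 2 := (nnI1 _).symm
  have r1 := Ig.te ho o1 (k1'.sq ho)
  have r2 := Ig.te ho o1 (k2'.sq ho)
  have r3 := Ig.te ho o1 (k3'.sq ho)
  have r4 := Ig.te ho o1 (k4'.sq ho)
  have X4 : In univ (fun _ => 1) (s4 s₁ s₂ s₃ s₄) = nn volume 1 (teo k1) + nn volume 1 (teo k2) +
      nn volume 1 (teo k3) + nn volume 1 (teo k4) := by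
    rw [y1, y2, y3, y4, ← In_addI r1 r2, add_assoc, ← In_addI r3 r4,
      ← In_addI (r1.add r2) (r3.add r4)]
    rfl
  have X0 : 0 ≤ In univ (fun _ => 1) (s4 s₁ s₂ s₃ s₄) := by
    refine setIntegral_nonneg ho.measurableSet fun z _ => ?_
    unfold s4
    positivity
  have nnp : ∀ {p : E → ℝ}, (∀ z, 0 ≤ p z) → 0 ≤ In univ (fun _ => 1) p := fun hp =>
    setIntegral_nonneg ho.measurableSet fun z _ => mul_nonneg one_pos.le (hp z)
  have p3 : 0 ≤ In univ (fun _ => 1) fun z => h z *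
      (Sp σ τ (v₁ : E → ℝ) (v₂ : E → ℝ) (W : E → ℝ) (fun w => a w - b w) z - s₃ z) ^ 2 := by
    refine nnp fun z => ?_
    by_cases hz : z ∈ Z
    · exact mul_nonneg (wt.h0 z (hZΩ hz)) (sq_nonneg _)
    · have z3 : (St W T.a T.b s d v₁ v₂ g - teo k3).fn z = 0 :=
        su_0 (H856.B.su_sub (H961.F.su_St sg W T.a T.b s d v₁ v₂) (teo_su k3)) hz
      have e3 : (St W T.a T.b s d v₁ v₂ g - teo k3).fn z =
          Sp σ τ (v₁ : E → ℝ) (v₂ : E → ℝ) (W : E → ℝ) (fun w => a w - b w) z - s₃ z := by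
        have := (Sp_St fc ok ot W v₁ v₂ g z).1
        rw [eg] at this
        rw [this]; rfl
      rw [← e3, z3]
      simp
  have i4 := s4_ig ho o1 k1' k2' k3' k4'
  have ist := Ig.te ho o1 (H551.E.tsta ok ot hv₁ hv₂ hW ha' hb')
  have ec : In univ (fun _ => 1) (cc σ τ (v₁ : E → ℝ) (v₂ : E → ℝ) (W : E → ℝ) h dt a b
      s₁ s₂ s₃ s₄) =
      (In univ (fun _ => 1) fun z =>
        (Sp σ τ (v₁ : E → ℝ) (v₂ : E → ℝ) (W : E → ℝ) (fun w => a w + b w) z - s₁ z) ^ 2) +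
      (In univ (fun _ => 1) fun z =>
        (Rp σ τ (v₁ : E → ℝ) (v₂ : E → ℝ) (W : E → ℝ) (fun w => a w + b w) z - s₂ z) ^ 2) +
      (In univ (fun _ => 1) fun z => h z *
        (Sp σ τ (v₁ : E → ℝ) (v₂ : E → ℝ) (W : E → ℝ) (fun w => a w - b w) z - s₃ z) ^ 2) +
      (In univ (fun _ => 1) fun z =>
        (Rp σ τ (v₁ : E → ℝ) (v₂ : E → ℝ) (W : E → ℝ) (fun w => a w - b w) z - s₄ z) ^ 2) +
      In univ (fun _ => 1) fun z => dt z * DK2 σ τ (W : E → ℝ) (fun w => a w - b w) z := by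
    rw [← In_addI c1 c2, ← In_addI (c1.add c2) c3, ← In_addI ((c1.add c2).add c3) c4,
      ← In_addI (((c1.add c2).add c3).add c4) i6]
    rfl
  rw [In_addI i4 im, In_addI i4 ist, ec]
  have hn1 : (1 : ℝ) ≤ (Fintype.card ι : ℝ) + 1 := by
    have : (0 : ℝ) ≤ Fintype.card ι := Nat.cast_nonneg _
    linarith
  rw [x1, x2, x4, ← X4] at main
  have hC1 : 0 ≤ C1 (Fintype.card ι) Lam := by
    have := H593.B.C0_nn (Fintype.card ι) Lam
    unfold C1
    positivity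
  have fin := fin_num (H593.B.c0_pos (Fintype.card ι) hL).le hC1 C1' hCB hn1 X0
    (nnp fun z => sq_nonneg _) (nnp fun z => sq_nonneg _) (nnp fun z => sq_nonneg _) main x3 p3
    A5 (abs_num (Fintype.card ι) hL hCf h0 h1 Mq0) A1
  unfold cO CO
  refine fin.trans (le_of_eq ?_)
  rfl

end cell

end Vale.Agent.P088.R2.H676.F
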