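import Vale.Agent.P088.R2.H676.F.Sum

/-!
# P088, zone B1: the sum over the cells (integrated)

`Cd`: the curved box in density form (true operators).  `Cd_sum`: from the cells to `Ω`.
`CB_of_Cd`: helper516's curved box.
-/

set_option linter.unusedSectionVars false

open MeasureTheory Set Filter
open scoped ContDiff Topology

noncomputable section

namespace Vale.Agent.P088.R2.H676.F

open Vale.Agent.P088.R2.H961.GW Vale.Agent.P088.R2.H960.W Vale.Agent.P088.R2.H644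
open Vale.Agent.P088.R2.H551.E Vale.Agent.P088.R2.H516.O Vale.Agent.P088.R2.H86.Z

variable {E ι α : Type*} [NormedAddCommGroup E] [NormedSpace ℝ E] [Fintype ι]

section te

variable {σ τ : Sl E ι} {U : Set E} {θ : E → ℝ} {v₁ v₂ W f : E → ℝ}

theorem tKj (ok : σ.Ok U θ) (ot : τ.Ok U θ) (hW : Sm U W) (hf : Te U f) (j : ι) :
    Te U (Kj σ τ W f j) := (tY ok hW hf j).add ok.op (tY ot hW hf j)

theorem tK2 (ok : σ.Ok U θ) (ot : τ.Ok U θ) (hW : Sm U W) (hf : Te U f) :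
    Te U (K2 σ τ W f) := Te.sum ok.op _ fun j _ => (tKj ok ot hW hf j).sq ok.op

theorem tY2 (ok : σ.Ok U θ) (ot : τ.Ok U θ) (hW : Sm U W) (hf : Te U f) :
    Te U (Y2 σ τ W f) :=
  (Te.sum ok.op _ fun j _ => (tY ok hW hf j).sq ok.op).add ok.op
    (Te.sum ok.op _ fun j _ => (tY ot hW hf j).sq ok.op)

theorem tDK2 (ok : σ.Ok U θ) (ot : τ.Ok U θ) (hW : Sm U W) (hf : Te U f) :
    Te U (DK2 σ τ W f) :=
  Te.sum ok.op _ fun i _ => Te.sum ok.op _ fun j _ =>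
    ((tY ok hW (tKj ok ot hW hf j) i).sub ok.op (tY ot hW (tKj ok ot hW hf j) i)).sq ok.op

theorem tSp (ok : σ.Ok U θ) (ot : τ.Ok U θ) (hv₁ : Sm U v₁) (hv₂ : Sm U v₂) (hW : Sm U W)
    (hf : Te U f) : Te U (Sp σ τ v₁ v₂ W f) := by
  have h := ((ok.tP hv₁ hW hf).add ok.op (ot.tP hv₂ hW hf)).cmul ok.op (1 / 2)
  exact h.congr fun z => by unfold Sp; ring

theorem tRp (ok : σ.Ok U θ) (ot : τ.Ok U θ) (hv₁ : Sm U v₁) (hv₂ : Sm U v₂) (hW : Sm U W)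
    (hf : Te U f) : Te U (Rp σ τ v₁ v₂ W f) := by
  have h := ((ok.tP hv₁ hW hf).sub ok.op (ot.tP hv₂ hW hf)).cmul ok.op (1 / 2)
  exact h.congr fun z => by unfold Rp; ring

end te

variable [MeasureSpace E]

/-- Integrable densities. -/
def Ig (U : Set E) (θ f : E → ℝ) : Prop := IntegrableOn (fun z => θ z * f z) U

/-- The curved box in density form. -/
def Cd (σ τ : Sl E ι) (U Ω : Set E) (θ v₁ v₂ W e h hi wc d : E → ℝ) (c C : ℝ) : Prop :=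
  ∀ a b s₁ s₂ s₃ s₄ : E → ℝ, Te Ω a → Te Ω b → Te Ω s₁ → Te Ω s₂ → Te Ω s₃ → Te Ω s₄ →
    c * In U θ (fun z => s4 s₁ s₂ s₃ s₄ z + mm σ τ W e wc hi a b z) ≤
    In U θ (fun z => s4 s₁ s₂ s₃ s₄ z + sta σ τ v₁ v₂ W a b z) +
      C * In U θ (cc σ τ v₁ v₂ W h d a b s₁ s₂ s₃ s₄)

/-- The weights. -/
structure Wt (U Ω : Set E) (e h hi wc d : E → ℝ) : Prop where
  ce : ContinuousOn e U
  ch : ContinuousOn h U
  ci : ContinuousOn hi U
  cw : ContinuousOn wc U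
  cd : ContinuousOn d U
  e1 : ∀ z ∈ Ω, 1 ≤ e z
  h0 : ∀ z ∈ Ω, 0 ≤ h z
  h1 : ∀ z ∈ Ω, h z ≤ 1
  i1 : ∀ z ∈ Ω, 1 ≤ hi z
  w1 : ∀ z ∈ Ω, 1 ≤ wc z
  d0 : ∀ z ∈ Ω, 0 ≤ d z
  d1 : ∀ z ∈ Ω, d z ≤ 1

variable [FiniteDimensional ℝ E] [BorelSpace E] [(volume : Measure E).IsAddHaarMeasure]

section int

variable {U Ω : Set E} {θ f g c : E → ℝ}

theorem Ig.add (hf : Ig U θ f) (hg : Ig U θ g) : Ig U θ fun z => f z + g z :=
  (Integrable.add hf hg).congr (Eventually.of_forall fun _ => (mul_add _ _ _).symm)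

theorem Ig.cmul (hf : Ig U θ f) (c : ℝ) : Ig U θ fun z => c * f z :=
  (Integrable.const_mul hf c).congr (Eventually.of_forall fun _ => mul_left_comm _ _ _)

theorem Ig.sum (S : Finset α) {f : α → E → ℝ} (hf : ∀ k ∈ S, Ig U θ (f k)) :
    Ig U θ fun z => ∑ k ∈ S, f k z :=
  (integrable_finsetSum S hf).congr (Eventually.of_forall fun _ => (Finset.mul_sum _ _ _).symm)

theorem Ig.te (hU : IsOpen U) (hθ : Sm U θ) (hf : Te U f) : Ig U θ f := te_int hU hθ hf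

theorem Ig.ct (hU : IsOpen U) (hθ : Sm U θ) (hc : ContinuousOn c U) (hf : Te U f) :
    Ig U θ fun z => c z * f z := ct_int hU hθ hc hf

theorem In_addI (hf : Ig U θ f) (hg : Ig U θ g) :
    In U θ (fun z => f z + g z) = In U θ f + In U θ g := by
  unfold In
  rw [← integral_add hf hg]
  simp only [mul_add]

theorem In_sumI (S : Finset α) {f : α → E → ℝ} (hf : ∀ k ∈ S, Ig U θ (f k)) :
    In U θ (fun z => ∑ k ∈ S, f k z) = ∑ k ∈ S, In U θ (f k) := by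
  unfold In
  rw [← integral_finsetSum S hf]
  simp only [Finset.mul_sum]

theorem In_monoI (hU : IsOpen U) (hθ : ∀ z ∈ U, 0 < θ z) (hf : Ig U θ f) (hg : Ig U θ g)
    (h : ∀ z ∈ U, f z ≤ g z) : In U θ f ≤ In U θ g :=
  setIntegral_mono_on hf hg hU.measurableSet
    fun z hz => mul_le_mul_of_nonneg_left (h z hz) (hθ z hz).le

theorem te_mono {f : E → ℝ} (hf : Te Ω f) (h : Ω ⊆ U) : Te U f := ⟨hf.1, hf.2.1, hf.2.2.trans h⟩

end int

section dens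

variable {σ τ : Sl E ι} {U Ω : Set E} {θ : E → ℝ} {v₁ v₂ W a b e h hi wc d : E → ℝ}
  {s₁ s₂ s₃ s₄ : E → ℝ}

theorem s4_ig (hU : IsOpen U) (hθ : Sm U θ) (h1 : Te U s₁) (h2 : Te U s₂) (h3 : Te U s₃)
    (h4 : Te U s₄) : Ig U θ (s4 s₁ s₂ s₃ s₄) :=
  Ig.te hU hθ (((h1.sq hU).add hU (h2.sq hU)).add hU ((h3.sq hU).add hU (h4.sq hU)))

theorem mm_ig (ok : σ.Ok U θ) (ot : τ.Ok U θ) (hW : Sm U W) (w : Wt U Ω e h hi wc d)
    (ha : Te U a) (hb : Te U b) : Ig U θ (mm σ τ W e wc hi a b) := by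
  have hU := ok.op
  have hf := ha.add hU hb
  have hg := ha.sub hU hb
  exact (((Ig.ct hU ok.ts w.ce (hf.sq hU)).add (Ig.ct hU ok.ts w.cw (hg.sq hU))).add
    ((Ig.ct hU ok.ts w.ci (tK2 ok ot hW hg)).add (Ig.te hU ok.ts (tY2 ok ot hW hg)))).add
    (Ig.ct hU ok.ts w.ci (tY2 ok ot hW hf))

theorem cc_ig (ok : σ.Ok U θ) (ot : τ.Ok U θ) (hv₁ : Sm U v₁) (hv₂ : Sm U v₂) (hW : Sm U W)
    (w : Wt U Ω e h hi wc d) (ha : Te U a) (hb : Te U b) (h1 : Te U s₁) (h2 : Te U s₂)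
    (h3 : Te U s₃) (h4 : Te U s₄) : Ig U θ (cc σ τ v₁ v₂ W h d a b s₁ s₂ s₃ s₄) := by
  have hU := ok.op
  have hf := ha.add hU hb
  have hg := ha.sub hU hb
  exact ((((Ig.te hU ok.ts (((tSp ok ot hv₁ hv₂ hW hf).sub hU h1).sq hU)).add
    (Ig.te hU ok.ts (((tRp ok ot hv₁ hv₂ hW hf).sub hU h2).sq hU))).add
    (Ig.ct hU ok.ts w.ch (((tSp ok ot hv₁ hv₂ hW hg).sub hU h3).sq hU))).add
    (Ig.te hU ok.ts (((tRp ok ot hv₁ hv₂ hW hg).sub hU h4).sq hU))).add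
    (Ig.ct hU ok.ts w.cd (tDK2 ok ot hW hg))

/-- **From the cells to `Ω`.** -/
theorem Cd_sum (ok : σ.Ok U θ) (ot : τ.Ok U θ) (hv₁ : Sm U v₁) (hv₂ : Sm U v₂) (hW : Sm U W)
    (w : Wt U Ω e h hi wc d) (hΩ : Ω ⊆ U) (el : ∀ z ∈ Ω, El σ z) (et : ∀ z ∈ Ω, El τ z)
    {ρ₀ ρ c C : ℝ} (hC : 0 ≤ C) (h0 : 0 ≤ c) (r0 : 0 ≤ ρ₀) (hρ : ρ₀ + 80 * C * ρ ≤ c / 2) {Z : α → Set E}
    (cell : ∀ k, Cd σ τ U (Z k) θ v₁ v₂ W e h hi wc d c C)
    (part : ∀ K, IsCompact K → K ⊆ Ω → ∃ (S : Finset α) (ψ : α → E → ℝ) (V : Set E),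
      IsOpen V ∧ K ⊆ V ∧ V ⊆ Ω ∧ (∀ k ∈ S, Sm U (ψ k)) ∧ (∀ k ∈ S, tsupport (ψ k) ∩ K ⊆ Z k) ∧
      (∀ z ∈ V, ∑ k ∈ S, ψ k z ^ 2 = 1) ∧ ∀ z ∈ V, Pc σ τ W e wc S ψ ρ₀ ρ z) :
    Cd σ τ U Ω θ v₁ v₂ W e h hi wc d (c / 2) (2 * C) := by
  intro a b s₁ s₂ s₃ s₄ ha hb h1 h2 h3 h4
  have hU := ok.op
  obtain ⟨S, ψ, V, hV, hKV, hVΩ, hψ, hZ, hs, hp⟩ := part
    ((tsupport a ∪ tsupport b) ∪ ((tsupport s₁ ∪ tsupport s₂) ∪ (tsupport s₃ ∪ tsupport s₄)))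
    ((ha.cpt.union hb.cpt).union ((h1.cpt.union h2.cpt).union (h3.cpt.union h4.cpt)))
    (union_subset (union_subset ha.2.2 hb.2.2) (union_subset (union_subset h1.2.2 h2.2.2)
      (union_subset h3.2.2 h4.2.2)))
  set K := (tsupport a ∪ tsupport b) ∪
    ((tsupport s₁ ∪ tsupport s₂) ∪ (tsupport s₃ ∪ tsupport s₄)) with hK
  have hVU := hVΩ.trans hΩ
  have ha' := te_mono ha hΩ
  have hb' := te_mono hb hΩ
  have h1' := te_mono h1 hΩ
  have h2' := te_mono h2 hΩ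
  have h3' := te_mono h3 hΩ
  have h4' := te_mono h4 hΩ
  have ka : tsupport a ⊆ K := fun z hz => Or.inl (Or.inl hz)
  have kb : tsupport b ⊆ K := fun z hz => Or.inl (Or.inr hz)
  have k1 : tsupport s₁ ⊆ K := fun z hz => Or.inr (Or.inl (Or.inl hz))
  have k2 : tsupport s₂ ⊆ K := fun z hz => Or.inr (Or.inl (Or.inr hz))
  have k3 : tsupport s₃ ⊆ K := fun z hz => Or.inr (Or.inr (Or.inl hz))
  have k4 : tsupport s₄ ⊆ K := fun z hz => Or.inr (Or.inr (Or.inr hz))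
  have tc : ∀ {f : E → ℝ}, Te U f → tsupport f ⊆ K → ∀ k ∈ S,
      Te (Z k) fun w => ψ k w * f w := fun {f} hf hfK k hk => by
    have t := hf.mul_left hU (hψ k hk)
    refine ⟨t.1, t.2.1, fun z hz => hZ k hk ⟨?_, hfK ?_⟩⟩
    · exact tsupport_mul_subset_left hz
    · exact tsupport_mul_subset_right hz
  have tu : ∀ {f : E → ℝ}, Te U f → ∀ k ∈ S, Te U fun w => ψ k w * f w :=
    fun {f} hf k hk => hf.mul_left hU (hψ k hk)
  have main := Finset.sum_le_sum fun k (hk : k ∈ S) => cell k (fun w => ψ k w * a w)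
    (fun w => ψ k w * b w) (fun w => ψ k w * s₁ w) (fun w => ψ k w * s₂ w)
    (fun w => ψ k w * s₃ w) (fun w => ψ k w * s₄ w) (tc ha' ka k hk) (tc hb' kb k hk)
    (tc h1' k1 k hk) (tc h2' k2 k hk) (tc h3' k3 k hk) (tc h4' k4 k hk)
  have g4 : ∀ k ∈ S, Ig U θ (s4 (fun w => ψ k w * s₁ w) (fun w => ψ k w * s₂ w)
      (fun w => ψ k w * s₃ w) fun w => ψ k w * s₄ w) := fun k hk =>
    s4_ig hU ok.ts (tu h1' k hk) (tu h2' k hk) (tu h3' k hk) (tu h4' k hk)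
  have gm : ∀ k ∈ S, Ig U θ (mm σ τ W e wc hi (fun w => ψ k w * a w) fun w => ψ k w * b w) :=
    fun k hk => mm_ig ok ot hW w (tu ha' k hk) (tu hb' k hk)
  have gs : ∀ k ∈ S, Ig U θ (sta σ τ v₁ v₂ W (fun w => ψ k w * a w) fun w => ψ k w * b w) :=
    fun k hk => Ig.te hU ok.ts (tsta ok ot hv₁ hv₂ hW (tu ha' k hk) (tu hb' k hk))
  have gc : ∀ k ∈ S, Ig U θ (cc σ τ v₁ v₂ W h d (fun w => ψ k w * a w) (fun w => ψ k w * b w)
      (fun w => ψ k w * s₁ w) (fun w => ψ k w * s₂ w) (fun w => ψ k w * s₃ w)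
      fun w => ψ k w * s₄ w) := fun k hk =>
    cc_ig ok ot hv₁ hv₂ hW w (tu ha' k hk) (tu hb' k hk) (tu h1' k hk) (tu h2' k hk)
      (tu h3' k hk) (tu h4' k hk)
  have i4 := s4_ig hU ok.ts h1' h2' h3' h4'
  have im := mm_ig ok ot hW w ha' hb'
  have is := Ig.te hU ok.ts (tsta ok ot hv₁ hv₂ hW ha' hb')
  have ic := cc_ig ok ot hv₁ hv₂ hW w ha' hb' h1' h2' h3' h4'
  rw [← Finset.mul_sum, Finset.sum_add_distrib, ← Finset.mul_sum,
    ← In_sumI S fun k hk => (g4 k hk).add (gm k hk),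
    ← In_sumI S fun k hk => (g4 k hk).add (gs k hk), ← In_sumI S gc] at main
  -- the zero lemma
  have zz : ∀ {f : E → ℝ}, tsupport f ⊆ K → ∀ z ∉ V, f =ᶠ[𝓝 z] fun _ => 0 :=
    fun {f} hf z hz => notMem_tsupport_iff_eventuallyEq.1 fun hc => hz (hKV (hf hc))
  have zc : ∀ {f : E → ℝ}, tsupport f ⊆ K → ∀ z ∉ V, ∀ k,
      (fun w => ψ k w * f w) =ᶠ[𝓝 z] fun _ => 0 := fun {f} hf z hz k => by
    filter_upwards [zz hf z hz] with w hw
    rw [hw, mul_zero]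
  -- the margin
  have A1 : In U θ (fun z => s4 s₁ s₂ s₃ s₄ z + mm σ τ W e wc hi a b z) ≤
      In U θ (fun z => ∑ k ∈ S, (s4 (fun w => ψ k w * s₁ w) (fun w => ψ k w * s₂ w)
        (fun w => ψ k w * s₃ w) (fun w => ψ k w * s₄ w) z +
        mm σ τ W e wc hi (fun w => ψ k w * a w) (fun w => ψ k w * b w) z)) := by
    refine In_monoI hU ok.tp (i4.add im) (Ig.sum S fun k hk => (g4 k hk).add (gm k hk)) ?_
    intro z hz
    by_cases hv : z ∈ V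
    · rw [Finset.sum_add_distrib, s4_cells (hs z hv)]
      have := mm_cells (e := e) (wc := wc) (hi := hi) (W := W) ok ot hV hVU hψ hs ha'.sm hb'.sm
        hv (by linarith [w.i1 z (hVΩ hv)])
      linarith
    · rw [mm_zero σ τ W e wc hi (zz ka z hv) (zz kb z hv)]
      have e4 : s4 s₁ s₂ s₃ s₄ z = 0 := by
        unfold s4
        rw [(zz k1 z hv).eq_of_nhds, (zz k2 z hv).eq_of_nhds, (zz k3 z hv).eq_of_nhds,
          (zz k4 z hv).eq_of_nhds]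
        ring
      rw [e4]
      simp only [mm_zero σ τ W e wc hi (zc ka z hv _) (zc kb z hv _)]
      refine le_trans (le_of_eq (by ring)) (Finset.sum_nonneg fun k _ => ?_)
      unfold s4
      positivity
  -- the star density
  have A2 : In U θ (fun z => ∑ k ∈ S, (s4 (fun w => ψ k w * s₁ w) (fun w => ψ k w * s₂ w)
        (fun w => ψ k w * s₃ w) (fun w => ψ k w * s₄ w) z +
        sta σ τ v₁ v₂ W (fun w => ψ k w * a w) (fun w => ψ k w * b w) z)) ≤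
      In U θ (fun z => (s4 s₁ s₂ s₃ s₄ z + sta σ τ v₁ v₂ W a b z) +
        ρ₀ * mm σ τ W e wc hi a b z) := by
    refine In_monoI hU ok.tp (Ig.sum S fun k hk => (g4 k hk).add (gs k hk))
      ((i4.add is).add (im.cmul ρ₀)) ?_
    intro z hz
    by_cases hv : z ∈ V
    · have hΩz := hVΩ hv
      rw [Finset.sum_add_distrib, s4_cells (hs z hv),
        sta_cells hV S (fun k hk => (hψ k hk).mono hVU) hs (ha'.sm.mono hVU) (hb'.sm.mono hVU) hv]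
      have t := (hp z hv).th (a z) (b z)
      have hr : ρ₀ * (e z * (a z + b z) ^ 2 + wc z * (a z - b z) ^ 2) ≤
          ρ₀ * mm σ τ W e wc hi a b z := by
        refine mul_le_mul_of_nonneg_left ?_ r0
        unfold mm
        have y1 := Y2_nonneg σ τ W (fun w => a w - b w) z
        have y2 := mul_nonneg (by linarith [w.i1 z hΩz] : (0 : ℝ) ≤ hi z)
          (Y2_nonneg σ τ W (fun w => a w + b w) z)
        have y3 := mul_nonneg (by linarith [w.i1 z hΩz] : (0 : ℝ) ≤ hi z)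
          (K2_nonneg σ τ W (fun w => a w - b w) z)
        linarith
      linarith
    · rw [mm_zero σ τ W e wc hi (zz ka z hv) (zz kb z hv),
        sta_zero σ τ v₁ v₂ W (zz ka z hv) (zz kb z hv)]
      refine le_of_eq ?_
      simp only [sta_zero σ τ v₁ v₂ W (zc ka z hv _) (zc kb z hv _)]
      have z1 := (zz k1 z hv).eq_of_nhds
      have z2 := (zz k2 z hv).eq_of_nhds
      have z3 := (zz k3 z hv).eq_of_nhds
      have z4 := (zz k4 z hv).eq_of_nhds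
      simp [s4, z1, z2, z3, z4]
  -- the costs
  have A3 : In U θ (fun z => ∑ k ∈ S, cc σ τ v₁ v₂ W h d (fun w => ψ k w * a w)
        (fun w => ψ k w * b w) (fun w => ψ k w * s₁ w) (fun w => ψ k w * s₂ w)
        (fun w => ψ k w * s₃ w) (fun w => ψ k w * s₄ w) z) ≤
      In U θ (fun z => 2 * cc σ τ v₁ v₂ W h d a b s₁ s₂ s₃ s₄ z +
        80 * ρ * mm σ τ W e wc hi a b z) := by
    refine In_monoI hU ok.tp (Ig.sum S gc) ((ic.cmul 2).add (im.cmul (80 * ρ))) ?_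
    intro z hz
    by_cases hv : z ∈ V
    · have hΩz := hVΩ hv
      exact cc_cells ok ot (el z hΩz) (et z hΩz) hW hψ (hs z hv) (hp z hv) ha'.sm hb'.sm hz
        (w.e1 z hΩz) (w.w1 z hΩz) (w.i1 z hΩz) (w.h0 z hΩz) (w.h1 z hΩz) (w.d0 z hΩz)
        (w.d1 z hΩz)
    · rw [mm_zero σ τ W e wc hi (zz ka z hv) (zz kb z hv),
        cc_zero σ τ v₁ v₂ W h d (zz ka z hv) (zz kb z hv) (zz k1 z hv).eq_of_nhds
          (zz k2 z hv).eq_of_nhds (zz k3 z hv).eq_of_nhds (zz k4 z hv).eq_of_nhds]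
      refine le_of_eq ?_
      rw [Finset.sum_congr rfl fun k _ => cc_zero σ τ v₁ v₂ W h d (zc ka z hv k) (zc kb z hv k)
        (zc k1 z hv k).eq_of_nhds (zc k2 z hv k).eq_of_nhds (zc k3 z hv k).eq_of_nhds
        (zc k4 z hv k).eq_of_nhds]
      simp
  have A4 : In U θ (mm σ τ W e wc hi a b) ≤
      In U θ (fun z => s4 s₁ s₂ s₃ s₄ z + mm σ τ W e wc hi a b z) :=
    In_monoI hU ok.tp im (i4.add im) fun z _ => by
      have : 0 ≤ s4 s₁ s₂ s₃ s₄ z := by unfold s4; positivity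
      linarith
  rw [In_addI (i4.add is) (im.cmul ρ₀), In_cmul] at A2
  rw [In_addI (ic.cmul 2) (im.cmul (80 * ρ)), In_cmul, In_cmul] at A3
  set A := In U θ (fun z => s4 s₁ s₂ s₃ s₄ z + mm σ τ W e wc hi a b z)
  set B := In U θ (fun z => s4 s₁ s₂ s₃ s₄ z + sta σ τ v₁ v₂ W a b z)
  set M := In U θ (mm σ τ W e wc hi a b)
  set D := In U θ (cc σ τ v₁ v₂ W h d a b s₁ s₂ s₃ s₄)
  have M0 : 0 ≤ M := by
    refine setIntegral_nonneg hU.measurableSet fun z hz => mul_nonneg (ok.tp z hz).le ?_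
    by_cases hv : z ∈ V
    · have hΩz := hVΩ hv
      have e1 := w.e1 z hΩz
      have w1 := w.w1 z hΩz
      have i1 := w.i1 z hΩz
      unfold mm
      have y1 := Y2_nonneg σ τ W (fun w => a w - b w) z
      have y2 := Y2_nonneg σ τ W (fun w => a w + b w) z
      have y3 := K2_nonneg σ τ W (fun w => a w - b w) z
      positivity
    · rw [mm_zero σ τ W e wc hi (zz ka z hv) (zz kb z hv)]
  have B1 := mul_le_mul_of_nonneg_left A1 h0
  have B3 := mul_le_mul_of_nonneg_left A3 hC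
  have B4 := mul_le_mul_of_nonneg_right hρ M0
  have B5 := mul_le_mul_of_nonneg_left A4 (by linarith : 0 ≤ c / 2)
  nlinarith

/-- **The curved box of the outer cut-off.** -/
theorem CB_of_Cd (ok : σ.Ok U θ) (ot : τ.Ok U θ) (hv₁ : Sm U v₁) (hv₂ : Sm U v₂) (hW : Sm U W)
    (w : Wt U Ω e h hi wc d) (hΩ : Ω ⊆ U) {c C : ℝ}
    (H : Cd σ τ U Ω θ v₁ v₂ W e h hi wc d c C) :
    CB σ τ U Ω θ v₁ v₂ W e h wc (Mxf σ τ U θ W hi) (F5t σ τ U θ W d) c C := by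
  intro a b s₁ s₂ s₃ s₄ ha hb h1 h2 h3 h4
  have hU := ok.op
  have ha' := te_mono ha hΩ
  have hb' := te_mono hb hΩ
  have h1' := te_mono h1 hΩ
  have h2' := te_mono h2 hΩ
  have h3' := te_mono h3 hΩ
  have h4' := te_mono h4 hΩ
  have hf := ha'.add hU hb'
  have hg := ha'.sub hU hb'
  have i4 := s4_ig hU ok.ts h1' h2' h3' h4'
  have is := Ig.te hU ok.ts (tsta ok ot hv₁ hv₂ hW ha' hb')
  have m1 := Ig.ct hU ok.ts w.ce (hf.sq hU)
  have m2 := Ig.ct hU ok.ts w.cw (hg.sq hU)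
  have m3 := Ig.ct hU ok.ts w.ci (tK2 ok ot hW hg)
  have m4 := Ig.te hU ok.ts (tY2 ok ot hW hg)
  have m5 := Ig.ct hU ok.ts w.ci (tY2 ok ot hW hf)
  have c1 := Ig.te hU ok.ts (((tSp ok ot hv₁ hv₂ hW hf).sub hU h1').sq hU)
  have c2 := Ig.te hU ok.ts (((tRp ok ot hv₁ hv₂ hW hf).sub hU h2').sq hU)
  have c3 := Ig.ct hU ok.ts w.ch (((tSp ok ot hv₁ hv₂ hW hg).sub hU h3').sq hU)
  have c4 := Ig.te hU ok.ts (((tRp ok ot hv₁ hv₂ hW hg).sub hU h4').sq hU)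
  have c5 := Ig.ct hU ok.ts w.cd (tDK2 ok ot hW hg)
  have main := H a b s₁ s₂ s₃ s₄ ha hb h1 h2 h3 h4
  have em : In U θ (mm σ τ W e wc hi a b) = In U θ (fun z => e z * (a z + b z) ^ 2) +
        In U θ (fun z => wc z * (a z - b z) ^ 2) + Mxf σ τ U θ W hi a b := by
    rw [← In_addI m1 m2, Mxf, Mxt, ← In_addI m3 m4, ← add_assoc, ← In_addI (m1.add m2)
      (m3.add m4), ← In_addI ((m1.add m2).add (m3.add m4)) m5]
    rfl
  have e4 : In U θ (s4 s₁ s₂ s₃ s₄) = S4 U θ s₁ s₂ s₃ s₄ := by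
    have q1 := Ig.te hU ok.ts (h1'.sq hU)
    have q2 := Ig.te hU ok.ts (h2'.sq hU)
    have q3 := Ig.te hU ok.ts (h3'.sq hU)
    have q4 := Ig.te hU ok.ts (h4'.sq hU)
    rw [S4, ← In_addI q1 q2, ← In_addI q3 q4, ← In_addI (q1.add q2) (q3.add q4)]
    rfl
  have ec : In U θ (cc σ τ v₁ v₂ W h d a b s₁ s₂ s₃ s₄) =
      CC σ τ U θ v₁ v₂ W h a b s₁ s₂ s₃ s₄ + F5t σ τ U θ W d fun z => a z - b z := by
    rw [CC, F5t, ← In_addI c1 c2, ← In_addI (c1.add c2) c3, ← In_addI ((c1.add c2).add c3) c4,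
      ← In_addI (((c1.add c2).add c3).add c4) c5]
    rfl
  rw [In_addI i4 (mm_ig ok ot hW w ha' hb'), em, e4, ec, In_addI i4 is, e4] at main
  linarith

end dens

end Vale.Agent.P088.R2.H676.F
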