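import Vale.Agent.P088.R2.H676.F.Oc
import Vale.Agent.P088.R2.H961.F.CellD

/-!
# P088, zone B1: one cell of helper961's data `CD`, true slots `slx 1 s₁`, `sly 1 s₂`
-/

set_option linter.unusedSectionVars false

open MeasureTheory Set Filter
open scoped ContDiff Topology

noncomputable section

namespace Vale.Agent.P088.R2.H676.F

open Vale.Agent.P088.LR Vale.Agent.P088.HY
open Vale.Agent.P088.R2.H961.GW (Sl Te In Sm slx sly)
open Vale.Agent.P088.R2.H464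
open Vale.Agent.P088.R2.H961.F (dd Pv Xv Yv sX sY vl CD hS hD cX cY PbZ)
open Vale.Agent.P088.R2.H516.B (mu Wd Zn Su Bd)
open Vale.Agent.P088.R2.H593.B (c0 C0 C1 eta0 Sz)

variable {n : ℕ}

theorem haarV : (volume : Measure (VV n)).IsAddHaarMeasure :=
  Measure.prod.instIsAddHaarMeasure (volume : Measure (V n)) (volume : Measure (V n))

attribute [local instance] haarV

/-- Bounds of the matrix of a cell: `|Mᵀ x|² ≤ 4 |x|²`, `|Nᵀ x|² ≤ 4 |x|²`. -/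
structure MN (c : CD n) : Prop where
  M : ∀ x : Fin n → ℝ, ∑ i, (∑ j, c.M j i * x j) ^ 2 ≤ 4 * ∑ j, x j ^ 2
  N : ∀ x : Fin n → ℝ, ∑ j, (∑ i, c.N i j * x i) ^ 2 ≤ 4 * ∑ i, x i ^ 2

/-- The frame of a cell. -/
theorem fc_CD (c : CD n) (b : MN c) {s₁ s₂ : MF n}
    (h₁ : ∀ i j, ContDiff ℝ ∞ fun x => s₁ x i j) (h₂ : ∀ i j, ContDiff ℝ ∞ fun x => s₂ x i j)
    (y₁ : ∀ x i j, s₁ x i j = s₁ x j i) (y₂ : ∀ x i j, s₂ x i j = s₂ x j i) :
    Fc (slx (fun _ => (1 : ℝ)) s₁) (sly (fun _ => (1 : ℝ)) s₂) c.T (hS (cX c.N h₁) (cY c.N h₂))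
      (hD (cX c.N h₁) (cY c.N h₂)) (fun i j => c.M j i) (fun j i => c.N i j) := by
  have ad := H961.F.ad_frM c.M c.N c.nm s₁ s₂
  have fx := H961.F.flt_x s₁
  have fy := H961.F.flt_y s₂
  have MN1 : c.M * c.N = 1 := _root_.mul_eq_one_comm.1 c.nm
  have key : ∀ (e : Fin n → VV n) (j : Fin n), e j = ∑ i, c.N i j • ∑ k, c.M k i • e k := by
    intro e j
    have h1 : ∀ k, ∑ i, c.N i j * c.M k i = if k = j then 1 else 0 := fun k => by
      have : (c.M * c.N) k j = if k = j then 1 else 0 := by rw [MN1, Matrix.one_apply]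
      rw [← this, Matrix.mul_apply]
      exact Finset.sum_congr rfl fun i _ => mul_comm _ _
    simp only [Finset.smul_sum, smul_smul]
    rw [Finset.sum_comm]
    simp only [← Finset.sum_smul, h1]
    simp
  exact
    { ρx := fx.r
      ρy := fy.r
      kx := fx.k
      ky := fy.k
      xe := ad.X
      ye := ad.Y
      ex := fun j => by
        rw [key (slx (fun _ => (1 : ℝ)) s₁).e j]
        refine Finset.sum_congr rfl fun i _ => ?_
        congr 1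
        exact (ad.X i).symm
      ey := fun j => by
        rw [key (sly (fun _ => (1 : ℝ)) s₂).e j]
        refine Finset.sum_congr rfl fun i _ => ?_
        congr 1
        exact (ad.Y i).symm
      Mb := b.M
      Nb := b.N
      sx := fun i j z => by
        rw [H961.F.mS_cX c.M c.N c.nm h₁ i j, H961.F.sX_h]
        unfold H961.F.mS
        rw [H961.F.sm_sum']
        refine Finset.sum_congr rfl fun k _ => ?_
        rw [H961.F.sm_sum']
        rfl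
      sy := fun i j z => by
        rw [H961.F.mS_cY c.M c.N c.nm h₂ i j, H961.F.sY_h]
        unfold H961.F.mS
        rw [H961.F.sm_sum']
        refine Finset.sum_congr rfl fun k _ => ?_
        rw [H961.F.sm_sum']
        rfl
      ss := H961.F.hS_symm (H961.F.cX_symm _ h₁ y₁) (H961.F.cY_symm _ h₂ y₂)
      sd := H961.F.hD_symm (H961.F.cX_symm _ h₁ y₁) (H961.F.cY_symm _ h₂ y₂) }

/-- **One cell** of the data `CD`. -/
theorem cd_CD (hn : 3 ≤ n) (c : CD n) (b : MN c) {Z Ω : Set (VV n)} {Nf : EP.Sm (VV n)}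
    {Lam eps : ℝ} (O : c.Ok Z Nf Lam eps) (he : eps ≤ H593.B.eps0 n Lam)
    (w : Wd c.T) {W : EP.Sm (VV n)} {s₁ s₂ : MF n}
    (h₁ : ∀ i j, ContDiff ℝ ∞ fun x => s₁ x i j) (h₂ : ∀ i j, ContDiff ℝ ∞ fun x => s₂ x i j)
    (y₁ : ∀ x i j, s₁ x i j = s₁ x j i) (y₂ : ∀ x i j, s₂ x i j = s₂ x j i)
    {del : VV n → ℝ} (H : c.Pb Z W h₁ h₂ del) {Cf eta : ℝ} (hCf : 0 ≤ Cf) (h0 : 0 ≤ eta)
    (h1 : eta ≤ eta0 n Lam Cf) (hs : Sz c.T Z del (fun _ => 0) eta) {d2 : EP.Sm (VV n)}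
    (hd2 : ∀ z ∈ Z, del z ^ 2 ≤ (d2 : VV n → ℝ) z) (hd2' : ∀ z, 0 ≤ (d2 : VV n → ℝ) z)
    {e h hi wc dt : VV n → ℝ} {CW : ℝ} (hw : ∀ z ∈ Z, Wc c.T w Nf e h hi wc dt d2 CW z)
    (C1' : 1 ≤ CW) (wt : Wt univ Ω e h hi wc dt) (hZΩ : Z ⊆ Ω)
    (ok : (slx (fun _ => (1 : ℝ)) s₁).Ok univ fun _ => 1)
    (ot : (sly (fun _ => (1 : ℝ)) s₂).Ok univ fun _ => 1)
    (hF : hFp (slx (fun _ => (1 : ℝ)) s₁) (sly (fun _ => (1 : ℝ)) s₂) c.T w W 0 0 Nf Z Cf eta) :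
    Cd (slx (fun _ => (1 : ℝ)) s₁) (sly (fun _ => (1 : ℝ)) s₂) univ Z (fun _ => 1) (fun _ => 0)
      (fun _ => 0) (W : VV n → ℝ) e h hi wc dt (cO n Lam CW) (CO n Lam CW) := by
  have cn : Fintype.card (Fin n) = n := Fintype.card_fin n
  have B : BoxOk c.T w Z Nf Lam eps := boxOk (by rw [cn]; exact hn) O.pl O.pφ w O.zn O.zc O.hl
    (by rw [cn]; exact he)
  have key := cd_one (fc_CD c b h₁ h₂ y₁ y₂) ok ot w B H hCf h0 (by rw [cn]; exact h1) hs hd2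
    hd2' hw C1' wt hZΩ hF
  rw [cn] at key
  exact key

end Vale.Agent.P088.R2.H676.F
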