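import Vale.Agent.P088.R2.H676.F.Zb
import Vale.Agent.P088.R2.H961.F.HyPb
import Vale.Agent.P088.R2.H593.B.Hfp

/-!
# P088, zone B1: the cells of a family

From helper464's classes (`Hy`, `Hm`, `Hs`, `Sc`) of a family of cells to the curved box `Cd` on
every cell.
-/

set_option linter.unusedSectionVars false

open MeasureTheory Set Filter
open scoped ContDiff Topology

noncomputable section

namespace Vale.Agent.P088.R2.H676.F

open Vale.Agent.P088.LR Vale.Agent.P088.HY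
open Vale.Agent.P088.R2.H961.GW (Sl Te In slx sly)
open Vale.Agent.P088.R2.H464
open Vale.Agent.P088.R2.H464.B (Ge Hy Hm Hs Sc zr)
open Vale.Agent.P088.R2.H961.F (dd Pv Xv Yv vl CD hS hD cX cY PbZ Pb Gf fe fr fs fd)
open Vale.Agent.P088.R2.H516.B (mu Wd Zn Su Bd)
open Vale.Agent.P088.R2.H593.B (c0 C0 C1 eta0 Sz Tf Sq)
open Vale.Agent.P088.R2.H551.E (sta)

/-! ## The weight up to a constant -/

section const

variable {ι E : Type} [Fintype ι] [DecidableEq ι] [NormedAddCommGroup E] [NormedSpace ℝ E]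

theorem fd_loc {Z : Set E} (hZ : IsOpen Z) {f g : E → ℝ} {k : ℝ} (h : ∀ z ∈ Z, f z = g z + k)
    {z : E} (hz : z ∈ Z) : fderiv ℝ f z = fderiv ℝ g z := by
  have h1 : f =ᶠ[𝓝 z] fun z => g z + k := by
    filter_upwards [hZ.mem_nhds hz] with w hw using h w hw
  rw [h1.fderiv_eq]
  exact fderiv_add_const k

theorem pbz_loc {T : EP.Dat ι E} {Z : Set E} (hZ : IsOpen Z) {W W' : EP.Sm E}
    {s d : ι → ι → EP.Sm E} {v₁ v₂ : EP.Sm E} {del : E → ℝ} {k : ℝ}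
    (h : ∀ z ∈ Z, (W' : E → ℝ) z = (W : E → ℝ) z + k) (H : PbZ T Z W' s d v₁ v₂ del) :
    PbZ T Z W s d v₁ v₂ del where
  he := H.he
  hm := H.hm
  hs := H.hs
  hd := H.hd
  pb z hz := by
    obtain ⟨δ, h1, p⟩ := H.pb z hz
    have e0 : ∀ z ∈ Z, ((W' - T.w : EP.Sm E) : E → ℝ) z = ((W - T.w : EP.Sm E) : E → ℝ) z + k := by
      intro z hz
      change (W' : E → ℝ) z - (T.w : E → ℝ) z = (W : E → ℝ) z - (T.w : E → ℝ) z + k
      rw [h z hz]; ring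
    have e1 : ∀ v, ∀ z ∈ Z, vl z (EP.ds v (W - T.w)) = vl z (EP.ds v (W' - T.w)) := by
      intro v z hz
      change fderiv ℝ ((W - T.w : EP.Sm E) : E → ℝ) z v = fderiv ℝ ((W' - T.w : EP.Sm E) : E → ℝ) z v
      rw [fd_loc hZ e0 hz]
    have e2 : ∀ u v, vl z (EP.ds u (EP.ds v (W - T.w))) = vl z (EP.ds u (EP.ds v (W' - T.w))) := by
      intro u v
      change fderiv ℝ ((EP.ds v (W - T.w) : EP.Sm E) : E → ℝ) z u =
        fderiv ℝ ((EP.ds v (W' - T.w) : EP.Sm E) : E → ℝ) z u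
      rw [fd_loc hZ (f := ((EP.ds v (W - T.w) : EP.Sm E) : E → ℝ))
        (g := ((EP.ds v (W' - T.w) : EP.Sm E) : E → ℝ)) (k := 0)
        (fun w hw => (e1 v w hw).trans (add_zero _).symm) hz]
    exact ⟨δ, h1,
      { δ0 := p.δ0, r0 := p.r0, r1 := p.r1, m1 := p.m1, dm := p.dm, s0 := p.s0, d0 := p.d0
        sa := p.sa, sb := p.sb, da := p.da, db := p.db
        oa := fun i => by rw [e1 _ z hz]; exact p.oa i
        ob := fun i => by rw [e1 _ z hz]; exact p.ob i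
        oaa := fun i j => by rw [e2]; exact p.oaa i j
        oab := fun i j => by rw [e2]; exact p.oab i j
        obb := fun i j => by rw [e2]; exact p.obb i j
        vp := p.vp
        vm := p.vm }⟩

end const

/-! ## The family -/

section fam

variable {n : ℕ}

attribute [local instance] haarV

variable {α : Type} {c : α → CD n} {Z : α → Set (VV n)} (hZ : ∀ x, IsOpen (Z x))
  {s₁ s₂ : α → MF n} {W' : α → EP.Sm (VV n)} {t δ κ μ ν η : α → VV n → ℝ}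

/-- **The cells of a family.** -/
theorem fam_cd (hn : 3 ≤ n)
    (h₁ : ∀ x i j, ContDiff ℝ ∞ fun y => s₁ x y i j) (h₂ : ∀ x i j, ContDiff ℝ ∞ fun y => s₂ x y i j)
    (y₁ : ∀ x y i j, s₁ x y i j = s₁ x y j i) (y₂ : ∀ x y i j, s₂ x y i j = s₂ x y j i)
    (H : Hy (Gf c Z hZ) (fe c) (fr c) t δ (fs c s₁ s₂) (fd c s₁ s₂)
      (fun x => (W' x : VV n → ℝ)) fun x => ((c x).T.w : VV n → ℝ))
    (H₀ : Hy (Gf c Z hZ) (fe c) (fr c) t δ zr zr (fun x => ((c x).T.w : VV n → ℝ))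
      fun x => ((c x).T.w : VV n → ℝ))
    (hm : Hm (Gf c Z hZ) (fr c) κ (fs c s₁ s₂) (fd c s₁ s₂))
    (h : Hs (Gf c Z hZ) (fs c s₁ s₂) (fd c s₁ s₂))
    (S : Sc (Gf c Z hZ) (fe c) (fr c) t δ κ μ ν η) :
    ∃ C Cf : ℝ, 0 ≤ C ∧ 0 ≤ Cf ∧ ∀ (x : α) (Ω : Set (VV n)) (Nf W d2 : EP.Sm (VV n))
      (Lam eps eta CW k : ℝ) (e hh hi wc dt : VV n → ℝ) (w : Wd (c x).T),
      (c x).Ok (Z x) Nf Lam eps → eps ≤ H593.B.eps0 n Lam → MN (c x) →
      (∀ z ∈ Z x, (W' x : VV n → ℝ) z = (W : VV n → ℝ) z + k) →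
      0 ≤ eta → eta ≤ eta0 n Lam Cf → (∀ z ∈ Z x, η x z ≤ eta) →
      (∀ z ∈ Z x, 0 ≤ ν x z ∧ ν x z ≤ 2 * ((Nf : VV n → ℝ) z + (mu (c x).T : VV n → ℝ) z)) →
      (∀ z ∈ Z x, 11 * ((n : ℝ) + 1) ^ 2 * (C * δ x z) * (mu (c x).T : VV n → ℝ) z ≤ eta) →
      (∀ z ∈ Z x, (11 * ((n : ℝ) + 1) ^ 2 * (C * δ x z)) ^ 2 ≤ (d2 : VV n → ℝ) z) →
      (∀ z, 0 ≤ (d2 : VV n → ℝ) z) → (∀ z ∈ Z x, Wc (c x).T w Nf e hh hi wc dt d2 CW z) →
      1 ≤ CW → Wt univ Ω e hh hi wc dt → Z x ⊆ Ω →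
      Cd (slx (fun _ => (1 : ℝ)) (s₁ x)) (sly (fun _ => (1 : ℝ)) (s₂ x)) univ (Z x) (fun _ => 1)
        (fun _ => 0) (fun _ => 0) (W : VV n → ℝ) e hh hi wc dt (cO n Lam CW) (CO n Lam CW) := by
  obtain ⟨C, hC0, hC⟩ := H961.F.cdPb_of c Z hZ W' h₁ h₂ y₁ y₂ H
  obtain ⟨Cr, hCr0, hCr⟩ := H464.B.fr2 H H₀ hm h S
  refine ⟨C, Cr * 4 * (2 * (n : ℝ) + 1), hC0, by positivity, ?_⟩
  intro x Ω Nf W d2 Lam eps eta CW k e hh hi wc dt w O he b hW h0 h1 hη hν hδ hd2 hd2' hw C1' wt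
    hZΩ
  have hL := O.zn.L1
  have hCf : 0 ≤ Cr * 4 * (2 * (n : ℝ) + 1) := by positivity
  have e1 := (H593.B.eta0_le n hL hCf h1 h0).1
  have n0 : (0 : ℝ) ≤ n := Nat.cast_nonneg n
  have hP : (c x).Pb (Z x) (W' x) (h₁ x) (h₂ x)
      fun z => 11 * ((n : ℝ) + 1) ^ 2 * (C * δ x z) := by
    refine hC x _ (fun z hz => ?_) fun z _ => le_rfl
    have hm0 := H961.F.mu_ge c x z
    have d0 := H.sz.d0 x z hz
    have q0 : 0 ≤ C * δ x z * (mu (c x).T : VV n → ℝ) z := by positivity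
    have q1 : 1 ≤ 11 * ((n : ℝ) + 1) ^ 2 := by nlinarith
    calc C * δ x z * (mu (c x).T : VV n → ℝ) z ≤
          11 * ((n : ℝ) + 1) ^ 2 * (C * δ x z * (mu (c x).T : VV n → ℝ) z) :=
            le_mul_of_one_le_left q0 q1
      _ = 11 * ((n : ℝ) + 1) ^ 2 * (C * δ x z) * (mu (c x).T : VV n → ℝ) z := by ring
      _ ≤ 1 := (hδ z hz).trans e1
  have hs : Sz (c x).T (Z x) (fun z => 11 * ((n : ℝ) + 1) ^ 2 * (C * δ x z)) (fun _ => 0) eta :=
    { d0 := fun z hz => by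
        have := H.sz.d0 x z hz
        positivity
      h0 := fun _ _ => le_rfl
      dm := hδ
      he := fun z _ => by simpa using h0 }
  refine cd_CD hn (c x) b O he w (h₁ x) (h₂ x) (y₁ x) (y₂ x) (pbz_loc (hZ x) hW hP) hCf h0 h1 hs
    hd2 hd2' hw C1' wt hZΩ (H593.B.okx' (h₁ x) (h₂ x) (y₁ x) (y₂ x) isOpen_univ)
    (H593.B.oky' (h₁ x) (h₂ x) (y₁ x) (y₂ x) isOpen_univ) ?_
  have em : ∀ z ∈ Z x, μ x z = (mu (c x).T : VV n → ℝ) z := fun z hz => by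
    rw [S.mu x z hz]
    have hp : 0 < ((c x).T.e : VV n → ℝ) z := H961.F.fe_pos c x z
    have hg := H961.F.mu_ge c x z
    have e2 : fr c x z ^ 2 = (mu (c x).T : VV n → ℝ) z / ((c x).T.e : VV n → ℝ) z :=
      Real.sq_sqrt (div_nonneg (by linarith) hp.le)
    rw [e2]
    change ((c x).T.e : VV n → ℝ) z * _ = _
    field_simp
  have ei : ∀ z ∈ Z x, fe c x z / μ x z =
      ((c x).T.e : VV n → ℝ) z * (w.mi : VV n → ℝ) z := fun z hz => by
    have hv := H856.B.mi_val w z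
    have hg := H961.F.mu_ge c x z
    rw [em z hz, div_eq_iff (by linarith)]
    unfold H961.F.fe
    calc ((c x).T.e : VV n → ℝ) z = ((c x).T.e : VV n → ℝ) z *
          ((mu (c x).T : VV n → ℝ) z * (w.mi : VV n → ℝ) z) := by rw [hv, mul_one]
      _ = _ := by ring
  refine H593.B.hFp_cd (h₁ x) (h₂ x) (y₁ x) (y₂ x) (c x) (G := Gf c Z hZ) h x rfl rfl ?_ ?_
    (W' := fun x => (W' x : VV n → ℝ)) (H.sW x) hW hCr0 (hCr x) rfl (by norm_num : (0 : ℝ) ≤ 4)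
    h0 hη (fun z _ => le_mul_of_one_le_left (sq_nonneg _) (by norm_num)) (fun z hz => ?_)
    (fun z hz => ?_) (by norm_num) (fun z hz => ?_)
  · intro i j z _
    change (if i = j then (1 : ℝ) else 0) +
      (1 / 2 * ((∑ k, ∑ l, (c x).N i k * (c x).N j l * s₁ x z.1 k l) +
        ∑ k, ∑ l, (c x).N i k * (c x).N j l * s₂ x z.2 k l) - if i = j then 1 else 0) +
      1 / 2 * ((∑ k, ∑ l, (c x).N i k * (c x).N j l * s₁ x z.1 k l) -
        ∑ k, ∑ l, (c x).N i k * (c x).N j l * s₂ x z.2 k l) =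
      ∑ k, ∑ l, (c x).N i k * (c x).N j l * s₁ x z.1 k l
    ring
  · intro i j z _
    change (if i = j then (1 : ℝ) else 0) +
      (1 / 2 * ((∑ k, ∑ l, (c x).N i k * (c x).N j l * s₁ x z.1 k l) +
        ∑ k, ∑ l, (c x).N i k * (c x).N j l * s₂ x z.2 k l) - if i = j then 1 else 0) -
      1 / 2 * ((∑ k, ∑ l, (c x).N i k * (c x).N j l * s₁ x z.1 k l) -
        ∑ k, ∑ l, (c x).N i k * (c x).N j l * s₂ x z.2 k l) =
      ∑ k, ∑ l, (c x).N i k * (c x).N j l * s₂ x z.2 k l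
    ring
  · have hp := w.he z
    have hq := H856.B.mi_pos w z
    rw [ei z hz]
    exact le_mul_of_one_le_left (by positivity) (by norm_num)
  · rw [ei z hz]
    have h2 := hν z hz
    have hp := w.he z
    have hq := H856.B.mi_pos w z
    have h3 : ν x z ^ 2 ≤ (2 * ((Nf : VV n → ℝ) z + (mu (c x).T : VV n → ℝ) z)) ^ 2 :=
      pow_le_pow_left₀ h2.1 h2.2 2
    calc ((c x).T.e : VV n → ℝ) z * (w.mi : VV n → ℝ) z * ν x z ^ 2 ≤
          ((c x).T.e : VV n → ℝ) z * (w.mi : VV n → ℝ) z *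
            (2 * ((Nf : VV n → ℝ) z + (mu (c x).T : VV n → ℝ) z)) ^ 2 :=
          mul_le_mul_of_nonneg_left h3 (by positivity)
      _ = _ := by ring
  · rw [ei z hz]
    have hp := w.he z
    have hq := H856.B.mi_pos w z
    positivity

end fam

end Vale.Agent.P088.R2.H676.F
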