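import Vale.Agent.P088.R2.H593.B.Cell
import Vale.Agent.P088.R2.H961.F.Fr1b
import Vale.Agent.P088.R2.H676.F.Cd

/-!
# P088, zone B1, one cell: the true dressed derivations against the model ones

`X_i = a_i + b_i / 2 = ∑ M_ij e_j`, `Y_i = -a_i + b_i / 2 = ∑ M_ij e'_j`.
-/

set_option linter.unusedSectionVars false

open MeasureTheory Set Filter
open scoped ContDiff Topology

noncomputable section

namespace Vale.Agent.P088.R2.H676.F

open Vale.Agent.P088.R2.H961.GW (Sl Te)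
open Vale.Agent.P088.R2.H960.W (YY)
open Vale.Agent.P088.R2.H464
open Vale.Agent.P088.R2.H961.F (dd Pv Xv Yv sX sY vl)
open Vale.Agent.P088.R2.H516.O (Sp Rp)

variable {ι E : Type} [Fintype ι] [DecidableEq ι] [NormedAddCommGroup E] [NormedSpace ℝ E]

/-- The frame of a cell. -/
structure Fc (σ τ : Sl E ι) (T : EP.Dat ι E) (s d : ι → ι → EP.Sm E) (M Mi : ι → ι → ℝ) :
    Prop where
  ρx : ∀ z, σ.ρ z = 1
  ρy : ∀ z, τ.ρ z = 1
  kx : ∀ i z, σ.k i z = 0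
  ky : ∀ i z, τ.k i z = 0
  xe : ∀ i, Xv T.a T.b i = ∑ j, M i j • σ.e j
  ye : ∀ i, Yv T.a T.b i = ∑ j, M i j • τ.e j
  ex : ∀ j, σ.e j = ∑ i, Mi j i • Xv T.a T.b i
  ey : ∀ j, τ.e j = ∑ i, Mi j i • Yv T.a T.b i
  Mb : ∀ x : ι → ℝ, ∑ i, (∑ j, M i j * x j) ^ 2 ≤ 4 * ∑ j, x j ^ 2
  Nb : ∀ x : ι → ℝ, ∑ j, (∑ i, Mi j i * x i) ^ 2 ≤ 4 * ∑ i, x i ^ 2
  sx : ∀ a b z, σ.s a b z = ∑ i, ∑ j, M i a * M j b * vl z (sX s d i j)
  sy : ∀ a b z, τ.s a b z = ∑ i, ∑ j, M i a * M j b * vl z (sY s d i j)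
  ss : ∀ i j, s i j = s j i
  sd : ∀ i j, d i j = d j i

theorem dd_fn (W : EP.Sm E) (v : E) (f : EP.TE E) (z : E) :
    (dd W v f).fn z = fderiv ℝ f.fn z v + fderiv ℝ (W : E → ℝ) z v * f.fn z := rfl

theorem dd_sum (W : EP.Sm E) (c : ι → ℝ) (v : ι → E) :
    dd W (∑ j, c j • v j) = ∑ j, c j • dd W (v j) := by
  refine LinearMap.ext fun f => EP.TE.ext (funext fun z => ?_)
  rw [LinearMap.sum_apply, H961.B.T.sum_fn, dd_fn, map_sum, map_sum, Finset.sum_mul,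
    ← Finset.sum_add_distrib]
  refine Finset.sum_congr rfl fun j _ => ?_
  rw [LinearMap.smul_apply, EP.TE.smul_fn, dd_fn, map_smul, map_smul, smul_eq_mul, smul_eq_mul]
  ring

theorem YY_dd {σ : Sl E ι} (h : ∀ z, σ.ρ z = 1) (W : EP.Sm E) (f : EP.TE E) (j : ι) (z : E) :
    YY σ (W : E → ℝ) f.fn j z = (dd W (σ.e j) f).fn z := by
  unfold YY Sl.D
  rw [h z, dd_fn]
  ring

theorem YY_dd' {σ : Sl E ι} (h : ∀ z, σ.ρ z = 1) (W : EP.Sm E) (f : EP.TE E) (j : ι) :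
    YY σ (W : E → ℝ) f.fn j = (dd W (σ.e j) f).fn := funext fun z => YY_dd h W f j z

/-! ## The operators `P` -/

/-- The tensor in the flat frame. -/
def SS (M : ι → ι → ℝ) (s : ι → ι → EP.Sm E) (a b : ι) : EP.Sm E :=
  ∑ i, ∑ j, (M i a * M j b) • s i j

theorem vl_SS (M : ι → ι → ℝ) (s : ι → ι → EP.Sm E) (a b : ι) (z : E) :
    (SS M s a b : E → ℝ) z = ∑ i, ∑ j, M i a * M j b * vl z (s i j) := by
  rw [H961.F.vl_eq, SS, map_sum]
  refine Finset.sum_congr rfl fun i _ => ?_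
  rw [map_sum]
  exact Finset.sum_congr rfl fun j _ => by rw [map_smul, smul_eq_mul]

theorem Pv_frame (W : EP.Sm E) (X e : ι → E) (M : ι → ι → ℝ) (hX : ∀ i, X i = ∑ j, M i j • e j)
    (s : ι → ι → EP.Sm E) (v : EP.Sm E) : Pv W X s v = Pv W e (SS M s) v := by
  unfold Pv
  congr 1
  have h1 : ∀ i j, dd W (X i) * EP.ml (s i j) * dd W (X j) =
      ∑ a, ∑ b, (M i a * M j b) • (dd W (e a) * EP.ml (s i j) * dd W (e b)) := by
    intro i j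
    rw [hX i, hX j, dd_sum, dd_sum, Finset.sum_mul, Finset.sum_mul]
    refine Finset.sum_congr rfl fun a _ => ?_
    rw [Finset.mul_sum]
    refine Finset.sum_congr rfl fun b _ => ?_
    rw [smul_mul_assoc, smul_mul_assoc, mul_smul_comm, smul_smul]
  have h2 : ∀ a b, dd W (e a) * EP.ml (SS M s a b) * dd W (e b) =
      ∑ i, ∑ j, (M i a * M j b) • (dd W (e a) * EP.ml (s i j) * dd W (e b)) := by
    intro a b
    unfold SS
    rw [map_sum, Finset.mul_sum, Finset.sum_mul]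
    refine Finset.sum_congr rfl fun i _ => ?_
    rw [map_sum, Finset.mul_sum, Finset.sum_mul]
    refine Finset.sum_congr rfl fun j _ => ?_
    rw [map_smul, mul_smul_comm, smul_mul_assoc]
  simp only [h1, h2]
  calc ∑ i, ∑ j, ∑ a, ∑ b, (M i a * M j b) • (dd W (e a) * EP.ml (s i j) * dd W (e b))
      = ∑ i, ∑ a, ∑ j, ∑ b, (M i a * M j b) • (dd W (e a) * EP.ml (s i j) * dd W (e b)) :=
        Finset.sum_congr rfl fun i _ => Finset.sum_comm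
    _ = ∑ a, ∑ i, ∑ j, ∑ b, (M i a * M j b) • (dd W (e a) * EP.ml (s i j) * dd W (e b)) :=
        Finset.sum_comm
    _ = ∑ a, ∑ i, ∑ b, ∑ j, (M i a * M j b) • (dd W (e a) * EP.ml (s i j) * dd W (e b)) :=
        Finset.sum_congr rfl fun a _ => Finset.sum_congr rfl fun i _ => Finset.sum_comm
    _ = _ := Finset.sum_congr rfl fun a _ => Finset.sum_comm

theorem P_dd {σ : Sl E ι} {θ : E → ℝ} (ok : σ.Ok univ θ) (h : ∀ z, σ.ρ z = 1)
    (hk : ∀ i z, σ.k i z = 0) (s : ι → ι → EP.Sm E) (hs : ∀ a b z, σ.s a b z = (s a b : E → ℝ) z)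
    (W v : EP.Sm E) (f : EP.TE E) (z : E) :
    σ.P (v : E → ℝ) (W : E → ℝ) f.fn z = (Pv W σ.e s v f).fn z := by
  have hW : H961.GW.Sm univ (W : E → ℝ) := (EP.scd W).contDiffOn
  rw [H960.W.P_eq ok (v : E → ℝ) hW f.cd.contDiffOn (mem_univ z), Pv, LinearMap.add_apply,
    EP.TE.add_fn, EP.ml_apply, LinearMap.sum_apply, H961.B.T.sum_fn]
  congr 1
  refine Finset.sum_congr rfl fun i _ => ?_
  rw [LinearMap.sum_apply, H961.B.T.sum_fn]
  refine Finset.sum_congr rfl fun j _ => ?_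
  rw [hk i z, YY_dd' h W f j, hs i j z]
  have e1 : σ.D i (σ.s i j) z = (EP.ds (σ.e i) (s i j) : E → ℝ) z := by
    have : σ.s i j = (s i j : E → ℝ) := funext fun z => hs i j z
    rw [this, Sl.D, h z, one_mul]
    rfl
  have e2 : σ.D i (dd W (σ.e j) f).fn z = fderiv ℝ (dd W (σ.e j) f).fn z (σ.e i) := by
    rw [Sl.D, h z, one_mul]
  have e3 : σ.D i (W : E → ℝ) z = fderiv ℝ (W : E → ℝ) z (σ.e i) := by
    rw [Sl.D, h z, one_mul]
  have e4 : dd W (σ.e i) * EP.ml (s i j) * dd W (σ.e j) =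
      EP.ml (s i j) * (dd W (σ.e i) * dd W (σ.e j)) +
        EP.ml (EP.ds (σ.e i) (s i j)) * dd W (σ.e j) := by
    rw [H961.F.dd_ml, add_mul, mul_assoc]
  have e5 : ((EP.ml (s i j) * (dd W (σ.e i) * dd W (σ.e j))) f).fn z = (s i j : E → ℝ) z *
      (fderiv ℝ (dd W (σ.e j) f).fn z (σ.e i) +
        fderiv ℝ (W : E → ℝ) z (σ.e i) * (dd W (σ.e j) f).fn z) := rfl
  have e6 : ((EP.ml (EP.ds (σ.e i) (s i j)) * dd W (σ.e j)) f).fn z =
      (EP.ds (σ.e i) (s i j) : E → ℝ) z * (dd W (σ.e j) f).fn z := rfl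
  rw [e1, e2, e3, e4, LinearMap.add_apply, EP.TE.add_fn, e5, e6]
  ring

section fc

variable {σ τ : Sl E ι} {T : EP.Dat ι E} {s d : ι → ι → EP.Sm E} {M Mi : ι → ι → ℝ}

theorem Sp_St {θ : E → ℝ} (h : Fc σ τ T s d M Mi) (ok : σ.Ok univ θ) (ot : τ.Ok univ θ)
    (W v₁ v₂ : EP.Sm E) (f : EP.TE E) (z : E) :
    Sp σ τ (v₁ : E → ℝ) (v₂ : E → ℝ) (W : E → ℝ) f.fn z =
      (H961.F.St W T.a T.b s d v₁ v₂ f).fn z ∧
    Rp σ τ (v₁ : E → ℝ) (v₂ : E → ℝ) (W : E → ℝ) f.fn z =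
      (H961.F.Rt W T.a T.b s d v₁ v₂ f).fn z := by
  have h1 := P_dd ok h.ρx h.kx (SS M (sX s d)) (fun a b z => by rw [vl_SS, h.sx]) W v₁ f z
  have h2 := P_dd ot h.ρy h.ky (SS M (sY s d)) (fun a b z => by rw [vl_SS, h.sy]) W v₂ f z
  rw [← Pv_frame W (Xv T.a T.b) σ.e M h.xe] at h1
  rw [← Pv_frame W (Yv T.a T.b) τ.e M h.ye] at h2
  unfold Sp Rp H961.F.St H961.F.Rt H961.F.PX H961.F.PY
  rw [h1, h2, LinearMap.smul_apply, LinearMap.smul_apply, EP.TE.smul_fn, EP.TE.smul_fn,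
    LinearMap.add_apply, LinearMap.sub_apply, EP.TE.add_fn, EP.TE.sub_fn]
  constructor <;> ring

/-! ## First order -/

theorem a_eq (T : EP.Dat ι E) (i : ι) :
    T.a i = (1 / 2 : ℝ) • (Xv T.a T.b i - Yv T.a T.b i) := by
  unfold Xv Yv
  module

theorem b_eq (T : EP.Dat ι E) (i : ι) : T.b i = Xv T.a T.b i + Yv T.a T.b i := by
  unfold Xv Yv
  module

theorem dd_sub (W : EP.Sm E) (v w : E) : dd W (v - w) = dd W v - dd W w := by
  have h := H961.F.dd_add W (v - w) w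
  rw [sub_add_cancel] at h
  rw [h]; abel

/-- `e^{-W} ∂_{a_i} e^W` in the flat frames. -/
theorem dda (h : Fc σ τ T s d M Mi) (W : EP.Sm E) (f : EP.TE E) (i : ι) (z : E) :
    (dd W (T.a i) f).fn z =
      1 / 2 * ∑ j, M i j * ((dd W (σ.e j) f).fn z - (dd W (τ.e j) f).fn z) := by
  have e : dd W (T.a i) = (1 / 2 : ℝ) • ∑ j, M i j • (dd W (σ.e j) - dd W (τ.e j)) := by
    rw [a_eq, H961.F.dd_smul, dd_sub, h.xe, h.ye, dd_sum, dd_sum, ← Finset.sum_sub_distrib]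
    simp only [smul_sub]
  rw [e, LinearMap.smul_apply, EP.TE.smul_fn, LinearMap.sum_apply, H961.B.T.sum_fn]
  congr 1

/-- `e^{-W} ∂_{b_i} e^W` in the flat frames. -/
theorem ddb (h : Fc σ τ T s d M Mi) (W : EP.Sm E) (f : EP.TE E) (i : ι) :
    dd W (T.b i) f = ∑ j, M i j • dd W (σ.e j + τ.e j) f := by
  have e : dd W (T.b i) = ∑ j, M i j • dd W (σ.e j + τ.e j) := by
    rw [b_eq, H961.F.dd_add, h.xe, h.ye, dd_sum, dd_sum, ← Finset.sum_add_distrib]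
    simp only [H961.F.dd_add, smul_add]
  rw [e, LinearMap.sum_apply]
  rfl

theorem Kj_dd (h : Fc σ τ T s d M Mi) (W : EP.Sm E) (f : EP.TE E) (j : ι) :
    Kj σ τ (W : E → ℝ) f.fn j = (dd W (σ.e j + τ.e j) f).fn := by
  funext z
  unfold Kj
  rw [YY_dd h.ρx, YY_dd h.ρy, H961.F.dd_add, LinearMap.add_apply, EP.TE.add_fn]

theorem DKij_dd (h : Fc σ τ T s d M Mi) (W : EP.Sm E) (f : EP.TE E) (i j : ι) (z : E) :
    DKij σ τ (W : E → ℝ) f.fn i j z = (dd W (σ.e i) (dd W (σ.e j + τ.e j) f)).fn z -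
      (dd W (τ.e i) (dd W (σ.e j + τ.e j) f)).fn z := by
  unfold DKij
  rw [Kj_dd h, YY_dd h.ρx, YY_dd h.ρy]

theorem sq2 (u v : ℝ) : (u + 1 / 2 * v) ^ 2 + (-u + 1 / 2 * v) ^ 2 = 2 * u ^ 2 + 1 / 2 * v ^ 2 := by
  ring

theorem Y2_dd (h : Fc σ τ T s d M Mi) (W : EP.Sm E) (f : EP.TE E) (z : E) :
    Y2 σ τ (W : E → ℝ) f.fn z ≤
      8 * (∑ i, (dd W (T.a i) f).fn z ^ 2) + 2 * ∑ i, (dd W (T.b i) f).fn z ^ 2 := by
  have h1 : ∀ j, YY σ (W : E → ℝ) f.fn j z =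
      ∑ i, Mi j i * ((dd W (T.a i) f).fn z + 1 / 2 * (dd W (T.b i) f).fn z) := by
    intro j
    rw [YY_dd h.ρx, h.ex, dd_sum, LinearMap.sum_apply, H961.B.T.sum_fn]
    refine Finset.sum_congr rfl fun i _ => ?_
    rw [LinearMap.smul_apply, EP.TE.smul_fn, H961.F.dd_X, LinearMap.add_apply, EP.TE.add_fn,
      LinearMap.smul_apply, EP.TE.smul_fn]
  have h2 : ∀ j, YY τ (W : E → ℝ) f.fn j z =
      ∑ i, Mi j i * (-(dd W (T.a i) f).fn z + 1 / 2 * (dd W (T.b i) f).fn z) := by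
    intro j
    rw [YY_dd h.ρy, h.ey, dd_sum, LinearMap.sum_apply, H961.B.T.sum_fn]
    refine Finset.sum_congr rfl fun i _ => ?_
    rw [LinearMap.smul_apply, EP.TE.smul_fn, H961.F.dd_Y, LinearMap.add_apply, EP.TE.add_fn,
      LinearMap.smul_apply, EP.TE.smul_fn]
    rfl
  unfold Y2
  simp only [h1, h2]
  have b1 := h.Nb fun i => (dd W (T.a i) f).fn z + 1 / 2 * (dd W (T.b i) f).fn z
  have b2 := h.Nb fun i => -(dd W (T.a i) f).fn z + 1 / 2 * (dd W (T.b i) f).fn z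
  refine (add_le_add b1 b2).trans (le_of_eq ?_)
  rw [← mul_add, ← Finset.sum_add_distrib]
  simp only [sq2, Finset.sum_add_distrib, ← Finset.mul_sum]
  ring

theorem K2_dd (h : Fc σ τ T s d M Mi) (W : EP.Sm E) (f : EP.TE E) (z : E) :
    K2 σ τ (W : E → ℝ) f.fn z ≤ 4 * ∑ i, (dd W (T.b i) f).fn z ^ 2 := by
  have h1 : ∀ j, Kj σ τ (W : E → ℝ) f.fn j z = ∑ i, Mi j i * (dd W (T.b i) f).fn z := by
    intro j
    rw [Kj_dd h]
    have e : σ.e j + τ.e j = ∑ i, Mi j i • T.b i := by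
      rw [h.ex j, h.ey j, ← Finset.sum_add_distrib]
      refine Finset.sum_congr rfl fun i _ => ?_
      rw [← smul_add, ← b_eq]
    rw [e, dd_sum, LinearMap.sum_apply, H961.B.T.sum_fn]
    rfl
  unfold K2
  simp only [h1]
  exact h.Nb fun i => (dd W (T.b i) f).fn z

theorem DK2_dd (h : Fc σ τ T s d M Mi) (W : EP.Sm E) (f : EP.TE E) (z : E) :
    ∑ l, ∑ m, (dd W (T.a l) (dd W (T.b m) f)).fn z ^ 2 ≤ 4 * DK2 σ τ (W : E → ℝ) f.fn z := by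
  have h1 : ∀ l m, (dd W (T.a l) (dd W (T.b m) f)).fn z =
      1 / 2 * ∑ i, M l i * ∑ j, M m j * DKij σ τ (W : E → ℝ) f.fn i j z := by
    intro l m
    rw [dda h]
    congr 1
    refine Finset.sum_congr rfl fun i _ => ?_
    congr 1
    rw [ddb h, map_sum, map_sum, H961.B.T.sum_fn, H961.B.T.sum_fn, ← Finset.sum_sub_distrib]
    refine Finset.sum_congr rfl fun j _ => ?_
    rw [map_smul, map_smul, EP.TE.smul_fn, EP.TE.smul_fn, DKij_dd h]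
    ring
  have h2 : ∀ m, ∑ l, (∑ i, M l i * ∑ j, M m j * DKij σ τ (W : E → ℝ) f.fn i j z) ^ 2 ≤
      4 * ∑ i, (∑ j, M m j * DKij σ τ (W : E → ℝ) f.fn i j z) ^ 2 := fun m =>
    h.Mb fun i => ∑ j, M m j * DKij σ τ (W : E → ℝ) f.fn i j z
  have h3 : ∀ i, ∑ m, (∑ j, M m j * DKij σ τ (W : E → ℝ) f.fn i j z) ^ 2 ≤
      4 * ∑ j, DKij σ τ (W : E → ℝ) f.fn i j z ^ 2 := fun i =>
    h.Mb fun j => DKij σ τ (W : E → ℝ) f.fn i j z
  rw [Finset.sum_comm]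
  have e : ∀ m, ∑ l, (dd W (T.a l) (dd W (T.b m) f)).fn z ^ 2 = 1 / 4 *
      ∑ l, (∑ i, M l i * ∑ j, M m j * DKij σ τ (W : E → ℝ) f.fn i j z) ^ 2 := fun m => by
    rw [Finset.mul_sum]
    exact Finset.sum_congr rfl fun l _ => by rw [h1]; ring
  calc ∑ m, ∑ l, (dd W (T.a l) (dd W (T.b m) f)).fn z ^ 2
      ≤ ∑ m, ∑ i, (∑ j, M m j * DKij σ τ (W : E → ℝ) f.fn i j z) ^ 2 :=
        Finset.sum_le_sum fun m _ => by rw [e]; linarith [h2 m]
    _ = ∑ i, ∑ m, (∑ j, M m j * DKij σ τ (W : E → ℝ) f.fn i j z) ^ 2 := Finset.sum_comm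
    _ ≤ ∑ i, 4 * ∑ j, DKij σ τ (W : E → ℝ) f.fn i j z ^ 2 := Finset.sum_le_sum fun i _ => h3 i
    _ = _ := by rw [← Finset.mul_sum]; rfl

/-! ## The model operators -/

theorem T_D (T : EP.Dat ι E) (i : ι) : T.D i = dd T.w (T.a i) := T.D_eq i

theorem T_K (T : EP.Dat ι E) (i : ι) : T.K i = dd T.w (T.b i) := T.K_eq i

theorem dd_D (T : EP.Dat ι E) (W : EP.Sm E) (f : EP.TE E) (i : ι) (z : E) :
    (dd W (T.a i) f).fn z = (T.D i f).fn z + vl z (EP.ds (T.a i) (W - T.w)) * f.fn z := by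
  rw [H961.F.dd_split W T.w, T_D]; rfl

theorem dd_K (T : EP.Dat ι E) (W : EP.Sm E) (f : EP.TE E) (i : ι) (z : E) :
    (dd W (T.b i) f).fn z = (T.K i f).fn z + vl z (EP.ds (T.b i) (W - T.w)) * f.fn z := by
  rw [H961.F.dd_split W T.w, T_K]; rfl

theorem dd_DK (T : EP.Dat ι E) (W : EP.Sm E) (f : EP.TE E) (i j : ι) (z : E) :
    (dd W (T.a i) (dd W (T.b j) f)).fn z = (T.D i (T.K j f)).fn z +
      (vl z (EP.ds (T.b j) (W - T.w)) * (T.D i f).fn z +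
      vl z (EP.ds (T.a i) (EP.ds (T.b j) (W - T.w))) * f.fn z) +
      vl z (EP.ds (T.a i) (W - T.w)) * ((T.K j f).fn z +
        vl z (EP.ds (T.b j) (W - T.w)) * f.fn z) := by
  rw [dd_D, dd_K, H961.F.dd_split W T.w (T.b j), LinearMap.add_apply, map_add, EP.TE.add_fn,
    T_K, T_D, ← Module.End.mul_apply (dd T.w (T.a i)) (EP.ml _), H961.F.dd_ml]
  rfl

end fc

end Vale.Agent.P088.R2.H676.F
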