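import Vale.Agent.P088.R2.H676.F.Fam

/-!
# P088, zone B1: the family of cells and the curved box on the zone
-/

set_option linter.unusedSectionVars false

open MeasureTheory Set Filter
open scoped ContDiff Topology

noncomputable section

namespace Vale.Agent.P088.R2.H676.F

open Vale.Agent.P088.LR Vale.Agent.P088.HY
open Vale.Agent.P088.R2.H961.GW (Sl Te In slx sly)
open Vale.Agent.P088.R2.H464
open Vale.Agent.P088.R2.H464.B (Ge Hy Hm Hs Sc zr)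
open Vale.Agent.P088.R2.H961.F (CD Gf fe fr fs fd)
open Vale.Agent.P088.R2.H516.B (mu Wd Zn Su Bd)
open Vale.Agent.P088.R2.H593.B (eta0)
open Vale.Agent.P088.R2.H858.B1 (Lc Sb2 HB cell Fd)
open Vale.Agent.P088.R2.H86.Z (El)
open Vale.Agent.P088.R2.H516.O (CB)

/-! ## Empty cells -/

theorem te_empty {E : Type*} [NormedAddCommGroup E] [NormedSpace ℝ E] {f : E → ℝ}
    (h : Te (∅ : Set E) f) : f = fun _ => 0 := by
  funext z
  exact image_eq_zero_of_notMem_tsupport fun hz => (h.2.2 hz).elim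

theorem cd_empty {E ι : Type*} [NormedAddCommGroup E] [NormedSpace ℝ E] [Fintype ι]
    [MeasureSpace E] (σ τ : Sl E ι) (U : Set E) (θ v₁ v₂ W e h hi wc d : E → ℝ) (c C : ℝ) :
    Cd σ τ U ∅ θ v₁ v₂ W e h hi wc d c C := by
  intro a b s₁ s₂ s₃ s₄ ha hb h1 h2 h3 h4
  rw [te_empty ha, te_empty hb, te_empty h1, te_empty h2, te_empty h3, te_empty h4]
  have z0 : ∀ z : E, (fun _ : E => (0 : ℝ)) =ᶠ[𝓝 z] fun _ => 0 := fun z => Eventually.of_forall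
    fun _ => rfl
  have e1 : (fun z => s4 (fun _ : E => (0 : ℝ)) (fun _ => 0) (fun _ => 0) (fun _ => 0) z +
      mm σ τ W e wc hi (fun _ => 0) (fun _ => 0) z) = fun _ => 0 := by
    funext z
    rw [mm_zero σ τ W e wc hi (z0 z) (z0 z)]
    simp [s4]
  have e2 : (fun z => s4 (fun _ : E => (0 : ℝ)) (fun _ => 0) (fun _ => 0) (fun _ => 0) z +
      H551.E.sta σ τ v₁ v₂ W (fun _ => 0) (fun _ => 0) z) = fun _ => 0 := by
    funext z
    rw [sta_zero σ τ v₁ v₂ W (z0 z) (z0 z)]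
    simp [s4]
  have e3 : cc σ τ v₁ v₂ W h d (fun _ => 0) (fun _ => 0) (fun _ => 0) (fun _ => 0) (fun _ => 0)
      (fun _ => 0) = fun _ => 0 := by
    funext z
    exact cc_zero σ τ v₁ v₂ W h d (z0 z) (z0 z) rfl rfl rfl rfl
  have e4 : In U θ (fun _ => 0) = 0 := by unfold In; simp
  rw [e1, e2, e3, e4]
  simp

section zone

variable {n : ℕ}

attribute [local instance] haarV

/-- `cb_zone` with the cells that are not empty. -/
theorem cb_zone' (n : ℕ) {Lam CW b : ℝ} (hL : 1 ≤ Lam) (hC : 1 ≤ CW) (hb : 0 ≤ b) :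
    ∃ A₀ : ℝ, 1 ≤ A₀ ∧ ∀ A, A₀ ≤ A → ∀ (s₁ s₂ : MF n) (Ω : Set (VV n)) (W : EP.Sm (VV n))
      (e h hi wc dt : VV n → ℝ), IsOpen Ω → Wt univ Ω e h hi wc dt →
      ((slx (fun _ => (1 : ℝ)) s₁).Ok univ fun _ => 1) →
      ((sly (fun _ => (1 : ℝ)) s₂).Ok univ fun _ => 1) →
      (∀ z ∈ Ω, El (slx (fun _ => (1 : ℝ)) s₁) z) → (∀ z ∈ Ω, El (sly (fun _ => (1 : ℝ)) s₂) z) →
      (∀ z ∈ Ω, Sb2 (slx (fun _ => (1 : ℝ)) s₁) z) →
      (∀ z ∈ Ω, Sb2 (sly (fun _ => (1 : ℝ)) s₂) z) →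
      (∀ z ∈ Ω, HB (slx (fun _ => (1 : ℝ)) s₁) (sly (fun _ => (1 : ℝ)) s₂) (W : VV n → ℝ) e wc
        b z) →
      (∀ p₀ : V n, (Zp n Ω A p₀).Nonempty →
        Cd (slx (fun _ => (1 : ℝ)) s₁) (sly (fun _ => (1 : ℝ)) s₂) univ
          (Zp n Ω A p₀) (fun _ => 1) (fun _ => 0) (fun _ => 0) (W : VV n → ℝ) e h hi wc dt
          (cO n Lam CW) (CO n Lam CW)) →
      CB (slx (fun _ => (1 : ℝ)) s₁) (sly (fun _ => (1 : ℝ)) s₂) univ Ω (fun _ => 1)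
        (fun _ => 0) (fun _ => 0) (W : VV n → ℝ) e h wc
        (Mxf (slx (fun _ => (1 : ℝ)) s₁) (sly (fun _ => (1 : ℝ)) s₂) univ (fun _ => 1)
          (W : VV n → ℝ) hi)
        (F5t (slx (fun _ => (1 : ℝ)) s₁) (sly (fun _ => (1 : ℝ)) s₂) univ (fun _ => 1)
          (W : VV n → ℝ) dt)
        (cO n Lam CW / 2) (2 * CO n Lam CW) := by
  obtain ⟨A₀, h1, h2⟩ := cb_zone n hL hC hb
  refine ⟨A₀, h1, fun A hA s₁ s₂ Ω W e h hi wc dt hΩ wt ok ot el et sb sb' hH cells => ?_⟩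
  refine h2 A hA s₁ s₂ Ω W e h hi wc dt hΩ wt ok ot el et sb sb' hH fun p₀ => ?_
  rcases (Zp n Ω A p₀).eq_empty_or_nonempty with h0 | h0
  · rw [h0]
    exact cd_empty _ _ _ _ _ _ _ _ _ _ _ _ _ _
  · exact cells p₀ h0

/-! ## The weights -/

/-- The weights of the true margin against the model ones. -/
structure Wk (T : EP.Dat (Fin n) (VV n)) (w : Wd T) (N : EP.Sm (VV n)) (e h hi wc dt : VV n → ℝ)
    (CW eta : ℝ) (z : VV n) : Prop where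
  e1 : e z ≤ CW * (T.e : VV n → ℝ) z ^ 2
  w1 : wc z ≤ CW * ((T.e : VV n → ℝ) z * (w.mi : VV n → ℝ) z *
    ((N : VV n → ℝ) z + (mu T : VV n → ℝ) z) ^ 2)
  i0 : 0 ≤ hi z
  i1 : hi z ≤ CW * ((T.e : VV n → ℝ) z * (w.mi : VV n → ℝ) z)
  h1 : (T.e' : VV n → ℝ) z * (mu T : VV n → ℝ) z ≤ CW * h z
  d0 : 0 ≤ dt z
  d1 : eta ^ 2 * (w.mi : VV n → ℝ) z ^ 2 ≤ CW * dt z

variable {α : Type} {c : α → CD n} {Z : α → Set (VV n)} (hZ : ∀ x, IsOpen (Z x))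
  {s₁ s₂ : α → MF n} {W' : α → EP.Sm (VV n)} {t δ κ μ ν η : α → VV n → ℝ}

/-- **The cells of a family**, the weight of the fifth cost of the model is `(η / μ)²`. -/
theorem fam_cd' (hn : 3 ≤ n)
    (h₁ : ∀ x i j, ContDiff ℝ ∞ fun y => s₁ x y i j) (h₂ : ∀ x i j, ContDiff ℝ ∞ fun y => s₂ x y i j)
    (y₁ : ∀ x y i j, s₁ x y i j = s₁ x y j i) (y₂ : ∀ x y i j, s₂ x y i j = s₂ x y j i)
    (H : Hy (Gf c Z hZ) (fe c) (fr c) t δ (fs c s₁ s₂) (fd c s₁ s₂)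
      (fun x => (W' x : VV n → ℝ)) fun x => ((c x).T.w : VV n → ℝ))
    (H₀ : Hy (Gf c Z hZ) (fe c) (fr c) t δ zr zr (fun x => ((c x).T.w : VV n → ℝ))
      fun x => ((c x).T.w : VV n → ℝ))
    (hm : Hm (Gf c Z hZ) (fr c) κ (fs c s₁ s₂) (fd c s₁ s₂))
    (h : Hs (Gf c Z hZ) (fs c s₁ s₂) (fd c s₁ s₂))
    (S : Sc (Gf c Z hZ) (fe c) (fr c) t δ κ μ ν η) :
    ∃ C Cf : ℝ, 0 ≤ C ∧ 0 ≤ Cf ∧ ∀ (x : α) (Ω : Set (VV n)) (Nf W : EP.Sm (VV n))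
      (Lam eps eta CW k : ℝ) (e hh hi wc dt : VV n → ℝ) (w : Wd (c x).T),
      (c x).Ok (Z x) Nf Lam eps → eps ≤ H593.B.eps0 n Lam → MN (c x) →
      (∀ z ∈ Z x, (W' x : VV n → ℝ) z = (W : VV n → ℝ) z + k) →
      0 ≤ eta → eta ≤ eta0 n Lam Cf → (∀ z ∈ Z x, η x z ≤ eta) →
      (∀ z ∈ Z x, 0 ≤ ν x z ∧ ν x z ≤ 2 * ((Nf : VV n → ℝ) z + (mu (c x).T : VV n → ℝ) z)) →
      (∀ z ∈ Z x, 11 * ((n : ℝ) + 1) ^ 2 * (C * δ x z) * (mu (c x).T : VV n → ℝ) z ≤ eta) →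
      (∀ z ∈ Z x, Wk (c x).T w Nf e hh hi wc dt CW eta z) →
      1 ≤ CW → Wt univ Ω e hh hi wc dt → Z x ⊆ Ω →
      Cd (slx (fun _ => (1 : ℝ)) (s₁ x)) (sly (fun _ => (1 : ℝ)) (s₂ x)) univ (Z x) (fun _ => 1)
        (fun _ => 0) (fun _ => 0) (W : VV n → ℝ) e hh hi wc dt (cO n Lam CW) (CO n Lam CW) := by
  obtain ⟨C, Cf, hC0, hCf0, key⟩ := fam_cd hZ hn h₁ h₂ y₁ y₂ H H₀ hm h S
  refine ⟨C, Cf, hC0, hCf0, ?_⟩
  intro x Ω Nf W Lam eps eta CW k e hh hi wc dt w O he b hW h0 h1 hη hν hδ hw C1' wt hZΩ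
  have hL := O.zn.L1
  have e1 := (H593.B.eta0_le n hL hCf0 h1 h0).1
  have val : ∀ z, (((eta • w.mi) ^ 2 : EP.Sm (VV n)) : VV n → ℝ) z =
      (eta * (w.mi : VV n → ℝ) z) ^ 2 := fun z => rfl
  refine key x Ω Nf W ((eta • w.mi) ^ 2) Lam eps eta CW k e hh hi wc dt w O he b hW h0 h1 hη hν
    hδ (fun z hz => ?_) (fun z => ?_) (fun z hz => ?_) C1' wt hZΩ
  · rw [val]
    have hm0 := H961.F.mu_ge c x z
    have d0 := H.sz.d0 x z hz
    have hv := H856.B.mi_val w z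
    have hp := H856.B.mi_pos w z
    have q0 : 0 ≤ 11 * ((n : ℝ) + 1) ^ 2 * (C * δ x z) := by positivity
    refine pow_le_pow_left₀ q0 ?_ 2
    calc 11 * ((n : ℝ) + 1) ^ 2 * (C * δ x z) =
          11 * ((n : ℝ) + 1) ^ 2 * (C * δ x z) *
            ((mu (c x).T : VV n → ℝ) z * (w.mi : VV n → ℝ) z) := by rw [hv, mul_one]
      _ = 11 * ((n : ℝ) + 1) ^ 2 * (C * δ x z) * (mu (c x).T : VV n → ℝ) z *
            (w.mi : VV n → ℝ) z := by ring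
      _ ≤ eta * (w.mi : VV n → ℝ) z := mul_le_mul_of_nonneg_right (hδ z hz) hp.le
  · rw [val]
    positivity
  · have q := hw z hz
    have hp := H856.B.mi_pos w z
    have hle := H856.B.mi_le w z
    exact
      { C1 := C1'
        e1 := q.e1
        w1 := q.w1
        i0 := q.i0
        i1 := q.i1
        h1 := q.h1
        d0 := q.d0
        d1 := by
          rw [val, mul_pow]
          exact q.d1
        d3 := by
          rw [val]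
          have : eta * (w.mi : VV n → ℝ) z ≤ 1 := mul_le_one₀ e1 hp.le hle
          exact pow_le_one₀ (by positivity) this }

end zone

end Vale.Agent.P088.R2.H676.F
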