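import Vale.Agent.P088.R2.H676.F.Onp
import Vale.Agent.P088.R2.H593.B.Dic2

/-!
# P088, zone B1: one cell in the true language (integrated)
-/

set_option linter.unusedSectionVars false

open MeasureTheory Set Filter
open scoped ContDiff Topology

noncomputable section

namespace Vale.Agent.P088.R2.H676.F

open Vale.Agent.P088.R2.H961.GW (Sl Te In Sm)
open Vale.Agent.P088.R2.H464
open Vale.Agent.P088.R2.H961.F (dd Pv Xv Yv sX sY vl Pb ev)
open Vale.Agent.P088.R2.H516.O (Sp Rp)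
open Vale.Agent.P088.R2.H516.B (mu So Ro Wd Zn Su Bd)
open Vale.Agent.P088.R2.H593.B (AA P1 P2 NrS NrR nn_eq nn_int Mp Tf Sq cost c0 C0 C1 F5 eta0 KK BB Sz)
open Vale.Agent.P088.R2.H961.B.T (nn)
open Vale.Agent.P088.R2.H551.E (sta)

variable {ι E : Type} [Fintype ι] [DecidableEq ι] [NormedAddCommGroup E] [NormedSpace ℝ E]
  [MeasureSpace E] [FiniteDimensional ℝ E] [BorelSpace E] [(volume : Measure E).IsAddHaarMeasure]

/-! ## Test functions -/

/-- The test function. -/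
def teo {Z : Set E} {f : E → ℝ} (h : Te Z f) : EP.TE E := ⟨f, h.1, h.2.1⟩

theorem teo_su {Z : Set E} {f : E → ℝ} (h : Te Z f) : Su Z (teo h) := h.2.2

theorem su_z {Z : Set E} {x : EP.TE E} (h : Su Z x) {z : E} (hz : z ∉ Z) :
    x.fn =ᶠ[𝓝 z] fun _ => 0 := notMem_tsupport_iff_eventuallyEq.1 fun hc => hz (h hc)

theorem su_0 {Z : Set E} {x : EP.TE E} (h : Su Z x) {z : E} (hz : z ∉ Z) : x.fn z = 0 :=
  (su_z h hz).eq_of_nhds

theorem nnI (θ : EP.Sm E) (x : EP.TE E) :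
    In univ (fun _ => 1) (fun z => (θ : E → ℝ) z * x.fn z ^ 2) = nn volume θ x := by
  rw [nn_eq, In]
  simp

theorem nnG (θ : EP.Sm E) (x : EP.TE E) :
    Ig univ (fun _ => 1) (fun z => (θ : E → ℝ) z * x.fn z ^ 2) := by
  unfold Ig
  rw [integrableOn_univ]
  simpa using nn_int volume θ x

theorem nnI1 (x : EP.TE E) :
    In univ (fun _ => 1) (fun z => x.fn z ^ 2) = nn volume 1 x := by
  rw [← nnI]
  congr 1
  funext z
  exact (one_mul _).symm

theorem nnG1 (x : EP.TE E) : Ig univ (fun _ => 1) (fun z => x.fn z ^ 2) := by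
  have h := nnG 1 x
  have e : (fun z => ((1 : EP.Sm E) : E → ℝ) z * x.fn z ^ 2) = fun z => x.fn z ^ 2 :=
    funext fun z => one_mul _
  rwa [e] at h

/-! ## The list of bounds -/

section list

variable {T : EP.Dat ι E} {w : Wd T} {N : EP.Sm E} {f g : EP.TE E} {M MS : ℝ}

theorem LL_eq (T : EP.Dat ι E) (w : Wd T) (N : EP.Sm E) (f g : EP.TE E) : LL T w N f g = fun z =>
    ((T.e * T.e : EP.Sm E) : E → ℝ) z * f.fn z ^ 2 +
    ((∑ i, ((T.e * w.mi : EP.Sm E) : E → ℝ) z * (T.D i f).fn z ^ 2) +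
      ∑ i, ((T.e * w.mi : EP.Sm E) : E → ℝ) z * (T.K i f).fn z ^ 2) +
    ((T.e * w.mi * (N + mu T) ^ 2 : EP.Sm E) : E → ℝ) z * g.fn z ^ 2 +
    (∑ i, ((1 : EP.Sm E) : E → ℝ) z * (T.D i g).fn z ^ 2) +
    ∑ i, ((T.e * w.mi : EP.Sm E) : E → ℝ) z * (T.K i g).fn z ^ 2 := by
  funext z
  have e1 : ((T.e * T.e : EP.Sm E) : E → ℝ) z = (T.e : E → ℝ) z ^ 2 := (sq _).symm
  have e2 : ((T.e * w.mi : EP.Sm E) : E → ℝ) z = (T.e : E → ℝ) z * (w.mi : E → ℝ) z := rfl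
  have e3 : ((T.e * w.mi * (N + mu T) ^ 2 : EP.Sm E) : E → ℝ) z =
      (T.e : E → ℝ) z * (w.mi : E → ℝ) z * ((N : E → ℝ) z + (mu T : E → ℝ) z) ^ 2 := rfl
  have e4 : ((1 : EP.Sm E) : E → ℝ) z = 1 := rfl
  simp only [e1, e2, e3, e4, ← Finset.mul_sum]
  unfold LL
  ring

theorem LL_le (h : Bd volume T w N f g M MS) (hM : 0 ≤ M) :
    Ig univ (fun _ => 1) (LL T w N f g) ∧
    In univ (fun _ => 1) (LL T w N f g) ≤ 4 * ((Fintype.card ι : ℝ) + 1) * M := by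
  have g1 := nnG (T.e * T.e) f
  have g2 := Ig.sum Finset.univ fun (i : ι) _ => nnG (T.e * w.mi) (T.D i f)
  have g3 := Ig.sum Finset.univ fun (i : ι) _ => nnG (T.e * w.mi) (T.K i f)
  have g4 := nnG (T.e * w.mi * (N + mu T) ^ 2) g
  have g5 := Ig.sum Finset.univ fun (i : ι) _ => nnG 1 (T.D i g)
  have g6 := Ig.sum Finset.univ fun (i : ι) _ => nnG (T.e * w.mi) (T.K i g)
  rw [LL_eq]
  refine ⟨((((g1.add (g2.add g3)).add g4).add g5).add g6), ?_⟩
  rw [In_addI (((g1.add (g2.add g3)).add g4).add g5) g6, In_addI ((g1.add (g2.add g3)).add g4) g5,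
    In_addI (g1.add (g2.add g3)) g4, In_addI g1 (g2.add g3), In_addI g2 g3,
    In_sumI _ fun (i : ι) _ => nnG (T.e * w.mi) (T.D i f),
    In_sumI _ fun (i : ι) _ => nnG (T.e * w.mi) (T.K i f),
    In_sumI _ fun (i : ι) _ => nnG 1 (T.D i g),
    In_sumI _ fun (i : ι) _ => nnG (T.e * w.mi) (T.K i g)]
  simp only [nnI]
  have s : ∀ {x : ι → ℝ}, (∀ i, x i ≤ M) → ∑ i, x i ≤ Fintype.card ι * M := fun hx => by
    refine (Finset.sum_le_sum fun i _ => hx i).trans (le_of_eq ?_)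
    rw [Finset.sum_const, Finset.card_univ, nsmul_eq_mul]
  have b2 : ∑ i, nn volume (T.e * w.mi) (T.D i f) ≤ Fintype.card ι * M := s fun i => h.b1 0 i
  have b3 : ∑ i, nn volume (T.e * w.mi) (T.K i f) ≤ Fintype.card ι * M := s fun i => h.b1 2 i
  have b5 : ∑ i, nn volume 1 (T.D i g) ≤ Fintype.card ι * M := s fun i => (h.c1 i).1
  have b6 : ∑ i, nn volume (T.e * w.mi) (T.K i g) ≤ Fintype.card ι * M := s fun i => (h.c1K i).1
  have b1 := h.b0
  have b4 := h.c0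
  linarith

/-- The fifth cost of the model. -/
theorem F5_int (T : EP.Dat ι E) (d2 : EP.Sm E) (g : EP.TE E) :
    Ig univ (fun _ => 1) (fun z => (d2 : E → ℝ) z * ∑ i, ∑ j, (T.D i (T.K j g)).fn z ^ 2) ∧
    F5 volume T d2 g =
      In univ (fun _ => 1) fun z => (d2 : E → ℝ) z * ∑ i, ∑ j, (T.D i (T.K j g)).fn z ^ 2 := by
  have e : (fun z => (d2 : E → ℝ) z * ∑ i, ∑ j, (T.D i (T.K j g)).fn z ^ 2) =
      fun z => ∑ i, ∑ j, (d2 : E → ℝ) z * (T.D i (T.K j g)).fn z ^ 2 := by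
    funext z
    simp only [Finset.mul_sum]
  have g1 : ∀ i, Ig univ (fun _ => 1) fun z => ∑ j, (d2 : E → ℝ) z * (T.D i (T.K j g)).fn z ^ 2 :=
    fun i => Ig.sum Finset.univ fun (j : ι) _ => nnG d2 (T.D i (T.K j g))
  rw [e]
  refine ⟨Ig.sum Finset.univ fun i _ => g1 i, ?_⟩
  rw [In_sumI _ fun i _ => g1 i, F5]
  refine Finset.sum_congr rfl fun i _ => ?_
  rw [In_sumI _ fun (j : ι) _ => nnG d2 (T.D i (T.K j g))]
  exact Finset.sum_congr rfl fun j _ => (nnI _ _).symm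

/-- The error of the fifth cost. -/
theorem E5_le (h : Bd volume T w N f g M MS) (hM : 0 ≤ M) {Z : Set E} (hg : Su Z g)
    {Lam eps : ℝ} (hZ : Zn T Z N Lam eps) {x : ℝ} (hx : 0 ≤ x) :
    Ig univ (fun _ => 1) (fun z => x * (4 * (Fintype.card ι * ∑ i, (T.D i g).fn z ^ 2) +
        4 * (Fintype.card ι * ((T.e : E → ℝ) z * (w.mi : E → ℝ) z * ∑ i, (T.K i g).fn z ^ 2)) +
        16 * (Fintype.card ι * (Fintype.card ι *
          ((T.e : E → ℝ) z * (w.mi : E → ℝ) z * g.fn z ^ 2))))) ∧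
    In univ (fun _ => 1) (fun z => x * (4 * (Fintype.card ι * ∑ i, (T.D i g).fn z ^ 2) +
        4 * (Fintype.card ι * ((T.e : E → ℝ) z * (w.mi : E → ℝ) z * ∑ i, (T.K i g).fn z ^ 2)) +
        16 * (Fintype.card ι * (Fintype.card ι *
          ((T.e : E → ℝ) z * (w.mi : E → ℝ) z * g.fn z ^ 2))))) ≤
      x * (24 * (Fintype.card ι : ℝ) ^ 2 * M) := by
  have n0 : (0 : ℝ) ≤ Fintype.card ι := Nat.cast_nonneg _
  have g1 := Ig.sum Finset.univ fun (i : ι) _ => nnG1 (T.D i g)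
  have g2 := Ig.sum Finset.univ fun (i : ι) _ => nnG (T.e * w.mi) (T.K i g)
  have g3 := nnG (T.e * w.mi) g
  have e : (fun z => x * (4 * (Fintype.card ι * ∑ i, (T.D i g).fn z ^ 2) +
        4 * (Fintype.card ι * ((T.e : E → ℝ) z * (w.mi : E → ℝ) z * ∑ i, (T.K i g).fn z ^ 2)) +
        16 * (Fintype.card ι * (Fintype.card ι *
          ((T.e : E → ℝ) z * (w.mi : E → ℝ) z * g.fn z ^ 2))))) = fun z =>
      (4 * x * Fintype.card ι * (∑ i, (T.D i g).fn z ^ 2) +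
        4 * x * Fintype.card ι * (∑ i, ((T.e * w.mi : EP.Sm E) : E → ℝ) z * (T.K i g).fn z ^ 2)) +
        16 * x * Fintype.card ι ^ 2 * (((T.e * w.mi : EP.Sm E) : E → ℝ) z * g.fn z ^ 2) := by
    funext z
    have e2 : ((T.e * w.mi : EP.Sm E) : E → ℝ) z = (T.e : E → ℝ) z * (w.mi : E → ℝ) z := rfl
    rw [e2, ← Finset.mul_sum]
    ring
  rw [e]
  refine ⟨((g1.cmul _).add (g2.cmul _)).add (g3.cmul _), ?_⟩
  rw [In_addI ((g1.cmul _).add (g2.cmul _)) (g3.cmul _), In_addI (g1.cmul _) (g2.cmul _),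
    H961.GW.In_cmul, H961.GW.In_cmul, H961.GW.In_cmul, In_sumI _ fun (i : ι) _ => nnG1 (T.D i g),
    In_sumI _ fun (i : ι) _ => nnG (T.e * w.mi) (T.K i g)]
  simp only [nnI, nnI1]
  have s : ∀ {x : ι → ℝ}, (∀ i, x i ≤ M) → ∑ i, x i ≤ Fintype.card ι * M := fun hx => by
    refine (Finset.sum_le_sum fun i _ => hx i).trans (le_of_eq ?_)
    rw [Finset.sum_const, Finset.card_univ, nsmul_eq_mul]
  have b5 : ∑ i, nn volume 1 (T.D i g) ≤ Fintype.card ι * M := s fun i => (h.c1 i).1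
  have b6 : ∑ i, nn volume (T.e * w.mi) (T.K i g) ≤ Fintype.card ι * M := s fun i => (h.c1K i).1
  have b4 : nn volume (T.e * w.mi) g ≤ M := by
    refine le_trans ?_ h.c0
    refine H856.B.nn_mono volume hg fun z hz => ?_
    have e1 : ((T.e * w.mi * (N + mu T) ^ 2 : EP.Sm E) : E → ℝ) z =
      (T.e : E → ℝ) z * (w.mi : E → ℝ) z * ((N : E → ℝ) z + (mu T : E → ℝ) z) ^ 2 := rfl
    rw [e1, H856.B.sm_mul]
    have h4 := (H856.B.mi_pos w z).le
    have h5 := (w.he z).le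
    have h6 := H856.B.mu_ge w z
    have h7 := hZ.N0 z hz
    exact le_mul_of_one_le_right (mul_nonneg h5 h4) (one_le_pow₀ (by linarith))
  have c1 := mul_le_mul_of_nonneg_left b5 (by positivity : 0 ≤ 4 * x * Fintype.card ι)
  have c2 := mul_le_mul_of_nonneg_left b6 (by positivity : 0 ≤ 4 * x * Fintype.card ι)
  have c3 := mul_le_mul_of_nonneg_left b4 (by positivity : 0 ≤ 16 * x * Fintype.card ι ^ 2)
  refine (add_le_add (add_le_add c1 c2) c3).trans (le_of_eq ?_)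
  ring

end list

end Vale.Agent.P088.R2.H676.F
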