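import Vale.Agent.P088.R2.H676.F.Fcm

/-!
# P088, zone B1, one cell: pointwise estimates

The true letters `mm`, `DK2` against the list of bounds of the model; `S_t`, `R_t` near `So`, `Ro`.
-/

set_option linter.unusedSectionVars false

open MeasureTheory Set Filter
open scoped ContDiff Topology

noncomputable section

namespace Vale.Agent.P088.R2.H676.F

open Vale.Agent.P088.R2.H961.GW (Sl Te)
open Vale.Agent.P088.R2.H464
open Vale.Agent.P088.R2.H961.F (dd Pv Xv Yv sX sY vl Pb ev)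
open Vale.Agent.P088.R2.H516.O (Sp Rp)
open Vale.Agent.P088.R2.H516.B (mu So Ro Wd Zn Su)
open Vale.Agent.P088.R2.H593.B (AA P1 P2 NrS NrR)

variable {ι E : Type} [Fintype ι] [DecidableEq ι] [NormedAddCommGroup E] [NormedSpace ℝ E]

/-! ## Operators near the model operators -/

section near

variable {T : EP.Dat ι E} {s d : ι → ι → EP.Sm E} {W v₁ v₂ : EP.Sm E} {del r : ℝ} {z : E}

theorem So_fn (T : EP.Dat ι E) (f : EP.TE E) (z : E) : (So T f).fn z =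
    ∑ i, ((T.D i (T.D i f)).fn z + 1 / 4 * (T.K i (T.K i f)).fn z) := by
  rw [So, LinearMap.add_apply, EP.TE.add_fn, LinearMap.smul_apply, EP.TE.smul_fn, EP.Dat.D2,
    H516.B.K2, LinearMap.sum_apply, LinearMap.sum_apply, H961.B.T.sum_fn, H961.B.T.sum_fn,
    Finset.mul_sum, ← Finset.sum_add_distrib]
  rfl

theorem Ro_fn (T : EP.Dat ι E) (f : EP.TE E) (z : E) : (Ro T f).fn z =
    ∑ i, (T.D i (T.K i f)).fn z := by
  rw [Ro, LinearMap.sum_apply, H961.B.T.sum_fn]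
  rfl

theorem eDD_eq (T : EP.Dat ι E) (f : EP.TE E) (z : E) (i j : ι) :
    H961.F.eDD T.w T.a f z i j = (T.D i (T.D j f)).fn z := by
  rw [T_D, T_D]; rfl

theorem eDK_eq (T : EP.Dat ι E) (f : EP.TE E) (z : E) (i j : ι) :
    H961.F.eDK T.w T.a T.b f z i j = (T.D i (T.K j f)).fn z := by
  rw [T_D, T_K]; rfl

theorem eKK_eq (T : EP.Dat ι E) (f : EP.TE E) (z : E) (i j : ι) :
    H961.F.eKK T.w T.b f z i j = (T.K i (T.K j f)).fn z := by
  rw [T_K, T_K]; rfl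

theorem eD_eq (T : EP.Dat ι E) (f : EP.TE E) (z : E) (j : ι) :
    H961.F.eD T.w T.a f z j = (T.D j f).fn z := by
  rw [T_D]; rfl

theorem eK_eq (T : EP.Dat ι E) (f : EP.TE E) (z : E) (j : ι) :
    H961.F.eK T.w T.b f z j = (T.K j f).fn z := by
  rw [T_K]; rfl

theorem rt1 {e m r : ℝ} (hr : 0 < r) (he : 0 < e) (h : e * r ^ 2 = m) : √(e * m) = e * r := by
  rw [← h, show e * (e * r ^ 2) = (e * r) ^ 2 by ring, Real.sqrt_sq (by positivity)]

theorem rt2 {e m r : ℝ} (hr : 0 < r) (he : 0 < e) (h : e * r ^ 2 = m) : √(m / e) = r := by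
  rw [← h, show e * r ^ 2 / e = r ^ 2 by field_simp, Real.sqrt_sq hr.le]

/-- `S_t` is near `S`. -/
theorem nrS (w : Wd T) (hs : ∀ i j, s i j = s j i) (hd : ∀ i j, d i j = d j i)
    (h : Pb T.a T.b s d (W - T.w) v₁ v₂ del ((T.e : E → ℝ) z) r z)
    (hr : (T.e : E → ℝ) z * r ^ 2 = (mu T : E → ℝ) z) (f : EP.TE E) :
    |(H961.F.St W T.a T.b s d v₁ v₂ f).fn z - (So T f).fn z| ≤
      (11 * ((Fintype.card ι : ℝ) + 1) ^ 2 * del) * P1 T f z := by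
  have h1 := H961.F.fr1S (f := f) hs hd h
  have e1 : ev f z (H961.F.St W T.a T.b s d v₁ v₂) =
    (H961.F.St W T.a T.b s d v₁ v₂ f).fn z := rfl
  simp only [eDD_eq, eDK_eq, eKK_eq, eD_eq, eK_eq] at h1
  rw [e1, ← So_fn] at h1
  refine h1.trans (mul_le_mul_of_nonneg_left ?_ (by have := h.δ0; positivity))
  have he := w.he z
  rw [P1, rt1 h.r0 he hr]
  simp only [AA, Fintype.sum_sum_type, H856.B.Ak_inl, H856.B.Ak_inr]
  have r1 := h.r1
  have r0 := h.r0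
  have A3 : 0 ≤ ∑ i, ∑ j, |(T.D i (T.K j f)).fn z| := by positivity
  have A4 : 0 ≤ ∑ i, ∑ j, |(T.K i (T.D j f)).fn z| := by positivity
  have e3 : (∑ i, ∑ j, (|(T.D i (T.D j f)).fn z| + r * |(T.D i (T.K j f)).fn z| +
      |(T.K i (T.K j f)).fn z|)) = (∑ i, ∑ j, |(T.D i (T.D j f)).fn z|) +
      r * (∑ i, ∑ j, |(T.D i (T.K j f)).fn z|) + ∑ i, ∑ j, |(T.K i (T.K j f)).fn z| := by
    simp only [Finset.mul_sum, Finset.sum_add_distrib]
  have e4 : r * (∑ i, ∑ j, |(T.D i (T.K j f)).fn z|) ≤ ∑ i, ∑ j, |(T.D i (T.K j f)).fn z| := by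
    nlinarith
  rw [e3]
  simp only [Finset.sum_add_distrib]
  nlinarith

/-- `R_t` is near `R`. -/
theorem nrR (w : Wd T) (hs : ∀ i j, s i j = s j i) (hd : ∀ i j, d i j = d j i)
    (h : Pb T.a T.b s d (W - T.w) v₁ v₂ del ((T.e : E → ℝ) z) r z)
    (hr : (T.e : E → ℝ) z * r ^ 2 = (mu T : E → ℝ) z) (f : EP.TE E) :
    |(H961.F.Rt W T.a T.b s d v₁ v₂ f).fn z - (Ro T f).fn z| ≤
      (11 * ((Fintype.card ι : ℝ) + 1) ^ 2 * del) * P2 T f z := by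
  have h1 := H961.F.fr1R (f := f) hs hd h
  have e1 : ev f z (H961.F.Rt W T.a T.b s d v₁ v₂) =
    (H961.F.Rt W T.a T.b s d v₁ v₂ f).fn z := rfl
  simp only [eDD_eq, eDK_eq, eKK_eq, eD_eq, eK_eq] at h1
  rw [e1, ← Ro_fn] at h1
  refine h1.trans (mul_le_mul_of_nonneg_left (le_of_eq ?_) (by have := h.δ0; positivity))
  rw [P2, rt1 h.r0 (w.he z) hr, rt2 h.r0 (w.he z) hr, hr]
  have e3 : ∀ (x y : ι → ι → ℝ) (c : ℝ), ∑ i, ∑ j, (x i j + c * y i j) =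
      (∑ i, ∑ j, x i j) + c * ∑ i, ∑ j, y i j := by
    intro x y c
    simp only [Finset.mul_sum, Finset.sum_add_distrib]
  rw [e3 (fun i j => |(T.D i (T.K j f)).fn z|) (fun i j => |(T.D i (T.D j f)).fn z| +
    |(T.K i (T.K j f)).fn z|) r]
  ring

end near

/-! ## First order -/

section first

variable {σ τ : Sl E ι} {T : EP.Dat ι E} {s d : ι → ι → EP.Sm E} {M Mi : ι → ι → ℝ}
  {W v₁ v₂ : EP.Sm E} {del r : ℝ} {z : E}

/-- Bounds of the first order coefficients. -/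
structure Ob (T : EP.Dat ι E) (W : EP.Sm E) (x m2 : ℝ) (z : E) : Prop where
  a : ∀ i, vl z (EP.ds (T.a i) (W - T.w)) ^ 2 ≤ x * m2
  b : ∀ i, vl z (EP.ds (T.b i) (W - T.w)) ^ 2 ≤ x
  ab : ∀ i j, vl z (EP.ds (T.a i) (EP.ds (T.b j) (W - T.w))) ^ 2 ≤ x * m2

theorem ob_of (w : Wd T) (h : Pb T.a T.b s d (W - T.w) v₁ v₂ del ((T.e : E → ℝ) z) r z)
    (hr : (T.e : E → ℝ) z * r ^ 2 = (mu T : E → ℝ) z) {eta : ℝ}
    (h1 : del * (mu T : E → ℝ) z ≤ eta) :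
    Ob T W (eta ^ 2) ((T.e : E → ℝ) z * (w.mi : E → ℝ) z) z := by
  have h0 := h.δ0
  have he := w.he z
  have hm := H856.B.mu_ge w z
  have hmi := H856.B.mi_pos w z
  have hv := H856.B.mi_val w z
  have dm : 0 ≤ del * (mu T : E → ℝ) z := mul_nonneg h0 (by linarith)
  have dm2 : (del * (mu T : E → ℝ) z) ^ 2 ≤ eta ^ 2 := pow_le_pow_left₀ dm h1 2
  have key : (del * ((T.e : E → ℝ) z * r)) ^ 2 =
      (del * (mu T : E → ℝ) z) ^ 2 * ((T.e : E → ℝ) z * (w.mi : E → ℝ) z) := by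
    have : (T.e : E → ℝ) z * (T.e : E → ℝ) z * r ^ 2 = (T.e : E → ℝ) z * (mu T : E → ℝ) z := by
      rw [mul_assoc, hr]
    calc (del * ((T.e : E → ℝ) z * r)) ^ 2 =
          del ^ 2 * ((T.e : E → ℝ) z * (T.e : E → ℝ) z * r ^ 2) := by ring
      _ = del ^ 2 * ((T.e : E → ℝ) z * (mu T : E → ℝ) z) *
          ((mu T : E → ℝ) z * (w.mi : E → ℝ) z) := by rw [this, hv, mul_one]
      _ = _ := by ring
  have key2 : (del * ((T.e : E → ℝ) z * r)) ^ 2 ≤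
      eta ^ 2 * ((T.e : E → ℝ) z * (w.mi : E → ℝ) z) := by
    rw [key]
    exact mul_le_mul_of_nonneg_right dm2 (by positivity)
  have sq : ∀ {x y : ℝ}, |x| ≤ y → x ^ 2 ≤ y ^ 2 := fun {x y} hxy => by
    rw [← sq_abs]
    exact pow_le_pow_left₀ (abs_nonneg x) hxy 2
  refine ⟨fun i => (sq (h.oa i)).trans key2, fun i => ?_, fun i j => (sq (h.oab i j)).trans key2⟩
  refine (sq (h.ob i)).trans ?_
  rw [hr]
  exact dm2

theorem u_le (T : EP.Dat ι E) (W : EP.Sm E) (f : EP.TE E) {x m2 : ℝ} (h : Ob T W x m2 z) :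
    ∑ i, (dd W (T.a i) f).fn z ^ 2 ≤
      2 * (∑ i, (T.D i f).fn z ^ 2) + 2 * (Fintype.card ι * (x * m2 * f.fn z ^ 2)) := by
  have e : ∑ _i : ι, x * m2 * f.fn z ^ 2 = Fintype.card ι * (x * m2 * f.fn z ^ 2) := by
    rw [Finset.sum_const, Finset.card_univ, nsmul_eq_mul]
  rw [← e, Finset.mul_sum, Finset.mul_sum, ← Finset.sum_add_distrib]
  refine Finset.sum_le_sum fun i _ => ?_
  rw [dd_D]
  have h1 := mul_le_mul_of_nonneg_right (h.a i) (sq_nonneg (f.fn z))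
  nlinarith [sq_nonneg ((T.D i f).fn z - vl z (EP.ds (T.a i) (W - T.w)) * f.fn z)]

theorem v_le (T : EP.Dat ι E) (W : EP.Sm E) (f : EP.TE E) {x m2 : ℝ} (h : Ob T W x m2 z) :
    ∑ i, (dd W (T.b i) f).fn z ^ 2 ≤
      2 * (∑ i, (T.K i f).fn z ^ 2) + 2 * (Fintype.card ι * (x * f.fn z ^ 2)) := by
  have e : ∑ _i : ι, x * f.fn z ^ 2 = Fintype.card ι * (x * f.fn z ^ 2) := by
    rw [Finset.sum_const, Finset.card_univ, nsmul_eq_mul]
  rw [← e, Finset.mul_sum, Finset.mul_sum, ← Finset.sum_add_distrib]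
  refine Finset.sum_le_sum fun i _ => ?_
  rw [dd_K]
  have h1 := mul_le_mul_of_nonneg_right (h.b i) (sq_nonneg (f.fn z))
  nlinarith [sq_nonneg ((T.K i f).fn z - vl z (EP.ds (T.b i) (W - T.w)) * f.fn z)]

/-- The density of the list of bounds. -/
def LL (T : EP.Dat ι E) (w : Wd T) (N : EP.Sm E) (f g : EP.TE E) (z : E) : ℝ :=
  (T.e : E → ℝ) z ^ 2 * f.fn z ^ 2 +
    (T.e : E → ℝ) z * (w.mi : E → ℝ) z * ((∑ i, (T.D i f).fn z ^ 2) + ∑ i, (T.K i f).fn z ^ 2) +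
    (T.e : E → ℝ) z * (w.mi : E → ℝ) z * ((N : E → ℝ) z + (mu T : E → ℝ) z) ^ 2 * g.fn z ^ 2 +
    (∑ i, (T.D i g).fn z ^ 2) +
    (T.e : E → ℝ) z * (w.mi : E → ℝ) z * ∑ i, (T.K i g).fn z ^ 2

/-- The weights of the true margin against the model ones. -/
structure Wc (T : EP.Dat ι E) (w : Wd T) (N : EP.Sm E) (e h hi wc dt : E → ℝ) (d2 : EP.Sm E)
    (CW : ℝ) (z : E) : Prop where
  C1 : 1 ≤ CW
  e1 : e z ≤ CW * (T.e : E → ℝ) z ^ 2
  w1 : wc z ≤ CW * ((T.e : E → ℝ) z * (w.mi : E → ℝ) z *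
    ((N : E → ℝ) z + (mu T : E → ℝ) z) ^ 2)
  i0 : 0 ≤ hi z
  i1 : hi z ≤ CW * ((T.e : E → ℝ) z * (w.mi : E → ℝ) z)
  h1 : (T.e' : E → ℝ) z * (mu T : E → ℝ) z ≤ CW * h z
  d0 : 0 ≤ dt z
  d1 : (d2 : E → ℝ) z ≤ CW * dt z
  d3 : (d2 : E → ℝ) z ≤ 1

theorem num1 {m nn q Dg Kg G x A B : ℝ} (m1 : 1 ≤ m) (n0 : 0 ≤ nn) (q1 : 1 ≤ q)
    (x1 : x ≤ 1) (Kg0 : 0 ≤ Kg) (G0 : 0 ≤ G)
    (ug : A ≤ 2 * Dg + 2 * (nn * (x * m * G))) (vg : B ≤ 2 * Kg + 2 * (nn * (x * G))) :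
    8 * A + 2 * B ≤ 16 * Dg + 4 * (m * Kg) + 20 * nn * (m * q * G) ∧
      4 * B ≤ 8 * Kg + 8 * (nn * G) := by
  have a2 : x * m * G ≤ m * q * G := by
    have h1 : x * m ≤ m * q := by
      calc x * m ≤ 1 * m := mul_le_mul_of_nonneg_right x1 (by linarith)
        _ = m * 1 := by ring
        _ ≤ m * q := mul_le_mul_of_nonneg_left q1 (by linarith)
    exact mul_le_mul_of_nonneg_right h1 G0
  have a4 : x * G ≤ G := mul_le_of_le_one_left G0 x1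
  have a5 : G ≤ m * q * G := le_mul_of_one_le_left G0 (one_le_mul_of_one_le_of_one_le m1 q1)
  have a9 : Kg ≤ m * Kg := le_mul_of_one_le_left Kg0 m1
  have b1 := mul_le_mul_of_nonneg_left a2 n0
  have b2 := mul_le_mul_of_nonneg_left a4 n0
  have b3 := mul_le_mul_of_nonneg_left a5 n0
  constructor <;> linarith

theorem num2 {m nn Df Kf F x A B : ℝ} (m1 : 1 ≤ m) (n0 : 0 ≤ nn)
    (x1 : x ≤ 1) (Kf0 : 0 ≤ Kf) (F0 : 0 ≤ F)
    (ug : A ≤ 2 * Df + 2 * (nn * (x * m * F))) (vg : B ≤ 2 * Kf + 2 * (nn * (x * F))) :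
    8 * A + 2 * B ≤ 16 * (Df + Kf) + 20 * nn * (m * F) := by
  have a1 : x * m * F ≤ m * F :=
    mul_le_mul_of_nonneg_right (mul_le_of_le_one_left (by linarith) x1) F0
  have a4 : x * F ≤ F := mul_le_of_le_one_left F0 x1
  have a5 : F ≤ m * F := le_mul_of_one_le_left F0 m1
  have b1 := mul_le_mul_of_nonneg_left a1 n0
  have b2 := mul_le_mul_of_nonneg_left (a4.trans a5) n0
  linarith

theorem num3 {EE m nn q Df Kf Dg Kg F G CW e wc hi yf yg kg : ℝ} (m1 : 1 ≤ m) (mE : m ≤ EE)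
    (n0 : 0 ≤ nn) (q1 : 1 ≤ q) (C1 : 1 ≤ CW) (Df0 : 0 ≤ Df) (Kf0 : 0 ≤ Kf) (Dg0 : 0 ≤ Dg)
    (Kg0 : 0 ≤ Kg) (F0 : 0 ≤ F) (G0 : 0 ≤ G) (we : e ≤ CW * EE ^ 2)
    (ww : wc ≤ CW * (m * q)) (i0 : 0 ≤ hi) (i1 : hi ≤ CW * m)
    (Yf : yf ≤ 16 * (Df + Kf) + 20 * nn * (m * F))
    (Yg : yg ≤ 16 * Dg + 4 * (m * Kg) + 20 * nn * (m * q * G))
    (Kg' : kg ≤ 8 * Kg + 8 * (nn * G)) :
    e * F + wc * G + (hi * kg + yg) + hi * yf ≤
      28 * (nn + 1) * CW * (EE ^ 2 * F + m * (Df + Kf) + m * q * G + Dg + m * Kg) := by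
  have m0 : 0 ≤ m := by linarith
  have c0 : 0 ≤ CW := by linarith
  have a7 : m * G ≤ m * q * G :=
    mul_le_mul_of_nonneg_right (le_mul_of_one_le_right m0 q1) G0
  have a8 : m * (m * F) ≤ EE ^ 2 * F := by
    have h1 : m * m ≤ EE * EE := mul_le_mul mE mE m0 (by linarith)
    have h2 := mul_le_mul_of_nonneg_right h1 F0
    calc m * (m * F) = m * m * F := by ring
      _ ≤ EE * EE * F := h2
      _ = _ := by ring
  have t1 : hi * kg ≤ CW * (8 * (m * Kg) + 8 * nn * (m * q * G)) := by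
    calc hi * kg ≤ hi * (8 * Kg + 8 * (nn * G)) := mul_le_mul_of_nonneg_left Kg' i0
      _ ≤ CW * m * (8 * Kg + 8 * (nn * G)) :=
          mul_le_mul_of_nonneg_right i1 (by positivity)
      _ = CW * (8 * (m * Kg) + 8 * nn * (m * G)) := by ring
      _ ≤ _ := by
          refine mul_le_mul_of_nonneg_left ?_ c0
          have := mul_le_mul_of_nonneg_left a7 (by positivity : 0 ≤ 8 * nn)
          linarith
  have t2 : hi * yf ≤ CW * (16 * (m * (Df + Kf)) + 20 * nn * (EE ^ 2 * F)) := by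
    calc hi * yf ≤ hi * (16 * (Df + Kf) + 20 * nn * (m * F)) :=
          mul_le_mul_of_nonneg_left Yf i0
      _ ≤ CW * m * (16 * (Df + Kf) + 20 * nn * (m * F)) :=
          mul_le_mul_of_nonneg_right i1 (by positivity)
      _ = CW * (16 * (m * (Df + Kf)) + 20 * nn * (m * (m * F))) := by ring
      _ ≤ _ := by
          refine mul_le_mul_of_nonneg_left ?_ c0
          have := mul_le_mul_of_nonneg_left a8 (by positivity : 0 ≤ 20 * nn)
          linarith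
  have t3 : e * F ≤ CW * (EE ^ 2 * F) := by
    have := mul_le_mul_of_nonneg_right we F0
    linarith
  have t4 : wc * G ≤ CW * (m * q * G) := by
    have := mul_le_mul_of_nonneg_right ww G0
    linarith
  have P0 : 0 ≤ 16 * Dg + 4 * (m * Kg) + 20 * nn * (m * q * G) := by positivity
  have t5 : yg ≤ CW * (16 * Dg + 4 * (m * Kg) + 20 * nn * (m * q * G)) :=
    Yg.trans (le_mul_of_one_le_left P0 C1)
  have s1 : 0 ≤ CW * ((27 + 8 * nn) * (EE ^ 2 * F)) := by positivity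
  have s2 : 0 ≤ CW * ((12 + 28 * nn) * (m * (Df + Kf))) := by positivity
  have s3 : 0 ≤ CW * (27 * (m * q * G)) := by positivity
  have s4 : 0 ≤ CW * ((12 + 28 * nn) * Dg) := by positivity
  have s5 : 0 ≤ CW * ((16 + 28 * nn) * (m * Kg)) := by positivity
  have fin : CW * (EE ^ 2 * F) + CW * (m * q * G) +
      (CW * (8 * (m * Kg) + 8 * nn * (m * q * G)) +
      CW * (16 * Dg + 4 * (m * Kg) + 20 * nn * (m * q * G))) +
      CW * (16 * (m * (Df + Kf)) + 20 * nn * (EE ^ 2 * F)) =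
      28 * (nn + 1) * CW * (EE ^ 2 * F + m * (Df + Kf) + m * q * G + Dg + m * Kg) -
      (CW * ((27 + 8 * nn) * (EE ^ 2 * F)) + CW * ((12 + 28 * nn) * (m * (Df + Kf))) +
        CW * (27 * (m * q * G)) + CW * ((12 + 28 * nn) * Dg) +
        CW * ((16 + 28 * nn) * (m * Kg))) + CW * (28 * nn * (m * q * G)) - 
        CW * (28 * nn * (m * q * G)) := by ring
  linarith

/-- The margin against the list. -/
theorem mm_LL (h : Fc σ τ T s d M Mi) (w : Wd T) {N : EP.Sm E} {e hh hi wc dt : E → ℝ}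
    {d2 : EP.Sm E} {CW : ℝ} (hw : Wc T w N e hh hi wc dt d2 CW z) {eta : ℝ} (h0 : 0 ≤ eta)
    (h1 : eta ≤ 1) (ob : Ob T W (eta ^ 2) ((T.e : E → ℝ) z * (w.mi : E → ℝ) z) z)
    (N0 : 0 ≤ (N : E → ℝ) z) (hme : (mu T : E → ℝ) z ≤ (T.e : E → ℝ) z)
    {a b : E → ℝ} {f g : EP.TE E} (hf : f.fn = fun z => a z + b z)
    (hg : g.fn = fun z => a z - b z) :
    mm σ τ (W : E → ℝ) e wc hi a b z ≤ 28 * ((Fintype.card ι : ℝ) + 1) * CW * LL T w N f g z := by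
  have he := w.he z
  have hm := H856.B.mu_ge w z
  have hmi := H856.B.mi_pos w z
  have hmi1 := H856.B.mi_le w z
  have hv := H856.B.mi_val w z
  have n0 : (0 : ℝ) ≤ Fintype.card ι := Nat.cast_nonneg _
  have e1 : 1 ≤ (T.e : E → ℝ) z * (w.mi : E → ℝ) z := by
    rw [← hv]; exact mul_le_mul_of_nonneg_right hme hmi.le
  have x1 : eta ^ 2 ≤ 1 := pow_le_one₀ h0 h1
  have e2 : (T.e : E → ℝ) z * (w.mi : E → ℝ) z ≤ (T.e : E → ℝ) z :=
    mul_le_of_le_one_right he.le hmi1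
  have q1 : 1 ≤ ((N : E → ℝ) z + (mu T : E → ℝ) z) ^ 2 := one_le_pow₀ (by linarith)
  have yf := Y2_dd h W f z
  have yg := Y2_dd h W g z
  have kg := K2_dd h W g z
  have k1 := num1 e1 n0 q1 x1 (Finset.sum_nonneg fun _ _ => sq_nonneg _)
    (sq_nonneg _) (u_le T W g ob) (v_le T W g ob)
  have k2 := num2 e1 n0 x1 (Finset.sum_nonneg fun _ _ => sq_nonneg _) (sq_nonneg _)
    (u_le T W f ob) (v_le T W f ob)
  have k3 := num3 (EE := (T.e : E → ℝ) z) (Df := ∑ i, (T.D i f).fn z ^ 2)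
    (Kf := ∑ i, (T.K i f).fn z ^ 2) (F := f.fn z ^ 2) (e := e z) (wc := wc z) (hi := hi z)
    (CW := CW) e1 e2 n0 q1 hw.C1 (Finset.sum_nonneg fun _ _ => sq_nonneg _)
    (Finset.sum_nonneg fun _ _ => sq_nonneg _) (Finset.sum_nonneg fun _ _ => sq_nonneg _)
    (Finset.sum_nonneg fun _ _ => sq_nonneg _) (sq_nonneg _) (sq_nonneg _) hw.e1 hw.w1 hw.i0
    hw.i1 (yf.trans k2) (yg.trans k1.1) (kg.trans k1.2)
  have em : mm σ τ (W : E → ℝ) e wc hi a b z = e z * f.fn z ^ 2 + wc z * g.fn z ^ 2 +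
      (hi z * K2 σ τ (W : E → ℝ) g.fn z + Y2 σ τ (W : E → ℝ) g.fn z) +
      hi z * Y2 σ τ (W : E → ℝ) f.fn z := by
    rw [hf, hg]; rfl
  rw [em]
  exact k3

/-- The fifth cost: model against true. -/
theorem DK_LL (h : Fc σ τ T s d M Mi) (w : Wd T) {N : EP.Sm E} {e hh hi wc dt : E → ℝ}
    {d2 : EP.Sm E} {CW : ℝ} (hw : Wc T w N e hh hi wc dt d2 CW z) (hd2 : 0 ≤ (d2 : E → ℝ) z)
    {eta : ℝ} (h0 : 0 ≤ eta) (h1 : eta ≤ 1)
    (ob : Ob T W (eta ^ 2) ((T.e : E → ℝ) z * (w.mi : E → ℝ) z) z) (g : EP.TE E) :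
    (d2 : E → ℝ) z * ∑ i, ∑ j, (T.D i (T.K j g)).fn z ^ 2 ≤
      16 * CW * (dt z * DK2 σ τ (W : E → ℝ) g.fn z) +
      eta ^ 2 * (4 * (Fintype.card ι * ∑ i, (T.D i g).fn z ^ 2) +
        4 * (Fintype.card ι * ((T.e : E → ℝ) z * (w.mi : E → ℝ) z * ∑ i, (T.K i g).fn z ^ 2)) +
        16 * (Fintype.card ι * (Fintype.card ι *
          ((T.e : E → ℝ) z * (w.mi : E → ℝ) z * g.fn z ^ 2)))) := by
  have hDK := DK2_dd h W g z
  have n0 : (0 : ℝ) ≤ Fintype.card ι := Nat.cast_nonneg _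
  have he := w.he z
  have hmi := H856.B.mi_pos w z
  have x0 : 0 ≤ eta ^ 2 := sq_nonneg _
  have x1 : eta ^ 2 ≤ 1 := pow_le_one₀ h0 h1
  set m2 := (T.e : E → ℝ) z * (w.mi : E → ℝ) z with hm2
  have m0 : 0 ≤ m2 := by positivity
  set oa := fun i => vl z (EP.ds (T.a i) (W - T.w)) with hoa
  set ob' := fun i => vl z (EP.ds (T.b i) (W - T.w)) with hob
  set oab := fun i j => vl z (EP.ds (T.a i) (EP.ds (T.b j) (W - T.w))) with hoab
  have pt : ∀ i j, (T.D i (T.K j g)).fn z ^ 2 ≤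
      4 * (dd W (T.a i) (dd W (T.b j) g)).fn z ^ 2 + (4 * (eta ^ 2 * (T.D i g).fn z ^ 2) +
        4 * (eta ^ 2 * m2 * (T.K j g).fn z ^ 2) + 16 * (eta ^ 2 * m2 * g.fn z ^ 2)) := by
    intro i j
    have e := dd_DK T W g i j z
    have ha := ob.a i
    have hb := ob.b j
    have hc := ob.ab i j
    have q1 := mul_le_mul_of_nonneg_right hb (sq_nonneg ((T.D i g).fn z))
    have q2 := mul_le_mul_of_nonneg_right ha (sq_nonneg ((T.K j g).fn z))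
    have q3 : (oab i j + oa i * ob' j) ^ 2 ≤ 4 * (eta ^ 2 * m2) := by
      have r1 : (oa i * ob' j) ^ 2 ≤ eta ^ 2 * m2 := by
        rw [mul_pow]
        calc oa i ^ 2 * ob' j ^ 2 ≤ (eta ^ 2 * m2) * 1 :=
              mul_le_mul ha (hb.trans x1) (sq_nonneg _) (by positivity)
          _ = _ := mul_one _
      nlinarith [sq_nonneg (oab i j - oa i * ob' j)]
    have q4 := mul_le_mul_of_nonneg_right q3 (sq_nonneg (g.fn z))
    have e2 : (T.D i (T.K j g)).fn z = (dd W (T.a i) (dd W (T.b j) g)).fn z -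
        ob' j * (T.D i g).fn z - oa i * (T.K j g).fn z -
        (oab i j + oa i * ob' j) * g.fn z := by
      rw [e]; ring
    rw [e2]
    set x := (dd W (T.a i) (dd W (T.b j) g)).fn z
    set p := ob' j * (T.D i g).fn z
    set q := oa i * (T.K j g).fn z
    set r := (oab i j + oa i * ob' j) * g.fn z
    have k1 : p ^ 2 ≤ eta ^ 2 * (T.D i g).fn z ^ 2 := by
      rw [mul_pow]; exact q1
    have k2 : q ^ 2 ≤ eta ^ 2 * m2 * (T.K j g).fn z ^ 2 := by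
      rw [mul_pow]; exact q2
    have k3 : r ^ 2 ≤ 4 * (eta ^ 2 * m2) * g.fn z ^ 2 := by
      rw [mul_pow]; exact q4
    nlinarith [sq_nonneg (x + p), sq_nonneg (x + q), sq_nonneg (x + r), sq_nonneg (p - q),
      sq_nonneg (q - r), sq_nonneg (p - r)]
  have cn : ∀ x : ℝ, ∑ _i : ι, x = Fintype.card ι * x := fun x => by
    rw [Finset.sum_const, Finset.card_univ, nsmul_eq_mul]
  have s1 : ∑ i, ∑ j, (T.D i (T.K j g)).fn z ^ 2 ≤
      4 * (∑ i, ∑ j, (dd W (T.a i) (dd W (T.b j) g)).fn z ^ 2) +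
      (4 * (eta ^ 2 * (Fintype.card ι * ∑ i, (T.D i g).fn z ^ 2)) +
        4 * (eta ^ 2 * m2 * (Fintype.card ι * ∑ j, (T.K j g).fn z ^ 2)) +
        16 * (Fintype.card ι * (Fintype.card ι * (eta ^ 2 * m2 * g.fn z ^ 2)))) := by
    refine (Finset.sum_le_sum fun i _ => Finset.sum_le_sum fun j _ => pt i j).trans
      (le_of_eq ?_)
    simp only [Finset.sum_add_distrib, ← Finset.mul_sum, cn]
    ring
  have Dg0 : 0 ≤ ∑ i, (T.D i g).fn z ^ 2 := Finset.sum_nonneg fun _ _ => sq_nonneg _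
  have Kg0 : 0 ≤ ∑ i, (T.K i g).fn z ^ 2 := Finset.sum_nonneg fun _ _ => sq_nonneg _
  have DK0 := DK2_nonneg σ τ (W : E → ℝ) g.fn z
  have s2 := mul_le_mul_of_nonneg_left s1 hd2
  set R := 4 * (eta ^ 2 * (Fintype.card ι * ∑ i, (T.D i g).fn z ^ 2)) +
        4 * (eta ^ 2 * m2 * (Fintype.card ι * ∑ j, (T.K j g).fn z ^ 2)) +
        16 * (Fintype.card ι * (Fintype.card ι * (eta ^ 2 * m2 * g.fn z ^ 2))) with hR
  have R0 : 0 ≤ R := by positivity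
  have s3 : (d2 : E → ℝ) z * R ≤ R := mul_le_of_le_one_left R0 hw.d3
  have s4 : (d2 : E → ℝ) z * (4 * ∑ i, ∑ j, (dd W (T.a i) (dd W (T.b j) g)).fn z ^ 2) ≤
      16 * CW * (dt z * DK2 σ τ (W : E → ℝ) g.fn z) := by
    calc (d2 : E → ℝ) z * (4 * ∑ i, ∑ j, (dd W (T.a i) (dd W (T.b j) g)).fn z ^ 2)
        ≤ (d2 : E → ℝ) z * (4 * (4 * DK2 σ τ (W : E → ℝ) g.fn z)) := by gcongr
      _ = (d2 : E → ℝ) z * (16 * DK2 σ τ (W : E → ℝ) g.fn z) := by ring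
      _ ≤ CW * dt z * (16 * DK2 σ τ (W : E → ℝ) g.fn z) :=
          mul_le_mul_of_nonneg_right hw.d1 (by positivity)
      _ = _ := by ring
  have eR : R = eta ^ 2 * (4 * (Fintype.card ι * ∑ i, (T.D i g).fn z ^ 2) +
        4 * (Fintype.card ι * (m2 * ∑ i, (T.K i g).fn z ^ 2)) +
        16 * (Fintype.card ι * (Fintype.card ι * (m2 * g.fn z ^ 2)))) := by
    rw [hR]; ring
  rw [← eR]
  linarith

end first

end Vale.Agent.P088.R2.H676.F
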