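import Vale.Agent.P088.R2.H676.F.Pw

/-!
# P088, zone B1: the sum over the cells

`Cd`: the curved box in density form.  If `Cd` holds on every cell `Z k` and there are partitions
`∑ ψ_k² = 1` subordinate to the cells with small derivatives, then `Cd` holds on `Ω`.
-/

set_option linter.unusedSectionVars false

open MeasureTheory Set Filter
open scoped ContDiff Topology

noncomputable section

namespace Vale.Agent.P088.R2.H676.F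

open Vale.Agent.P088.R2.H961.GW Vale.Agent.P088.R2.H960.W Vale.Agent.P088.R2.H644
open Vale.Agent.P088.R2.H551.E Vale.Agent.P088.R2.H516.O Vale.Agent.P088.R2.H86.Z

variable {E ι α : Type*} [NormedAddCommGroup E] [NormedSpace ℝ E] [Fintype ι]

/-! ## Locality: the densities vanish off the supports -/

section zero

variable {σ τ : Sl E ι} {v v₁ v₂ W f g a b e wc hi h d : E → ℝ} {s₁ s₂ s₃ s₄ : E → ℝ} {z : E}

omit [Fintype ι] in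
theorem D_zero (σ : Sl E ι) (h : f =ᶠ[𝓝 z] fun _ => 0) (i : ι) : σ.D i f z = 0 := by
  rw [D_congr_nhds σ h i, D_const]

omit [Fintype ι] in
theorem D_zero' (σ : Sl E ι) (h : f =ᶠ[𝓝 z] fun _ => 0) (i : ι) :
    σ.D i f =ᶠ[𝓝 z] fun _ => 0 := by
  filter_upwards [h.eventually_nhds] with w hw using D_zero σ hw i

omit [Fintype ι] in
theorem YY_zero (σ : Sl E ι) (W : E → ℝ) (h : f =ᶠ[𝓝 z] fun _ => 0) (i : ι) :
    YY σ W f i z = 0 := by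
  unfold YY
  rw [D_zero σ h i, h.eq_of_nhds]
  ring

omit [Fintype ι] in
theorem Kj_zero (σ τ : Sl E ι) (W : E → ℝ) (h : f =ᶠ[𝓝 z] fun _ => 0) (j : ι) :
    Kj σ τ W f j =ᶠ[𝓝 z] fun _ => 0 := by
  filter_upwards [h.eventually_nhds] with w hw
  unfold Kj
  rw [YY_zero σ W hw, YY_zero τ W hw, add_zero]

theorem P_zero (σ : Sl E ι) (v W : E → ℝ) (h : f =ᶠ[𝓝 z] fun _ => 0) : σ.P v W f z = 0 := by
  have h1 : ∀ j, σ.D j f z = 0 := fun j => D_zero σ h j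
  have h2 : ∀ i j, σ.D i (σ.D j f) z = 0 := fun i j => D_zero σ (D_zero' σ h j) i
  unfold Sl.P Sl.K Sl.Λ Sl.Γ
  simp [h1, h2, h.eq_of_nhds]

theorem Y2_zero (σ τ : Sl E ι) (W : E → ℝ) (h : f =ᶠ[𝓝 z] fun _ => 0) : Y2 σ τ W f z = 0 := by
  unfold Y2
  simp [YY_zero σ W h, YY_zero τ W h]

theorem K2_zero (σ τ : Sl E ι) (W : E → ℝ) (h : f =ᶠ[𝓝 z] fun _ => 0) : K2 σ τ W f z = 0 := by
  unfold K2
  simp [(Kj_zero σ τ W h _).eq_of_nhds]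

theorem DK2_zero (σ τ : Sl E ι) (W : E → ℝ) (h : f =ᶠ[𝓝 z] fun _ => 0) :
    DK2 σ τ W f z = 0 := by
  unfold DK2 DKij
  simp [YY_zero σ W (Kj_zero σ τ W h _), YY_zero τ W (Kj_zero σ τ W h _)]

theorem ab_zero (ha : a =ᶠ[𝓝 z] fun _ => 0) (hb : b =ᶠ[𝓝 z] fun _ => 0) :
    ((fun w => a w + b w) =ᶠ[𝓝 z] fun _ => 0) ∧ ((fun w => a w - b w) =ᶠ[𝓝 z] fun _ => 0) := by
  constructor <;>
  · filter_upwards [ha, hb] with w h1 h2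
    rw [h1, h2]; ring

theorem mm_zero (σ τ : Sl E ι) (W e wc hi : E → ℝ) (ha : a =ᶠ[𝓝 z] fun _ => 0)
    (hb : b =ᶠ[𝓝 z] fun _ => 0) : mm σ τ W e wc hi a b z = 0 := by
  obtain ⟨h1, h2⟩ := ab_zero ha hb
  unfold mm
  rw [K2_zero σ τ W h2, Y2_zero σ τ W h2, Y2_zero σ τ W h1, ha.eq_of_nhds, hb.eq_of_nhds]
  ring

theorem cc_zero (σ τ : Sl E ι) (v₁ v₂ W h d : E → ℝ) (ha : a =ᶠ[𝓝 z] fun _ => 0)
    (hb : b =ᶠ[𝓝 z] fun _ => 0) (h1 : s₁ z = 0) (h2 : s₂ z = 0) (h3 : s₃ z = 0) (h4 : s₄ z = 0) :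
    cc σ τ v₁ v₂ W h d a b s₁ s₂ s₃ s₄ z = 0 := by
  obtain ⟨k1, k2⟩ := ab_zero ha hb
  unfold cc Sp Rp
  rw [P_zero σ v₁ W k1, P_zero τ v₂ W k1, P_zero σ v₁ W k2, P_zero τ v₂ W k2, DK2_zero σ τ W k2,
    h1, h2, h3, h4]
  ring

theorem sta_zero (σ τ : Sl E ι) (v₁ v₂ W : E → ℝ) (ha : a =ᶠ[𝓝 z] fun _ => 0)
    (hb : b =ᶠ[𝓝 z] fun _ => 0) : sta σ τ v₁ v₂ W a b z = 0 := by
  have h1 : ∀ i, Ch.XX σ W a z i = 0 := fun i => by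
    unfold Ch.XX
    rw [D_zero σ ha i, ha.eq_of_nhds]; ring
  have h2 : ∀ i, Ch.XX τ W b z i = 0 := fun i => by
    unfold Ch.XX
    rw [D_zero τ hb i, hb.eq_of_nhds]; ring
  unfold sta qs Ch.TH
  simp [h1, h2, ha.eq_of_nhds, hb.eq_of_nhds]

end zero

/-! ## The pointwise sum over the cells -/

/-- The bounds of the cut-off functions at a point. -/
structure Pc (σ τ : Sl E ι) (W e wc : E → ℝ) (S : Finset α) (ψ : α → E → ℝ) (ρ₀ ρ : ℝ)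
    (z : E) : Prop where
  d1 : ∑ k ∈ S, ((∑ i, σ.D i (ψ k) z ^ 2) + ∑ i, τ.D i (ψ k) z ^ 2) ≤ ρ
  l1 : ∑ k ∈ S, (σ.Λ (ψ k) z ^ 2 + τ.Λ (ψ k) z ^ 2) ≤ ρ
  g1 : ∑ k ∈ S, ∑ i, ∑ j, (σ.D i (gj σ τ (ψ k) j) z - τ.D i (gj σ τ (ψ k) j) z) ^ 2 ≤ ρ
  th : ∀ x y : ℝ, 8 * ∑ k ∈ S, Ch.TH σ τ W z (fun i => x * σ.D i (ψ k) z)
    (fun i => y * τ.D i (ψ k) z) ≤ ρ₀ * (e z * (x + y) ^ 2 + wc z * (x - y) ^ 2)

section pw

variable {σ τ : Sl E ι} {U V : Set E} {θ : E → ℝ} {v₁ v₂ W f g a b e wc hi h d : E → ℝ}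
  {s₁ s₂ s₃ s₄ : E → ℝ} {z : E} {S : Finset α} {ψ : α → E → ℝ} {ρ₀ ρ : ℝ}

theorem s4_cells (h1 : ∑ k ∈ S, ψ k z ^ 2 = 1) :
    ∑ k ∈ S, s4 (fun w => ψ k w * s₁ w) (fun w => ψ k w * s₂ w) (fun w => ψ k w * s₃ w)
      (fun w => ψ k w * s₄ w) z = s4 s₁ s₂ s₃ s₄ z := by
  have e : ∀ k ∈ S, s4 (fun w => ψ k w * s₁ w) (fun w => ψ k w * s₂ w) (fun w => ψ k w * s₃ w)
      (fun w => ψ k w * s₄ w) z = ψ k z ^ 2 * s4 s₁ s₂ s₃ s₄ z := fun k _ => by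
    unfold s4; ring
  rw [Finset.sum_congr rfl e, ← Finset.sum_mul, h1, one_mul]

omit [Fintype ι] in
theorem gj_sum (hV : IsOpen V) (hψ : ∀ k ∈ S, Sm V (ψ k))
    (h1 : ∀ w ∈ V, ∑ k ∈ S, ψ k w ^ 2 = 1) (j : ι) (hz : z ∈ V) :
    ∑ k ∈ S, ψ k z * gj σ τ (ψ k) j z = 0 := by
  unfold gj
  simp only [mul_add, Finset.sum_add_distrib]
  rw [D_cells hV S hψ h1 σ j hz, D_cells hV S hψ h1 τ j hz, add_zero]

theorem K2_cells (ok : σ.Ok U θ) (ot : τ.Ok U θ) (hV : IsOpen V) (hVU : V ⊆ U)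
    (hψ : ∀ k ∈ S, Sm U (ψ k)) (h1 : ∀ w ∈ V, ∑ k ∈ S, ψ k w ^ 2 = 1) (hf : Sm U f)
    (hz : z ∈ V) : K2 σ τ W f z ≤ ∑ k ∈ S, K2 σ τ W (fun w => ψ k w * f w) z := by
  unfold K2
  rw [Finset.sum_comm]
  refine Finset.sum_le_sum fun j _ => ?_
  have e : ∀ k ∈ S, Kj σ τ W (fun w => ψ k w * f w) j z ^ 2 =
      (ψ k z * Kj σ τ W f j z + f z * gj σ τ (ψ k) j z) ^ 2 := fun k hk => by
    rw [Kj_mul ok ot (hψ k hk) hf j (hVU hz)]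
  rw [Finset.sum_congr rfl e]
  exact ps_ge S _ _ _ _ (h1 z hz) (gj_sum hV (fun k hk => (hψ k hk).mono hVU) h1 j hz)

theorem Y_cells (ok : σ.Ok U θ) (hV : IsOpen V) (hVU : V ⊆ U)
    (hψ : ∀ k ∈ S, Sm U (ψ k)) (h1 : ∀ w ∈ V, ∑ k ∈ S, ψ k w ^ 2 = 1) (hf : Sm U f)
    (hz : z ∈ V) : ∑ i, YY σ W f i z ^ 2 ≤
      ∑ k ∈ S, ∑ i, YY σ W (fun w => ψ k w * f w) i z ^ 2 := by
  rw [Finset.sum_comm]
  refine Finset.sum_le_sum fun j _ => ?_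
  have e : ∀ k ∈ S, YY σ W (fun w => ψ k w * f w) j z ^ 2 =
      (ψ k z * YY σ W f j z + f z * σ.D j (ψ k) z) ^ 2 := fun k hk => by
    rw [YY_mul ok W (hψ k hk) hf j (hVU hz)]
  rw [Finset.sum_congr rfl e]
  exact ps_ge S _ _ _ _ (h1 z hz) (D_cells hV S (fun k hk => (hψ k hk).mono hVU) h1 σ j hz)

theorem Y2_cells (ok : σ.Ok U θ) (ot : τ.Ok U θ) (hV : IsOpen V) (hVU : V ⊆ U)
    (hψ : ∀ k ∈ S, Sm U (ψ k)) (h1 : ∀ w ∈ V, ∑ k ∈ S, ψ k w ^ 2 = 1) (hf : Sm U f)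
    (hz : z ∈ V) : Y2 σ τ W f z ≤ ∑ k ∈ S, Y2 σ τ W (fun w => ψ k w * f w) z := by
  unfold Y2
  rw [Finset.sum_add_distrib]
  exact add_le_add (Y_cells ok hV hVU hψ h1 hf hz) (Y_cells ot hV hVU hψ h1 hf hz)

theorem sq_cells (h1 : ∑ k ∈ S, ψ k z ^ 2 = 1) (e x : ℝ) :
    ∑ k ∈ S, e * (ψ k z * x) ^ 2 = e * x ^ 2 := by
  have h : ∀ k ∈ S, e * (ψ k z * x) ^ 2 = ψ k z ^ 2 * (e * x ^ 2) := fun k _ => by ring
  rw [Finset.sum_congr rfl h, ← Finset.sum_mul, h1, one_mul]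

theorem cut_add (ψ a b : E → ℝ) :
    (fun w => ψ w * a w + ψ w * b w) = fun w => ψ w * (a w + b w) := by
  funext w; ring

theorem cut_sub (ψ a b : E → ℝ) :
    (fun w => ψ w * a w - ψ w * b w) = fun w => ψ w * (a w - b w) := by
  funext w; ring

/-- The margin. -/
theorem mm_cells (ok : σ.Ok U θ) (ot : τ.Ok U θ) (hV : IsOpen V) (hVU : V ⊆ U)
    (hψ : ∀ k ∈ S, Sm U (ψ k)) (h1 : ∀ w ∈ V, ∑ k ∈ S, ψ k w ^ 2 = 1) (ha : Sm U a)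
    (hb : Sm U b) (hz : z ∈ V) (h0 : 0 ≤ hi z) : mm σ τ W e wc hi a b z ≤
      ∑ k ∈ S, mm σ τ W e wc hi (fun w => ψ k w * a w) (fun w => ψ k w * b w) z := by
  have e1 := sq_cells (h1 z hz) (e z) (a z + b z)
  have e2 := sq_cells (h1 z hz) (wc z) (a z - b z)
  have e3 := mul_le_mul_of_nonneg_left
    (K2_cells (W := W) ok ot hV hVU hψ h1 (ha.sub hb) hz) h0
  have e4 := Y2_cells (W := W) ok ot hV hVU hψ h1 (ha.sub hb) hz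
  have e5 := mul_le_mul_of_nonneg_left
    (Y2_cells (W := W) ok ot hV hVU hψ h1 (ha.add hb) hz) h0
  have e6 : ∀ k ∈ S, mm σ τ W e wc hi (fun w => ψ k w * a w) (fun w => ψ k w * b w) z =
      e z * (ψ k z * (a z + b z)) ^ 2 + wc z * (ψ k z * (a z - b z)) ^ 2 +
      (hi z * K2 σ τ W (fun w => ψ k w * (a w - b w)) z +
        Y2 σ τ W (fun w => ψ k w * (a w - b w)) z) +
      hi z * Y2 σ τ W (fun w => ψ k w * (a w + b w)) z := fun k _ => by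
    unfold mm
    rw [cut_add, cut_sub]
    ring
  rw [Finset.sum_congr rfl e6]
  simp only [Finset.sum_add_distrib, ← Finset.mul_sum]
  rw [← Finset.mul_sum] at e1 e2
  unfold mm
  linarith

theorem DK2_cut (ok : σ.Ok U θ) (ot : τ.Ok U θ) (hW : Sm U W) {ψ : E → ℝ} (hψ : Sm U ψ)
    (hf : Sm U f) (hz : z ∈ U) : DK2 σ τ W (fun w => ψ w * f w) z ≤
      2 * (ψ z ^ 2 * DK2 σ τ W f z) +
      6 * ((∑ i, (σ.D i ψ z - τ.D i ψ z) ^ 2) * K2 σ τ W f z +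
        (∑ j, gj σ τ ψ j z ^ 2) * (∑ i, (YY σ W f i z - YY τ W f i z) ^ 2) +
        (∑ i, ∑ j, (σ.D i (gj σ τ ψ j) z - τ.D i (gj σ τ ψ j) z) ^ 2) * f z ^ 2) := by
  have e1 : (∑ i, (σ.D i ψ z - τ.D i ψ z) ^ 2) * K2 σ τ W f z =
      ∑ i, ∑ j, ((σ.D i ψ z - τ.D i ψ z) * Kj σ τ W f j z) ^ 2 := by
    unfold K2
    rw [Finset.sum_mul_sum]
    exact Finset.sum_congr rfl fun i _ => Finset.sum_congr rfl fun j _ => by ring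
  have e2 : (∑ j, gj σ τ ψ j z ^ 2) * (∑ i, (YY σ W f i z - YY τ W f i z) ^ 2) =
      ∑ i, ∑ j, (gj σ τ ψ j z * (YY σ W f i z - YY τ W f i z)) ^ 2 := by
    rw [mul_comm, Finset.sum_mul_sum]
    exact Finset.sum_congr rfl fun i _ => Finset.sum_congr rfl fun j _ => by ring
  have e3 : (∑ i, ∑ j, (σ.D i (gj σ τ ψ j) z - τ.D i (gj σ τ ψ j) z) ^ 2) * f z ^ 2 =
      ∑ i, ∑ j, ((σ.D i (gj σ τ ψ j) z - τ.D i (gj σ τ ψ j) z) * f z) ^ 2 := by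
    rw [Finset.sum_mul]
    refine Finset.sum_congr rfl fun i _ => ?_
    rw [Finset.sum_mul]
    exact Finset.sum_congr rfl fun j _ => by ring
  rw [e1, e2, e3]
  unfold DK2
  simp only [Finset.mul_sum, ← Finset.sum_add_distrib]
  refine Finset.sum_le_sum fun i _ => Finset.sum_le_sum fun j _ => ?_
  rw [DKij_mul ok ot hW hψ hf i j hz]
  set x := ψ z * DKij σ τ W f i j z with hx
  set p := (σ.D i ψ z - τ.D i ψ z) * Kj σ τ W f j z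
  set q := gj σ τ ψ j z * (YY σ W f i z - YY τ W f i z)
  set r := (σ.D i (gj σ τ ψ j) z - τ.D i (gj σ τ ψ j) z) * f z
  have hxx : ψ z ^ 2 * DKij σ τ W f i j z ^ 2 = x ^ 2 := by rw [hx]; ring
  rw [hxx]
  nlinarith [sq_nonneg (x - p - q - r), sq_nonneg (p - q), sq_nonneg (q - r), sq_nonneg (p - r)]

theorem nd_le (hp : Pc σ τ W e wc S ψ ρ₀ ρ z) :
    ∑ k ∈ S, ∑ i, (σ.D i (ψ k) z - τ.D i (ψ k) z) ^ 2 ≤ 2 * ρ ∧
      ∑ k ∈ S, ∑ j, gj σ τ (ψ k) j z ^ 2 ≤ 2 * ρ := by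
  have h := hp.d1
  constructor
  · calc ∑ k ∈ S, ∑ i, (σ.D i (ψ k) z - τ.D i (ψ k) z) ^ 2
        ≤ ∑ k ∈ S, 2 * ((∑ i, σ.D i (ψ k) z ^ 2) + ∑ i, τ.D i (ψ k) z ^ 2) := by
          refine Finset.sum_le_sum fun k _ => ?_
          rw [← Finset.sum_add_distrib, Finset.mul_sum]
          exact Finset.sum_le_sum fun i _ => by
            nlinarith [sq_nonneg (σ.D i (ψ k) z + τ.D i (ψ k) z)]
      _ ≤ _ := by rw [← Finset.mul_sum]; linarith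
  · calc ∑ k ∈ S, ∑ j, gj σ τ (ψ k) j z ^ 2
        ≤ ∑ k ∈ S, 2 * ((∑ i, σ.D i (ψ k) z ^ 2) + ∑ i, τ.D i (ψ k) z ^ 2) := by
          refine Finset.sum_le_sum fun k _ => ?_
          rw [← Finset.sum_add_distrib, Finset.mul_sum]
          exact Finset.sum_le_sum fun i _ => by
            unfold gj
            nlinarith [sq_nonneg (σ.D i (ψ k) z - τ.D i (ψ k) z)]
      _ ≤ _ := by rw [← Finset.mul_sum]; linarith

theorem DK2_cells (ok : σ.Ok U θ) (ot : τ.Ok U θ) (hW : Sm U W) (hψ : ∀ k ∈ S, Sm U (ψ k))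
    (h1 : ∑ k ∈ S, ψ k z ^ 2 = 1) (hp : Pc σ τ W e wc S ψ ρ₀ ρ z) (hf : Sm U f) (hz : z ∈ U) :
    ∑ k ∈ S, DK2 σ τ W (fun w => ψ k w * f w) z ≤ 2 * DK2 σ τ W f z +
      (48 * (ρ * Y2 σ τ W f z) + 6 * (ρ * f z ^ 2)) := by
  obtain ⟨n1, n2⟩ := nd_le hp
  have n3 := hp.g1
  have hK := K2_le σ τ W f z
  have hD := dY_le σ τ W f z
  have k0 := K2_nonneg σ τ W f z
  have y0 := Y2_nonneg σ τ W f z
  have d0 : 0 ≤ ∑ i, (YY σ W f i z - YY τ W f i z) ^ 2 :=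
    Finset.sum_nonneg fun _ _ => sq_nonneg _
  have r0 : 0 ≤ ρ := le_trans (Finset.sum_nonneg fun k _ => add_nonneg
    (Finset.sum_nonneg fun _ _ => sq_nonneg _) (Finset.sum_nonneg fun _ _ => sq_nonneg _)) hp.d1
  have m1 := mul_le_mul_of_nonneg_right n1 k0
  have m2 := mul_le_mul_of_nonneg_right n2 d0
  have m3 := mul_le_mul_of_nonneg_right n3 (sq_nonneg (f z))
  have m4 := mul_le_mul_of_nonneg_left hK r0
  have m5 := mul_le_mul_of_nonneg_left hD r0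
  refine (Finset.sum_le_sum fun k hk => DK2_cut ok ot hW (hψ k hk) hf hz).trans ?_
  simp only [Finset.sum_add_distrib, ← Finset.mul_sum, ← Finset.sum_mul]
  rw [h1]
  linarith

theorem SR_cells (ok : σ.Ok U θ) (ot : τ.Ok U θ) (el : El σ z) (et : El τ z)
    (hp : Pc σ τ W e wc S ψ ρ₀ ρ z) (f : E → ℝ) :
    ∑ k ∈ S, ((σ.N W (ψ k) f z + τ.N W (ψ k) f z) / 2) ^ 2 +
      ∑ k ∈ S, ((σ.N W (ψ k) f z - τ.N W (ψ k) f z) / 2) ^ 2 ≤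
      16 * (ρ * Y2 σ τ W f z) + ρ * f z ^ 2 := by
  rw [← Finset.sum_add_distrib]
  refine (Finset.sum_le_sum fun k _ => SN_le ok ot el et W (ψ k) f).trans ?_
  simp only [Finset.sum_add_distrib, ← Finset.mul_sum, ← Finset.sum_mul]
  have y0 := Y2_nonneg σ τ W f z
  have h1 := mul_le_mul_of_nonneg_right hp.d1 y0
  have h2 := mul_le_mul_of_nonneg_right hp.l1 (sq_nonneg (f z))
  simp only [Finset.sum_add_distrib] at h1 h2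
  linarith

/-- The costs. -/
theorem cc_cells (ok : σ.Ok U θ) (ot : τ.Ok U θ) (el : El σ z) (et : El τ z) (hW : Sm U W)
    (hψ : ∀ k ∈ S, Sm U (ψ k)) (h1 : ∑ k ∈ S, ψ k z ^ 2 = 1)
    (hp : Pc σ τ W e wc S ψ ρ₀ ρ z) (ha : Sm U a) (hb : Sm U b) (hz : z ∈ U)
    (e1 : 1 ≤ e z) (w1 : 1 ≤ wc z) (i1 : 1 ≤ hi z) (h0 : 0 ≤ h z) (h2 : h z ≤ 1) (d0 : 0 ≤ d z)
    (d1 : d z ≤ 1) :
    ∑ k ∈ S, cc σ τ v₁ v₂ W h d (fun w => ψ k w * a w) (fun w => ψ k w * b w)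
      (fun w => ψ k w * s₁ w) (fun w => ψ k w * s₂ w) (fun w => ψ k w * s₃ w)
      (fun w => ψ k w * s₄ w) z ≤ 2 * cc σ τ v₁ v₂ W h d a b s₁ s₂ s₃ s₄ z +
        80 * ρ * mm σ τ W e wc hi a b z := by
  have hf := ha.add hb
  have hg := ha.sub hb
  have r0 : 0 ≤ ρ := le_trans (Finset.sum_nonneg fun k _ => add_nonneg
    (Finset.sum_nonneg fun _ _ => sq_nonneg _) (Finset.sum_nonneg fun _ _ => sq_nonneg _)) hp.d1
  set f := fun w => a w + b w with hfd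
  set g := fun w => a w - b w with hgd
  have a1 := ps_le S (fun k => ψ k z) (fun k => (σ.N W (ψ k) f z + τ.N W (ψ k) f z) / 2)
    (Sp σ τ v₁ v₂ W f z) (s₁ z) h1
  have a2 := ps_le S (fun k => ψ k z) (fun k => (σ.N W (ψ k) f z - τ.N W (ψ k) f z) / 2)
    (Rp σ τ v₁ v₂ W f z) (s₂ z) h1
  have a3 := ps_le S (fun k => ψ k z) (fun k => (σ.N W (ψ k) g z + τ.N W (ψ k) g z) / 2)
    (Sp σ τ v₁ v₂ W g z) (s₃ z) h1
  have a4 := ps_le S (fun k => ψ k z) (fun k => (σ.N W (ψ k) g z - τ.N W (ψ k) g z) / 2)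
    (Rp σ τ v₁ v₂ W g z) (s₄ z) h1
  have b1 := SR_cells ok ot el et hp f
  have b2 := SR_cells ok ot el et hp g
  have b3 := DK2_cells ok ot hW hψ h1 hp hg hz
  have ex : ∀ k ∈ S, cc σ τ v₁ v₂ W h d (fun w => ψ k w * a w) (fun w => ψ k w * b w)
      (fun w => ψ k w * s₁ w) (fun w => ψ k w * s₂ w) (fun w => ψ k w * s₃ w)
      (fun w => ψ k w * s₄ w) z =
      (ψ k z * Sp σ τ v₁ v₂ W f z + (σ.N W (ψ k) f z + τ.N W (ψ k) f z) / 2 -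
        ψ k z * s₁ z) ^ 2 +
      (ψ k z * Rp σ τ v₁ v₂ W f z + (σ.N W (ψ k) f z - τ.N W (ψ k) f z) / 2 -
        ψ k z * s₂ z) ^ 2 +
      h z * (ψ k z * Sp σ τ v₁ v₂ W g z + (σ.N W (ψ k) g z + τ.N W (ψ k) g z) / 2 -
        ψ k z * s₃ z) ^ 2 +
      (ψ k z * Rp σ τ v₁ v₂ W g z + (σ.N W (ψ k) g z - τ.N W (ψ k) g z) / 2 -
        ψ k z * s₄ z) ^ 2 +
      d z * DK2 σ τ W (fun w => ψ k w * g w) z := fun k hk => by
    unfold cc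
    rw [cut_add, cut_sub, Sp_mul ok ot (hψ k hk) hf hz, Rp_mul ok ot (hψ k hk) hf hz,
      Sp_mul ok ot (hψ k hk) hg hz, Rp_mul ok ot (hψ k hk) hg hz]
  rw [Finset.sum_congr rfl ex]
  simp only [Finset.sum_add_distrib, ← Finset.mul_sum]
  have n1 : 0 ≤ ∑ k ∈ S, ((σ.N W (ψ k) f z + τ.N W (ψ k) f z) / 2) ^ 2 :=
    Finset.sum_nonneg fun _ _ => sq_nonneg _
  have n3 : 0 ≤ ∑ k ∈ S, ((σ.N W (ψ k) g z + τ.N W (ψ k) g z) / 2) ^ 2 :=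
    Finset.sum_nonneg fun _ _ => sq_nonneg _
  have yf := Y2_nonneg σ τ W f z
  have yg := Y2_nonneg σ τ W g z
  have kg := K2_nonneg σ τ W g z
  have c3 := mul_le_mul_of_nonneg_left a3 h0
  have c4 : h z * ∑ k ∈ S, ((σ.N W (ψ k) g z + τ.N W (ψ k) g z) / 2) ^ 2 ≤
      1 * ∑ k ∈ S, ((σ.N W (ψ k) g z + τ.N W (ψ k) g z) / 2) ^ 2 :=
    mul_le_mul_of_nonneg_right h2 n3
  have c5 := mul_le_mul_of_nonneg_left b3 d0
  have q0 : 0 ≤ 48 * (ρ * Y2 σ τ W g z) + 6 * (ρ * g z ^ 2) := by positivity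
  have c6 : d z * (48 * (ρ * Y2 σ τ W g z) + 6 * (ρ * g z ^ 2)) ≤
      1 * (48 * (ρ * Y2 σ τ W g z) + 6 * (ρ * g z ^ 2)) := mul_le_mul_of_nonneg_right d1 q0
  have f1 : f z ^ 2 ≤ e z * f z ^ 2 := le_mul_of_one_le_left (sq_nonneg _) e1
  have g1 : g z ^ 2 ≤ wc z * g z ^ 2 := le_mul_of_one_le_left (sq_nonneg _) w1
  have y1 : Y2 σ τ W f z ≤ hi z * Y2 σ τ W f z := le_mul_of_one_le_left yf i1
  have k1 : 0 ≤ hi z * K2 σ τ W g z := mul_nonneg (by linarith) kg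
  have M : f z ^ 2 + g z ^ 2 + Y2 σ τ W g z + Y2 σ τ W f z ≤ mm σ τ W e wc hi a b z := by
    have e : mm σ τ W e wc hi a b z = e z * f z ^ 2 + wc z * g z ^ 2 +
      (hi z * K2 σ τ W g z + Y2 σ τ W g z) + hi z * Y2 σ τ W f z := rfl
    rw [e]; linarith
  have M1 := mul_le_mul_of_nonneg_left M r0
  have z1 : 0 ≤ ρ * f z ^ 2 := by positivity
  have z2 : 0 ≤ ρ * g z ^ 2 := by positivity
  have z3 : 0 ≤ ρ * Y2 σ τ W f z := by positivity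
  have z4 : 0 ≤ ρ * Y2 σ τ W g z := by positivity
  have fin : cc σ τ v₁ v₂ W h d a b s₁ s₂ s₃ s₄ z = (Sp σ τ v₁ v₂ W f z - s₁ z) ^ 2 +
    (Rp σ τ v₁ v₂ W f z - s₂ z) ^ 2 + h z * (Sp σ τ v₁ v₂ W g z - s₃ z) ^ 2 +
    (Rp σ τ v₁ v₂ W g z - s₄ z) ^ 2 + d z * DK2 σ τ W g z := rfl
  rw [fin]
  linarith

end pw

end Vale.Agent.P088.R2.H676.F
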