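import Vale.Agent.P088.R2.H676.F.CdC
import Vale.Agent.P088.R2.H858.B1.Pc

/-!
# P088, zone B1: from the cells to the curved box of the outer cut-off
-/

set_option linter.unusedSectionVars false

open MeasureTheory Set Filter
open scoped ContDiff Topology

noncomputable section

namespace Vale.Agent.P088.R2.H676.F

open Vale.Agent.P088.LR Vale.Agent.P088.HY
open Vale.Agent.P088.R2.H961.GW (Sl Te In Sm slx sly)
open Vale.Agent.P088.R2.H464
open Vale.Agent.P088.R2.H961.S (mid)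
open Vale.Agent.P088.R2.H858.B1 (Lc Sb2 HB cell Fd)
open Vale.Agent.P088.R2.H86.Z (El)
open Vale.Agent.P088.R2.H516.O (CB)

variable {n : ℕ}

attribute [local instance] haarV

/-- The scaled midpoint. -/
def LA (n : ℕ) (A : ℝ) : VV n →L[ℝ] V n := A⁻¹ • mid (Fin n)

theorem LA_apply (A : ℝ) (z : VV n) (j : Fin n) :
    LA n A z j = ((1 / 2 : ℝ) • (z.1 + z.2)) j / A := by
  unfold LA
  rw [_root_.smul_apply, H961.S.mid_apply, Pi.smul_apply, smul_eq_mul]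
  ring

theorem lc_x (A : ℝ) (s : MF n) : Lc (slx (fun _ => (1 : ℝ)) s) (LA n A) (1 / (2 * A)) where
  ρ _ := rfl
  e i := by
    funext j
    rw [LA_apply]
    change ((1 / 2 : ℝ) • ((Pi.single i 1 : V n) + 0)) j / A = (1 / (2 * A)) • (Pi.single i 1 : V n) j
    rw [add_zero, Pi.smul_apply, smul_eq_mul, smul_eq_mul]
    ring

theorem lc_y (A : ℝ) (s : MF n) : Lc (sly (fun _ => (1 : ℝ)) s) (LA n A) (1 / (2 * A)) where
  ρ _ := rfl
  e i := by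
    funext j
    rw [LA_apply]
    change ((1 / 2 : ℝ) • (0 + (Pi.single i 1 : V n))) j / A = (1 / (2 * A)) • (Pi.single i 1 : V n) j
    rw [zero_add, Pi.smul_apply, smul_eq_mul, smul_eq_mul]
    ring

/-- The cell of the centre `p₀`. -/
def Zp (n : ℕ) (Ω : Set (VV n)) (A : ℝ) (p₀ : V n) : Set (VV n) :=
  Ω ∩ {z | ∀ j, |((1 / 2 : ℝ) • (z.1 + z.2)) j - p₀ j| < 3 / 2 * A}

theorem Zp_cell {Ω : Set (VV n)} {A : ℝ} (hA : 0 < A) (k : Fin n → ℤ) :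
    Ω ∩ cell (LA n A) k = Zp n Ω A fun j => A * k j := by
  unfold Zp cell
  congr 1
  ext z
  refine forall_congr' fun j => ?_
  rw [LA_apply]
  have e : ((1 / 2 : ℝ) • (z.1 + z.2)) j / A - (k j : ℝ) =
      (((1 / 2 : ℝ) • (z.1 + z.2)) j - A * k j) / A := by field_simp
  rw [e, abs_div, abs_of_pos hA, div_lt_iff₀ hA]

theorem Zp_open {Ω : Set (VV n)} (hΩ : IsOpen Ω) (A : ℝ) (p₀ : V n) : IsOpen (Zp n Ω A p₀) := by
  refine hΩ.inter ?_
  have e : {z : VV n | ∀ j, |((1 / 2 : ℝ) • (z.1 + z.2)) j - p₀ j| < 3 / 2 * A} =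
      ⋂ j, {z : VV n | |((1 / 2 : ℝ) • (z.1 + z.2)) j - p₀ j| < 3 / 2 * A} := by
    ext z; simp
  rw [e]
  refine isOpen_iInter_of_finite fun j => isOpen_lt ?_ continuous_const
  fun_prop

theorem Zp_sub {Ω : Set (VV n)} {A : ℝ} {p₀ : V n} : Zp n Ω A p₀ ⊆ Ω := inter_subset_left

/-- **From the cells to the curved box of the outer cut-off.** The size `A₀` of the cells depends
only on `n`, `Lam`, `CW`, `b`. -/
theorem cb_zone (n : ℕ) {Lam CW b : ℝ} (hL : 1 ≤ Lam) (hC : 1 ≤ CW) (hb : 0 ≤ b) :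
    ∃ A₀ : ℝ, 1 ≤ A₀ ∧ ∀ A, A₀ ≤ A → ∀ (s₁ s₂ : MF n) (Ω : Set (VV n)) (W : EP.Sm (VV n))
      (e h hi wc dt : VV n → ℝ), IsOpen Ω → Wt univ Ω e h hi wc dt →
      ((slx (fun _ => (1 : ℝ)) s₁).Ok univ fun _ => 1) →
      ((sly (fun _ => (1 : ℝ)) s₂).Ok univ fun _ => 1) →
      (∀ z ∈ Ω, El (slx (fun _ => (1 : ℝ)) s₁) z) → (∀ z ∈ Ω, El (sly (fun _ => (1 : ℝ)) s₂) z) →
      (∀ z ∈ Ω, Sb2 (slx (fun _ => (1 : ℝ)) s₁) z) →
      (∀ z ∈ Ω, Sb2 (sly (fun _ => (1 : ℝ)) s₂) z) →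
      (∀ z ∈ Ω, HB (slx (fun _ => (1 : ℝ)) s₁) (sly (fun _ => (1 : ℝ)) s₂) (W : VV n → ℝ) e wc
        b z) →
      (∀ p₀ : V n, Cd (slx (fun _ => (1 : ℝ)) s₁) (sly (fun _ => (1 : ℝ)) s₂) univ
        (Zp n Ω A p₀) (fun _ => 1) (fun _ => 0) (fun _ => 0) (W : VV n → ℝ) e h hi wc dt
        (cO n Lam CW) (CO n Lam CW)) →
      CB (slx (fun _ => (1 : ℝ)) s₁) (sly (fun _ => (1 : ℝ)) s₂) univ Ω (fun _ => 1)
        (fun _ => 0) (fun _ => 0) (W : VV n → ℝ) e h wc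
        (Mxf (slx (fun _ => (1 : ℝ)) s₁) (sly (fun _ => (1 : ℝ)) s₂) univ (fun _ => 1)
          (W : VV n → ℝ) hi)
        (F5t (slx (fun _ => (1 : ℝ)) s₁) (sly (fun _ => (1 : ℝ)) s₂) univ (fun _ => 1)
          (W : VV n → ℝ) dt)
        (cO n Lam CW / 2) (2 * CO n Lam CW) := by
  obtain ⟨B, hB1, hB⟩ := H858.B1.Fd_bd
  have hc := cO_pos n hL hC
  have hCO := CO_nn n (Lam := Lam) (by linarith : 0 ≤ CW)
  have n0 : (0 : ℝ) ≤ n := Nat.cast_nonneg n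
  obtain ⟨K, hK⟩ : ∃ K, K = (8 * b * n + 1600 * CO n Lam CW * ((n : ℝ) + 1) ^ 4) *
    (3 * B ^ 2) ^ n := ⟨_, rfl⟩
  have K0 : 0 ≤ K := by rw [hK]; positivity
  refine ⟨1 + K / cO n Lam CW, by
    have := div_nonneg K0 hc.le
    linarith, fun A hA s₁ s₂ Ω W e h hi wc dt hΩ wt ok ot el et sb sb' hH cells => ?_⟩
  have hA1 : 1 ≤ A := by
    have := div_nonneg K0 hc.le
    linarith
  have hA0 : 0 < A := by linarith
  have hKA : K ≤ cO n Lam CW * A := by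
    have h1 : K / cO n Lam CW ≤ A := by linarith
    rw [div_le_iff₀ hc] at h1
    linarith
  have cA : (1 / (2 * A)) ^ 2 * A ≤ 1 / 4 := by
    have e1 : (1 / (2 * A)) ^ 2 * A = 1 / (4 * A) := by field_simp; ring
    rw [e1]
    exact div_le_div_of_nonneg_left one_pos.le (by norm_num) (by linarith)
  have cA1 : |1 / (2 * A)| ≤ 1 := by
    rw [abs_of_nonneg (by positivity), div_le_one (by linarith)]
    linarith
  obtain ⟨q, hq⟩ : ∃ q, q = (1 / (2 * A)) ^ 2 := ⟨_, rfl⟩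
  have q0 : 0 ≤ q := by rw [hq]; positivity
  have hKq : K * q ≤ cO n Lam CW / 4 := by
    calc K * q ≤ cO n Lam CW * A * q := mul_le_mul_of_nonneg_right hKA q0
      _ = cO n Lam CW * (q * A) := by ring
      _ ≤ cO n Lam CW * (1 / 4) := mul_le_mul_of_nonneg_left (by rw [hq]; exact cA) hc.le
      _ = _ := by ring
  have hW : Sm univ (W : VV n → ℝ) := (EP.scd W).contDiffOn
  have z0 : Sm univ fun _ : VV n => (0 : ℝ) := contDiffOn_const
  have key := Cd_sum ok ot z0 z0 hW wt (subset_univ Ω) el et hCO hc.le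
    (ρ₀ := 8 * b * (n * ((1 / (2 * A)) ^ 2 * (3 * B ^ 2) ^ n)))
    (ρ := 20 * ((n : ℝ) + 1) ^ 4 * ((1 / (2 * A)) ^ 2 * (3 * B ^ 2) ^ n)) (by positivity)
    (by
      rw [← hq]
      have : 8 * b * (n * (q * (3 * B ^ 2) ^ n)) + 80 * CO n Lam CW *
        (20 * ((n : ℝ) + 1) ^ 4 * (q * (3 * B ^ 2) ^ n)) = K * q := by rw [hK]; ring
      rw [this]
      linarith)
    (Z := fun k : Fin n → ℤ => Ω ∩ cell (LA n A) k)
    (fun k => by
      rw [Zp_cell hA0 k]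
      exact cells _)
    (H858.B1.part_ex hB (lc_x A s₁) (lc_y A s₂) cA1 hΩ sb sb' hb
      (fun z hz => by linarith [wt.e1 z hz]) (fun z hz => by linarith [wt.w1 z hz]) hH)
  exact CB_of_Cd ok ot z0 z0 hW wt (subset_univ Ω) key

end Vale.Agent.P088.R2.H676.F
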